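import Vale.Agent.P202Y.YC1
import Vale.Agent.P202.Def
import Vale.Agent.P202C.W3

/-! # P202Z, ZC2: rank `≤` multiplicity (helper48) -/

namespace Vale.Agent.P202Z

open IsLocalRing Vale.Agent.P202 Vale.Agent.P202Y

universe u v w

section length

variable {A : Type u} [CommRing A] [IsLocalRing A] {R : Type v} [CommRing R] [IsLocalRing R]
  [Algebra A R] [IsLocalHom (algebraMap A R)]

theorem ZC2_res (hres : ∀ x : R, ∃ b, x - algebraMap A R b ∈ maximalIdeal R) :
    Module.length A (R ⧸ maximalIdeal R) ≤ 1 := by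
  have h1 : Module.length A (A ⧸ maximalIdeal A) = 1 := by
    have : IsSimpleModule A (A ⧸ maximalIdeal A) :=
      isSimpleModule_iff_isCoatom.2 (maximalIdeal.isMaximal A).out
    exact Module.length_eq_one A _
  rw [← h1]
  let g : A →ₗ[A] R ⧸ maximalIdeal R := Algebra.linearMap A (R ⧸ maximalIdeal R)
  have hg : ∀ a ∈ maximalIdeal A, g a = 0 := by
    intro a ha
    change algebraMap A (R ⧸ maximalIdeal R) a = 0
    rw [IsScalarTower.algebraMap_apply A R (R ⧸ maximalIdeal R)]
    refine Ideal.Quotient.eq_zero_iff_mem.2 ?_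
    rw [mem_maximalIdeal, mem_nonunits_iff] at ha ⊢
    exact fun hu => ha (isUnit_of_map_unit (algebraMap A R) a hu)
  refine Module.length_le_of_surjective ((maximalIdeal A).liftQ g hg) ?_
  intro x
  obtain ⟨y, rfl⟩ := Ideal.Quotient.mk_surjective x
  obtain ⟨b, hb⟩ := hres y
  refine ⟨Submodule.Quotient.mk b, ?_⟩
  change algebraMap A (R ⧸ maximalIdeal R) b = _
  rw [IsScalarTower.algebraMap_apply A R (R ⧸ maximalIdeal R)]
  exact (Ideal.Quotient.eq.2 hb).symm

theorem ZC2_length (hres : ∀ x : R, ∃ b, x - algebraMap A R b ∈ maximalIdeal R) {M : Type w}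
    [AddCommGroup M] [Module R M] (hM : IsFiniteLength R M) :
    ∀ [Module A M] [IsScalarTower A R M], Module.length A M ≤ Module.length R M := by
  induction hM with
  | @of_subsingleton M _ _ _ =>
    intro _ _
    rw [Module.length_eq_zero]
    exact bot_le
  | @of_simple_quotient M _ _ N hs _ ih =>
    intro _ _
    have h1 : Module.length A M = Module.length A N + Module.length A (M ⧸ N) :=
      Module.length_eq_add_of_exact (N.subtype.restrictScalars A) (N.mkQ.restrictScalars A)
        (Submodule.subtype_injective N) (Submodule.mkQ_surjective N)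
        (LinearMap.exact_subtype_mkQ N)
    have h2 : Module.length R M = Module.length R N + 1 := by
      rw [Module.length_eq_add_of_exact N.subtype N.mkQ (Submodule.subtype_injective N)
        (Submodule.mkQ_surjective N) (LinearMap.exact_subtype_mkQ N), Module.length_eq_one R (M ⧸ N)]
    rw [h1, h2]
    refine add_le_add ih ?_
    obtain ⟨I, hI, ⟨e⟩⟩ := isSimpleModule_iff_quot_maximal.1 hs
    have hI2 := IsLocalRing.eq_maximalIdeal hI
    subst hI2
    rw [(e.restrictScalars A).length_eq]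
    exact ZC2_res hres

end length

section card

variable {D : ℕ} {κ : Type u} [Field κ]

/-- the ideal of power series whose coefficients in the lower set `S` vanish -/
def ZC2_I (κ : Type u) [Field κ] (S : Finset (Fin D →₀ ℕ)) (hS : IsLowerSet (S : Set (Fin D →₀ ℕ))) :
    Ideal (MvPowerSeries (Fin D) κ) where
  carrier := {f | ∀ m ∈ S, MvPowerSeries.coeff m f = 0}
  zero_mem' := fun m _ => map_zero _
  add_mem' := fun {f g} hf hg m hm => by rw [map_add, hf m hm, hg m hm, add_zero]
  smul_mem' := fun g f hf m hm => by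
    classical
    rw [smul_eq_mul, MvPowerSeries.coeff_mul]
    refine Finset.sum_eq_zero fun x hx => ?_
    rw [Finset.HasAntidiagonal.mem_antidiagonal] at hx
    rw [hf x.2 (hS (by rw [← hx]; exact le_add_self) hm), mul_zero]

theorem ZC2_mem_I {S : Finset (Fin D →₀ ℕ)} {hS : IsLowerSet (S : Set (Fin D →₀ ℕ))}
    {f : MvPowerSeries (Fin D) κ} : f ∈ ZC2_I κ S hS ↔ ∀ m ∈ S, MvPowerSeries.coeff m f = 0 := Iff.rfl

theorem ZC2_card (n : ℕ) : ∀ (S : Finset (Fin D →₀ ℕ)) (hS : IsLowerSet (S : Set (Fin D →₀ ℕ))),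
    S.card = n → (n : ℕ∞) ≤ Module.length (MvPowerSeries (Fin D) κ)
      (MvPowerSeries (Fin D) κ ⧸ ZC2_I κ S hS) := by
  classical
  induction n with
  | zero => intro S hS _; exact bot_le
  | succ n ih =>
    intro S hS hn
    have hne : S.Nonempty := by
      rw [← Finset.card_pos, hn]; omega
    obtain ⟨m, hm, hmax⟩ := S.exists_maximal hne
    have hS' : IsLowerSet ((S.erase m : Finset (Fin D →₀ ℕ)) : Set (Fin D →₀ ℕ)) := by
      intro a b hba ha
      rw [Finset.mem_coe, Finset.mem_erase] at ha ⊢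
      refine ⟨?_, hS hba ha.2⟩
      rintro rfl
      exact ha.1 (le_antisymm (hmax ha.2 hba) hba)
    have hcard : (S.erase m).card = n := by
      rw [Finset.card_erase_of_mem hm, hn]; omega
    have h1 := ih (S.erase m) hS' hcard
    have hle : ZC2_I κ S hS ≤ ZC2_I κ (S.erase m) hS' := fun f hf k hk => hf k (Finset.mem_of_mem_erase hk)
    let g := Submodule.factor hle
    have hg : Function.Surjective g := Submodule.factor_surjective hle
    have h2 := Module.length_eq_add_of_exact (LinearMap.ker g).subtype g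
      (Submodule.subtype_injective _) hg (LinearMap.exact_subtype_ker_map g)
    rw [h2, Nat.cast_succ, add_comm]
    refine add_le_add ?_ h1
    rw [Order.one_le_iff_ne_zero, Ne, Module.length_eq_zero_iff]
    intro hsub
    have hmem : (Submodule.Quotient.mk (MvPowerSeries.monomial m (1 : κ)) :
        MvPowerSeries (Fin D) κ ⧸ ZC2_I κ S hS) ∈ LinearMap.ker g := by
      rw [LinearMap.mem_ker]
      change Submodule.Quotient.mk (MvPowerSeries.monomial m (1 : κ)) = 0
      rw [Submodule.Quotient.mk_eq_zero]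
      intro k hk
      rw [MvPowerSeries.coeff_monomial, if_neg (Finset.ne_of_mem_erase hk)]
    have h0 : (⟨_, hmem⟩ : LinearMap.ker g) = 0 := Subsingleton.elim _ _
    have h3 : (Submodule.Quotient.mk (MvPowerSeries.monomial m (1 : κ)) :
        MvPowerSeries (Fin D) κ ⧸ ZC2_I κ S hS) = 0 := congrArg Subtype.val h0
    rw [Submodule.Quotient.mk_eq_zero] at h3
    have h4 := h3 m hm
    rw [MvPowerSeries.coeff_monomial_same] at h4
    exact one_ne_zero h4

/-- exponents of degree `≤ q` -/
noncomputable def ZC2_S (D q : ℕ) : Finset (Fin D →₀ ℕ) :=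
  (Finset.finsuppAntidiag (Finset.univ : Finset (Fin (D + 1))) q).image Finsupp.tail

theorem ZC2_mem_S {q : ℕ} {m : Fin D →₀ ℕ} : m ∈ ZC2_S D q ↔ m.degree ≤ q := by
  unfold ZC2_S
  rw [Finset.mem_image]
  constructor
  · rintro ⟨a, ha, rfl⟩
    rw [Finset.mem_finsuppAntidiag, Fin.sum_univ_succ] at ha
    rw [Finsupp.degree_eq_sum]
    have : ∀ i, a.tail i = a i.succ := fun i => rfl
    simp only [this]
    omega
  · intro h
    refine ⟨Finsupp.cons (q - m.degree) m, ?_, Finsupp.tail_cons _ _⟩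
    rw [Finset.mem_finsuppAntidiag, Fin.sum_univ_succ]
    refine ⟨?_, Finset.subset_univ _⟩
    rw [Finsupp.cons_zero]
    simp only [Finsupp.cons_succ]
    rw [Finsupp.degree_eq_sum] at *
    omega

theorem ZC2_card_S (D q : ℕ) : (ZC2_S D q).card = (D + q).choose q := by
  unfold ZC2_S
  rw [Finset.card_image_of_injOn, Finset.card_finsuppAntidiag_nat_eq_choose]
  · simp [add_comm]
  · intro a ha b hb hab
    rw [Finset.mem_coe, Finset.mem_finsuppAntidiag, Fin.sum_univ_succ] at ha hb
    have h1 : ∀ i : Fin D, a i.succ = b i.succ := fun i => DFunLike.congr_fun hab i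
    have h2 : ∑ i : Fin D, a i.succ = ∑ i : Fin D, b i.succ := Finset.sum_congr rfl fun i _ => h1 i
    ext i
    refine Fin.cases ?_ h1 i
    omega

theorem ZC2_lower (D q : ℕ) : IsLowerSet (ZC2_S D q : Set (Fin D →₀ ℕ)) := by
  intro a b hba ha
  rw [Finset.mem_coe, ZC2_mem_S] at ha ⊢
  exact (Finsupp.degree_mono hba).trans ha

theorem ZC2_pow_le (q : ℕ) : maximalIdeal (MvPowerSeries (Fin D) κ) ^ (q + 1) ≤
    ZC2_I κ (ZC2_S D q) (ZC2_lower D q) := by
  classical
  have h0 : ∀ f ∈ maximalIdeal (MvPowerSeries (Fin D) κ), MvPowerSeries.coeff 0 f = 0 := by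
    intro f hf
    rw [mem_maximalIdeal, mem_nonunits_iff, MvPowerSeries.isUnit_iff_constantCoeff] at hf
    by_contra h
    exact hf (isUnit_iff_ne_zero.2 h)
  induction q with
  | zero =>
    rw [zero_add, pow_one]
    intro f hf m hm
    rw [ZC2_mem_S, Nat.le_zero, Finsupp.degree_eq_zero_iff] at hm
    rw [hm]; exact h0 f hf
  | succ q ih =>
    rw [pow_succ']
    refine (Ideal.mul_mono_right ih).trans ?_
    rw [Ideal.mul_le]
    intro r hr f hf m hm
    rw [MvPowerSeries.coeff_mul]
    refine Finset.sum_eq_zero fun x hx => ?_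
    rw [Finset.HasAntidiagonal.mem_antidiagonal] at hx
    by_cases h1 : x.2.degree ≤ q
    · rw [hf x.2 (ZC2_mem_S.2 h1), mul_zero]
    · rw [ZC2_mem_S, ← hx, map_add] at hm
      have h2 : x.1.degree = 0 := by omega
      rw [Finsupp.degree_eq_zero_iff] at h2
      rw [h2, h0 r hr, zero_mul]

theorem ZC2_choose_le (D q : ℕ) (κ : Type u) [Field κ] : (((D + q).choose q : ℕ) : ℕ∞) ≤
    Module.length (MvPowerSeries (Fin D) κ)
      (MvPowerSeries (Fin D) κ ⧸ maximalIdeal (MvPowerSeries (Fin D) κ) ^ (q + 1)) := by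
  rw [← ZC2_card_S D q]
  refine (ZC2_card (κ := κ) _ _ (ZC2_lower D q) rfl).trans ?_
  exact Module.length_le_of_surjective (Submodule.factor (ZC2_pow_le q)) (Submodule.factor_surjective _)

end card

section main

variable (D : ℕ) {κ : Type u} [Field κ] (R : Type v) [CommRing R] [IsLocalRing R]
  [IsNoetherianRing R] [Algebra (MvPowerSeries (Fin D) κ) R]
  [Module.Finite (MvPowerSeries (Fin D) κ) R] [IsLocalHom (algebraMap (MvPowerSeries (Fin D) κ) R)]

theorem ZC2_fin (N : ℕ) : Module.length R (R ⧸ maximalIdeal R ^ N) ≠ ⊤ := by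
  refine Vale.Agent.P202C.SA.length_ne_top_of_pow N ?_
  intro r hr x
  obtain ⟨y, rfl⟩ := Ideal.Quotient.mk_surjective x
  exact Ideal.Quotient.eq_zero_iff_mem.2 (Ideal.mul_mem_right _ _ hr)

theorem ZC2_le (hres : ∀ x : R, ∃ b, x - algebraMap (MvPowerSeries (Fin D) κ) R b ∈
      maximalIdeal R) (s : ℕ)
    (f : (Fin s → MvPowerSeries (Fin D) κ) →ₗ[MvPowerSeries (Fin D) κ] R)
    (hf : Function.Injective f) (c : ℕ)
    (hc : ∀ N, maximalIdeal R ^ (N + c) ≤ Ideal.span
      (Set.range fun ν => algebraMap (MvPowerSeries (Fin D) κ) R (MvPowerSeries.X ν)) ^ N) :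
    ∃ b : ℕ, ∀ N : ℕ, s * (D + N).choose N ≤
      (Module.length R (R ⧸ maximalIdeal R ^ (N + b))).toNat := by
  set A := MvPowerSeries (Fin D) κ with hA
  set n := maximalIdeal A with hn
  set J := Ideal.span (Set.range fun ν => algebraMap A R (MvPowerSeries.X ν)) with hJ
  have hJn : J = n.map (algebraMap A R) := by
    have hmx : n = Ideal.span (Set.range (MvPowerSeries.X : Fin D → MvPowerSeries (Fin D) κ)) :=
      mvps_maximal_proved D κ
    rw [hmx, Ideal.map_span, hJ, ← Set.range_comp]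
    rfl
  -- Artin-Rees
  obtain ⟨k0, hk0⟩ := Ideal.exists_pow_inf_eq_pow_smul n (LinearMap.range f)
  refine ⟨k0 + 1 + c, fun N => ?_⟩
  have hle : maximalIdeal R ^ (N + (k0 + 1 + c)) ≤ J ^ (N + 1 + k0) := by
    have := hc (N + 1 + k0)
    rwa [show N + 1 + k0 + c = N + (k0 + 1 + c) by ring] at this
  have hfin := ZC2_fin R (N + (k0 + 1 + c))
  have hfin2 : Module.length R (R ⧸ J ^ (N + 1 + k0)) ≠ ⊤ := by
    refine ne_top_of_le_ne_top hfin ?_
    exact Module.length_le_of_surjective (Submodule.factor hle) (Submodule.factor_surjective _)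
  have h1 : Module.length R (R ⧸ J ^ (N + 1 + k0)) ≤ Module.length R (R ⧸ maximalIdeal R ^ (N + (k0 + 1 + c))) :=
    Module.length_le_of_surjective (Submodule.factor hle) (Submodule.factor_surjective _)
  have h2 : Module.length A (R ⧸ J ^ (N + 1 + k0)) ≤ Module.length R (R ⧸ J ^ (N + 1 + k0)) :=
    ZC2_length hres (Module.length_ne_top_iff.1 hfin2)
  -- the map
  let g : (Fin s → A) →ₗ[A] R ⧸ J ^ (N + 1 + k0) :=
    ((Submodule.mkQ (J ^ (N + 1 + k0))).restrictScalars A).comp f
  let π : (Fin s → A) →ₗ[A] (Fin s → A ⧸ n ^ (N + 1)) :=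
    LinearMap.pi fun i => (Submodule.mkQ (n ^ (N + 1))).comp (LinearMap.proj i)
  have hπ : Function.Surjective π := by
    intro y
    choose x hx using fun i => Submodule.mkQ_surjective _ (y i)
    exact ⟨x, funext hx⟩
  have hker : LinearMap.ker g ≤ LinearMap.ker π := by
    intro v hv
    have h3 : f v ∈ J ^ (N + 1 + k0) := by
      have : (Submodule.Quotient.mk (f v) : R ⧸ J ^ (N + 1 + k0)) = 0 := hv
      rwa [Submodule.Quotient.mk_eq_zero] at this
    have h4 : f v ∈ n ^ (N + 1 + k0) • (⊤ : Submodule A R) ⊓ LinearMap.range f := by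
      refine ⟨?_, ⟨v, rfl⟩⟩
      rw [Ideal.smul_top_eq_map]
      change f v ∈ (n ^ (N + 1 + k0)).map (algebraMap A R)
      rw [Ideal.map_pow, ← hJn]
      exact h3
    rw [hk0 _ (by omega), show N + 1 + k0 - k0 = N + 1 by omega] at h4
    have h5 : f v ∈ n ^ (N + 1) • LinearMap.range f := Submodule.smul_mono le_rfl inf_le_right h4
    rw [LinearMap.range_eq_map, ← Submodule.map_smul''] at h5
    obtain ⟨w, hw, hwv⟩ := h5
    have hwv' : w = v := hf hwv
    subst hwv'
    rw [LinearMap.mem_ker]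
    funext i
    change (Submodule.Quotient.mk (w i) : A ⧸ n ^ (N + 1)) = 0
    rw [Submodule.Quotient.mk_eq_zero]
    have hw2 : w ∈ n ^ (N + 1) • (⊤ : Submodule A (Fin s → A)) := hw
    refine Submodule.smul_induction_on hw2 ?_ ?_
    · intro r hr y _
      exact Ideal.mul_mem_right _ _ hr
    · intro x y hx hy
      exact Ideal.add_mem _ hx hy
  have h6 : Module.length A (Fin s → A ⧸ n ^ (N + 1)) ≤ Module.length A (R ⧸ J ^ (N + 1 + k0)) := by
    calc Module.length A (Fin s → A ⧸ n ^ (N + 1)) ≤ Module.length A ((Fin s → A) ⧸ LinearMap.ker g) := by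
          refine Module.length_le_of_surjective ((LinearMap.ker g).liftQ π hker) ?_
          intro y
          obtain ⟨x, hx⟩ := hπ y
          exact ⟨Submodule.Quotient.mk x, hx⟩
      _ = Module.length A (LinearMap.range g) := g.quotKerEquivRange.length_eq
      _ ≤ _ := Module.length_le_of_injective (LinearMap.range g).subtype (Submodule.subtype_injective _)
  rw [Module.length_pi_of_fintype, Finset.sum_const, Finset.card_univ, Fintype.card_fin] at h6
  have h7 := ZC2_choose_le D N κ
  have h8 : ((s * (D + N).choose N : ℕ) : ℕ∞) ≤ Module.length R (R ⧸ maximalIdeal R ^ (N + (k0 + 1 + c))) := by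
    refine le_trans ?_ (h6.trans (h2.trans h1))
    rw [nsmul_eq_mul, Nat.cast_mul]
    exact mul_le_mul_right h7 _
  rw [← ENat.natCast_toNat hfin] at h8
  exact_mod_cast h8

theorem rank_le_mult_proved (hres : ∀ x : R, ∃ b, x - algebraMap (MvPowerSeries (Fin D) κ) R b ∈
      maximalIdeal R) (hD : ringKrullDim R = D) (s : ℕ)
    (f : (Fin s → MvPowerSeries (Fin D) κ) →ₗ[MvPowerSeries (Fin D) κ] R)
    (hf : Function.Injective f) (c : ℕ)
    (hc : ∀ N, maximalIdeal R ^ (N + c) ≤ Ideal.span
      (Set.range fun ν => algebraMap (MvPowerSeries (Fin D) κ) R (MvPowerSeries.X ν)) ^ N)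
    (x : ℝ) (hx : HasMult R x) : (s : ℝ) ≤ x := by
  obtain ⟨b, hb⟩ := ZC2_le D R hres s f hf c hc
  obtain ⟨d, hd, ht⟩ := hx
  have hdD : d = D := by
    rw [hD] at hd
    exact_mod_cast hd.symm
  subst hdD
  have ht2 := ht.comp (Filter.tendsto_add_atTop_nat b)
  have ht3 : Filter.Tendsto (fun N : ℕ => (s : ℝ) * ((N : ℝ) / ((N : ℝ) + b)) ^ d) Filter.atTop (nhds s) := by
    have := ((tendsto_natCast_div_add_atTop (𝕜 := ℝ) (b : ℝ)).pow d).const_mul (s : ℝ)
    simpa using this
  refine le_of_tendsto_of_tendsto' ht3 ht2 fun N => ?_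
  simp only [Function.comp]
  have h1 : (N : ℝ) ^ d ≤ (d.factorial : ℝ) * ((d + N).choose N : ℕ) := by
    have h2 := Nat.pow_succ_le_ascFactorial (N + 1) d
    rw [Nat.ascFactorial_eq_factorial_mul_choose] at h2
    have h3 : (N + d).choose d = (d + N).choose N := by
      rw [add_comm N d, ← Nat.choose_symm_add]
    rw [h3] at h2
    have h4 : N ^ d ≤ d.factorial * (d + N).choose N :=
      (Nat.pow_le_pow_left (Nat.le_succ N) d).trans h2
    exact_mod_cast h4
  have h2 : (s : ℝ) * ((d + N).choose N : ℕ) ≤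
      ((Module.length R (R ⧸ maximalIdeal R ^ (N + b))).toNat : ℝ) := by exact_mod_cast hb N
  rw [div_pow, ← mul_div_assoc, Nat.cast_add]
  refine div_le_div_of_nonneg_right ?_ (by positivity)
  calc (s : ℝ) * (N : ℝ) ^ d ≤ s * ((d.factorial : ℝ) * ((d + N).choose N : ℕ)) :=
        mul_le_mul_of_nonneg_left h1 (Nat.cast_nonneg _)
    _ = (d.factorial : ℝ) * (s * ((d + N).choose N : ℕ)) := by ring
    _ ≤ _ := mul_le_mul_of_nonneg_left h2 (Nat.cast_nonneg _)

end main

end Vale.Agent.P202Z
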