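import Vale.Agent.P202Z.Defs
import Vale.Agent.P202.Def
import Vale.Agent.P202.Exist
import Vale.Agent.P202.Asymp
import Vale.Agent.P202Y.YC1

/-! # P202Z, ZC3 (helper22): multiplicity `≤` rank. -/

namespace Vale.Agent.P202Z

open IsLocalRing Vale.Agent.P202 Vale.Agent.P202Y

universe u v w

/-- a module with `t` generators killed by `I` -/
theorem ZC3_len {A : Type u} {M : Type v} [CommRing A] [AddCommGroup M] [Module A M] (t : ℕ)
    (x : Fin t → M) (hx : Submodule.span A (Set.range x) = ⊤) (I : Ideal A)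
    (hI : ∀ i ∈ I, ∀ m : M, i • m = 0) :
    Module.length A M ≤ t * Module.length A (A ⧸ I) := by
  let g : Fin t → (A ⧸ I) →ₗ[A] M := fun i =>
    Submodule.liftQ I (LinearMap.toSpanSingleton A M (x i)) (fun j hj => by
      rw [LinearMap.mem_ker, LinearMap.toSpanSingleton_apply]
      exact hI j hj (x i))
  let φ : (Fin t → A ⧸ I) →ₗ[A] M := ∑ i, (g i).comp (LinearMap.proj i)
  have hφ : Function.Surjective φ := by
    rw [← LinearMap.range_eq_top, eq_top_iff, ← hx, Submodule.span_le]
    rintro _ ⟨i, rfl⟩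
    refine ⟨Pi.single i (Ideal.Quotient.mk I 1), ?_⟩
    change (∑ j, (g j).comp (LinearMap.proj j)) (Pi.single i (Ideal.Quotient.mk I 1)) = x i
    rw [LinearMap.sum_apply, Finset.sum_eq_single i]
    · rw [LinearMap.comp_apply, LinearMap.proj_apply, Pi.single_eq_same]
      exact one_smul A (x i)
    · intro j _ hj
      rw [LinearMap.comp_apply, LinearMap.proj_apply, Pi.single_eq_of_ne hj, map_zero]
    · intro h; exact absurd (Finset.mem_univ _) h
  refine (Module.length_le_of_surjective φ hφ).trans ?_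
  rw [Module.length_pi_of_fintype, Finset.sum_const, Finset.card_univ, Fintype.card_fin,
    nsmul_eq_mul]

theorem ZC3_res {A : Type u} {R : Type v} {M : Type w} [CommRing A] [CommRing R] [Algebra A R]
    [AddCommGroup M] [Module A M] [Module R M] [IsScalarTower A R M] :
    Module.length R M ≤ Module.length A M := by
  rw [← WithBot.coe_le_coe, Module.coe_length, Module.coe_length]
  exact Order.krullDim_le_of_orderEmbedding (Submodule.restrictScalarsEmbedding A R M)

section Ps

variable {κ : Type u} [Field κ]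

/-- colength of powers of the maximal ideal of the power series ring -/
theorem ZC3_ps (t N : ℕ) : cl (maximalIdeal (MvPowerSeries (Fin (t + 1)) κ) ^ N) ≤
    (((N + t).choose (t + 1) : ℕ) : ℕ∞) := by
  set A := MvPowerSeries (Fin (t + 1)) κ
  let X : ℕ → A := fun i => if h : i < t + 1 then MvPowerSeries.X ⟨i, h⟩ else 0
  have hm : maximalIdeal A = Ideal.span (Set.range (MvPowerSeries.X : Fin (t + 1) → A)) :=
    mvps_maximal_proved (t + 1) κ
  have hX : ∀ i, X i ∈ maximalIdeal A := by
    intro i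
    simp only [X]
    split
    · rw [hm]; exact Ideal.subset_span ⟨_, rfl⟩
    · exact zero_mem _
  have hP : maximalIdeal A ≤ P X t ⊔ Ideal.span {X t} := by
    rw [← P_succ, hm, Ideal.span_le]
    rintro _ ⟨i, rfl⟩
    refine Ideal.subset_span ⟨i.1, i.2, ?_⟩
    simp only [X, dif_pos i.2]
  have hcl : cl (maximalIdeal A) = 1 := by
    unfold cl
    rw [Module.length_eq_one_iff]
    exact isSimpleModule_iff_isCoatom.mpr (Ideal.isMaximal_def.mp inferInstance)
  have hb : ∀ i, cl (qt (P X t) (X t ^ i) ⊔ Ideal.span {X t}) ≤ 1 := by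
    intro i
    rw [← hcl]
    exact cl_anti (hP.trans (sup_le_sup_right (le_qt _ _) _))
  have := upper_of_stable X hX t 1 0 1 (fun i _ => by exact_mod_cast hb i)
    (fun i => by exact_mod_cast hb i) N
  simpa using this

theorem ZC3_dim (D : ℕ) : ringKrullDim (MvPowerSeries (Fin D) κ) ≤ D := by
  set A := MvPowerSeries (Fin D) κ
  have hm : maximalIdeal A = Ideal.span (Set.range (MvPowerSeries.X : Fin D → A)) :=
    mvps_maximal_proved D κ
  rw [← IsLocalRing.maximalIdeal_height_eq_ringKrullDim]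
  have h1 : (maximalIdeal A).height ≤ (maximalIdeal A).spanFinrank :=
    Ideal.height_le_spanFinrank _ (Ideal.IsPrime.ne_top inferInstance)
  have h2 : (maximalIdeal A).spanFinrank ≤ D := by
    rw [hm]
    refine (Submodule.spanFinrank_span_le_ncard_of_finite (Set.finite_range _)).trans ?_
    rw [← Set.image_univ]
    refine (Set.ncard_image_le Set.finite_univ).trans ?_
    rw [Set.ncard_univ, Nat.card_eq_fintype_card, Fintype.card_fin]
  have h3 : (maximalIdeal A).height ≤ (D : ℕ∞) := h1.trans (by exact_mod_cast h2)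
  exact_mod_cast h3

/-- colength modulo an element -/
theorem ZC3_mod {S : Type u} [CommRing S] [IsLocalRing S] [IsNoetherianRing S] (a : S)
    [IsLocalRing (S ⧸ Ideal.span {a})] (N : ℕ) :
    cl (Ideal.span {a} ⊔ maximalIdeal S ^ N) ≤
      cl (maximalIdeal (S ⧸ Ideal.span {a}) ^ N) := by
  have hm : maximalIdeal (S ⧸ Ideal.span {a}) ≤
      Ideal.map (Ideal.Quotient.mk (Ideal.span {a})) (maximalIdeal S) := by
    intro x hx
    obtain ⟨x, rfl⟩ := Ideal.Quotient.mk_surjective x
    refine Ideal.mem_map_of_mem _ ?_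
    rw [mem_maximalIdeal, mem_nonunits_iff]
    intro hu
    rw [mem_maximalIdeal, mem_nonunits_iff] at hx
    exact hx (hu.map _)
  let π : S →ₗ[S] ((S ⧸ Ideal.span {a}) ⧸ maximalIdeal (S ⧸ Ideal.span {a}) ^ N) :=
    ((maximalIdeal (S ⧸ Ideal.span {a}) ^ N).mkQ.restrictScalars S).comp
      (Submodule.mkQ (Ideal.span {a}))
  have hπ : Function.Surjective π :=
    (Submodule.mkQ_surjective _).comp (Submodule.mkQ_surjective _)
  have hK : LinearMap.ker π ≤ Ideal.span {a} ⊔ maximalIdeal S ^ N := by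
    intro x hx
    rw [LinearMap.mem_ker] at hx
    have h1 : Ideal.Quotient.mk (Ideal.span {a}) x ∈ maximalIdeal (S ⧸ Ideal.span {a}) ^ N :=
      (Submodule.Quotient.mk_eq_zero _).mp hx
    have h2 := Ideal.pow_right_mono hm N h1
    rw [← Ideal.map_pow, ← Ideal.mem_comap, Ideal.comap_map_quotientMk] at h2
    exact h2
  refine (cl_anti hK).trans ?_
  unfold cl
  rw [(π.quotKerEquivOfSurjective hπ).length_eq]
  exact (Module.length_eq_of_surjective (S := S) (R := S ⧸ Ideal.span {a})
    Ideal.Quotient.mk_surjective).le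

/-- colength of powers of the maximal ideal plus a nonzero element -/
theorem ZC3_quot (t : ℕ) (a : MvPowerSeries (Fin (t + 1)) κ) (ha : a ≠ 0) :
    ∃ E : ℕ, ∀ N, cl (Ideal.span {a} ⊔ maximalIdeal (MvPowerSeries (Fin (t + 1)) κ) ^ N) ≤
      ((E * N ^ t : ℕ) : ℕ∞) := by
  by_cases hu : IsUnit a
  · refine ⟨0, fun N => ?_⟩
    rw [Ideal.span_singleton_eq_top.mpr hu, top_sup_eq, cl_top]
    simp
  have hne : Ideal.span {a} ≠ ⊤ := fun h => hu (Ideal.span_singleton_eq_top.mp h)
  have : Nontrivial (MvPowerSeries (Fin (t + 1)) κ ⧸ Ideal.span {a}) :=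
    Ideal.Quotient.nontrivial_iff.mpr hne
  have : IsLocalRing (MvPowerSeries (Fin (t + 1)) κ ⧸ Ideal.span {a}) :=
    IsLocalRing.of_surjective' (Ideal.Quotient.mk _) Ideal.Quotient.mk_surjective
  have hdim : ringKrullDim (MvPowerSeries (Fin (t + 1)) κ ⧸ Ideal.span {a}) + 1 ≤
      ((t + 1 : ℕ) : WithBot ℕ∞) :=
    (ringKrullDim_quotient_succ_le_of_nonZeroDivisor (mem_nonZeroDivisors_of_ne_zero ha)).trans
      (ZC3_dim (t + 1))
  obtain ⟨d, hd⟩ : ∃ d : ℕ,
      ringKrullDim (MvPowerSeries (Fin (t + 1)) κ ⧸ Ideal.span {a}) = d := by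
    have h1 : ringKrullDim (MvPowerSeries (Fin (t + 1)) κ ⧸ Ideal.span {a}) ≠ ⊥ :=
      ringKrullDim_ne_bot
    have h2 : ringKrullDim (MvPowerSeries (Fin (t + 1)) κ ⧸ Ideal.span {a}) ≠ ⊤ :=
      ringKrullDim_ne_top
    obtain ⟨e, he⟩ := WithBot.ne_bot_iff_exists.mp h1
    rw [← he] at h2
    have h3 : e ≠ ⊤ := fun h => h2 (by rw [h]; rfl)
    obtain ⟨d, hd⟩ := ENat.ne_top_iff_exists.mp h3
    exact ⟨d, by rw [← he, ← hd]; rfl⟩
  have hdt : d ≤ t := by
    rw [hd] at hdim
    have : d + 1 ≤ t + 1 := by exact_mod_cast hdim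
    omega
  obtain ⟨E, hE⟩ := exists_bound d hd
  refine ⟨E, fun N => ?_⟩
  rcases Nat.eq_zero_or_pos N with rfl | hN
  · rw [pow_zero, Ideal.one_eq_top, sup_top_eq, cl_top]
    exact bot_le
  refine (ZC3_mod a N).trans ((hE N).trans ?_)
  exact_mod_cast Nat.mul_le_mul_left E (Nat.pow_le_pow_right hN hdt)

end Ps

section Main0

variable {A : Type u} [CommRing A] [IsLocalRing A] {R : Type v} [CommRing R] [IsLocalRing R]
  [IsNoetherianRing R] [Algebra A R]
  [Module.Finite A R] [IsLocalHom (algebraMap A R)]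

omit [IsNoetherianRing R] [Module.Finite A R] in
theorem ZC3_le_pow (N : ℕ) : Ideal.map (algebraMap A R) (maximalIdeal A) ^ N ≤
    maximalIdeal R ^ N := by
  refine Ideal.pow_right_mono ?_ N
  rw [Ideal.map_le_iff_le_comap]
  intro x hx
  rw [Ideal.mem_comap, mem_maximalIdeal, mem_nonunits_iff]
  rw [mem_maximalIdeal, mem_nonunits_iff] at hx
  exact fun h => hx (isUnit_of_map_unit _ x h)

omit [IsLocalRing R] [IsNoetherianRing R] [Module.Finite A R] [IsLocalHom (algebraMap A R)] in
theorem ZC3_kill (N : ℕ) (b : A) (hb : b ∈ maximalIdeal A ^ N)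
    (m : R ⧸ (Ideal.map (algebraMap A R) (maximalIdeal A) ^ N)) : b • m = 0 := by
  obtain ⟨m, rfl⟩ := Ideal.Quotient.mk_surjective m
  have h1 : algebraMap A R b ∈ Ideal.map (algebraMap A R) (maximalIdeal A) ^ N := by
    rw [← Ideal.map_pow]
    exact Ideal.mem_map_of_mem _ hb
  have h2 : b • m ∈ Ideal.map (algebraMap A R) (maximalIdeal A) ^ N := by
    rw [Algebra.smul_def]
    exact Ideal.mul_mem_right _ _ h1
  exact Ideal.Quotient.eq_zero_iff_mem.mpr h2

omit [IsLocalRing A] in
/-- length of a module with a small submodule -/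
theorem ZC3_split {M : Type v} [AddCommGroup M] [Module A M] (s g : ℕ)
    (φ : (Fin s → A) →ₗ[A] M) (x : Fin g → M) (hx : Submodule.span A (Set.range x) = ⊤)
    (I : Ideal A) (hI : ∀ b ∈ I, ∀ m : M, b • m = 0) (a : A) (ha : ∀ m : M, ∃ v, φ v = a • m) :
    Module.length A M ≤ s * cl I + g * cl (Ideal.span {a} ⊔ I) := by
  have h2 : Module.length A M = Module.length A (LinearMap.range φ) +
      Module.length A (M ⧸ LinearMap.range φ) :=
    Module.length_eq_add_of_exact (LinearMap.range φ).subtype (LinearMap.range φ).mkQ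
      (Submodule.subtype_injective _) (Submodule.mkQ_surjective _)
      (LinearMap.exact_subtype_mkQ _)
  have h3 : Module.length A (LinearMap.range φ) ≤ s * cl I := by
    refine ZC3_len s (fun i => φ.rangeRestrict (Pi.single i 1)) ?_ _ ?_
    · rw [eq_top_iff]
      rintro ⟨y, v, rfl⟩ -
      have hv : (⟨φ v, v, rfl⟩ : LinearMap.range φ) =
          ∑ i, v i • φ.rangeRestrict (Pi.single i 1) := by
        have h4 : v = ∑ i, v i • (Pi.single i (1 : A) : Fin s → A) := by
          ext j
          simp [Finset.sum_apply, Pi.single_apply]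
        have h5 : (⟨φ v, v, rfl⟩ : LinearMap.range φ) = φ.rangeRestrict v := rfl
        have h6 : φ.rangeRestrict v =
            φ.rangeRestrict (∑ i, v i • (Pi.single i (1 : A) : Fin s → A)) :=
          congrArg _ h4
        rw [h5, h6, map_sum]
        simp only [map_smul]
      rw [hv]
      exact Submodule.sum_mem _ fun i _ =>
        Submodule.smul_mem _ _ (Submodule.subset_span ⟨i, rfl⟩)
    · intro b hb m
      exact Subtype.ext (hI b hb m.1)
  have h4 : Module.length A (M ⧸ LinearMap.range φ) ≤ g * cl (Ideal.span {a} ⊔ I) := by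
    refine ZC3_len g (fun i => (LinearMap.range φ).mkQ (x i)) ?_ _ ?_
    · have h5 : Set.range (fun i => (LinearMap.range φ).mkQ (x i)) =
          (LinearMap.range φ).mkQ '' Set.range x := by
        rw [← Set.range_comp]
        rfl
      rw [h5, Submodule.span_image, hx, Submodule.map_top, Submodule.range_mkQ]
    · intro b hb m
      obtain ⟨m, rfl⟩ := Submodule.mkQ_surjective _ m
      obtain ⟨c, hc, d, hd, rfl⟩ := Submodule.mem_sup.mp hb
      obtain ⟨c, rfl⟩ := Ideal.mem_span_singleton'.mp hc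
      rw [← map_smul, add_smul, hI d hd, add_zero]
      obtain ⟨v, hv⟩ := ha m
      have h5 : (c * a) • m = φ (c • v) := by
        rw [mul_smul, ← hv, map_smul φ]
      rw [h5]
      exact (Submodule.Quotient.mk_eq_zero _).mpr ⟨_, rfl⟩
  rw [h2]
  exact add_le_add h3 h4

omit [IsNoetherianRing R] in
theorem ZC3_main (s : ℕ) (f : (Fin s → A) →ₗ[A] R)
    (a : A) (hf : ∀ x : R, ∃ v, f v = a • x) :
    ∃ g : ℕ, ∀ N, cl (maximalIdeal R ^ N) ≤
      s * cl (maximalIdeal A ^ N) + g * cl (Ideal.span {a} ⊔ maximalIdeal A ^ N) := by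
  obtain ⟨g, r, hr⟩ := Module.Finite.exists_fin (R := A) (M := R)
  refine ⟨g, fun N => ?_⟩
  let π : R →ₗ[A] (R ⧸ (Ideal.map (algebraMap A R) (maximalIdeal A) ^ N)) :=
    (Submodule.mkQ (Ideal.map (algebraMap A R) (maximalIdeal A) ^ N)).restrictScalars A
  have hπ : Function.Surjective π := Ideal.Quotient.mk_surjective
  have h1 : cl (maximalIdeal R ^ N) ≤
      Module.length A (R ⧸ (Ideal.map (algebraMap A R) (maximalIdeal A) ^ N)) :=
    (cl_anti (ZC3_le_pow (A := A) (R := R) N)).trans
      (ZC3_res (A := A) (R := R) (M := R ⧸ (Ideal.map (algebraMap A R) (maximalIdeal A) ^ N)))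
  have hk : ∀ b ∈ maximalIdeal A ^ N,
      ∀ m : R ⧸ (Ideal.map (algebraMap A R) (maximalIdeal A) ^ N), b • m = 0 :=
    fun b hb m => ZC3_kill N b hb m
  refine h1.trans (ZC3_split s g (π.comp f) (fun i => π (r i)) ?_ (maximalIdeal A ^ N) hk a ?_)
  · have h5 : Set.range (fun i => π (r i)) = π '' Set.range r := by
      rw [← Set.range_comp]
      rfl
    rw [h5, Submodule.span_image, hr, Submodule.map_top, LinearMap.range_eq_top.mpr hπ]
  · intro m
    obtain ⟨m, rfl⟩ := hπ m
    obtain ⟨v, hv⟩ := hf m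
    exact ⟨v, by rw [LinearMap.comp_apply, hv, map_smul]⟩

end Main0

section Main

variable (D : ℕ) {κ : Type u} [Field κ] (R : Type v) [CommRing R] [IsLocalRing R]
  [IsNoetherianRing R] [Algebra (MvPowerSeries (Fin D) κ) R]
  [Module.Finite (MvPowerSeries (Fin D) κ) R] [IsLocalHom (algebraMap (MvPowerSeries (Fin D) κ) R)]

/-- ZC3 -/
theorem mult_le_rank_proved (hres : ∀ x : R, ∃ b, x - algebraMap (MvPowerSeries (Fin D) κ) R b ∈
      maximalIdeal R) (hD : ringKrullDim R = D) (s : ℕ)
    (f : (Fin s → MvPowerSeries (Fin D) κ) →ₗ[MvPowerSeries (Fin D) κ] R)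
    (a : MvPowerSeries (Fin D) κ) (ha : a ≠ 0) (hf : ∀ x : R, ∃ v, f v = a • x)
    (x : ℝ) (hx : HasMult R x) : x ≤ s := by
  obtain ⟨g, hg⟩ := ZC3_main s f a hf
  obtain ⟨d, hd, hlim⟩ := hx
  have hdD : d = D := by
    rw [hD] at hd
    exact_mod_cast hd.symm
  subst hdD
  have hfin : ∀ N, cl (maximalIdeal R ^ N) ≠ ⊤ := by
    intro N
    have := cl_sup_pow_ne_top (⊥ : Ideal R) N
    rwa [bot_sup_eq] at this
  rcases d with _ | t
  · have hm : maximalIdeal (MvPowerSeries (Fin 0) κ) = ⊥ := by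
      rw [mvps_maximal_proved 0 κ, Set.range_eq_empty, Ideal.span_empty]
    have hu : Ideal.span {a} = ⊤ := by
      rw [Ideal.span_singleton_eq_top]
      by_contra h
      have h1 : a ∈ maximalIdeal (MvPowerSeries (Fin 0) κ) := h
      rw [hm] at h1
      exact ha h1
    have h1 : ∀ N, cl (maximalIdeal (MvPowerSeries (Fin 0) κ) ^ N) ≤ 1 := by
      intro N
      have h2 : cl (maximalIdeal (MvPowerSeries (Fin 0) κ)) = 1 := by
        unfold cl
        rw [Module.length_eq_one_iff]
        exact isSimpleModule_iff_isCoatom.mpr (Ideal.isMaximal_def.mp inferInstance)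
      rw [← h2]
      refine cl_anti ?_
      rw [hm]
      exact bot_le
    have h3 : ∀ N, (cl (maximalIdeal R ^ N)).toNat ≤ s := by
      intro N
      have h4 := hg N
      rw [hu, top_sup_eq, cl_top, mul_zero, add_zero] at h4
      have h5 : cl (maximalIdeal R ^ N) ≤ s := h4.trans (by
        calc (s : ℕ∞) * _ ≤ s * 1 := by gcongr; exact h1 N
          _ = s := mul_one _)
      exact ENat.toNat_le_of_le_natCast h5
    refine le_of_tendsto' hlim fun N => ?_
    simp only [Nat.factorial_zero, Nat.cast_one, one_mul, pow_zero, div_one]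
    exact_mod_cast h3 N
  · obtain ⟨E, hE⟩ := ZC3_quot t a ha
    refine limit_le (fun N => (cl (maximalIdeal R ^ N)).toNat) x s (g * E) t hlim fun N => ?_
    refine ENat.toNat_le_of_le_natCast ((hg N).trans ?_)
    push_cast
    refine add_le_add ?_ ?_
    · gcongr
      exact ZC3_ps t N
    · rw [mul_assoc]
      gcongr
      exact_mod_cast hE N

end Main

end Vale.Agent.P202Z
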