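import Vale.Agent.P202Z.Defs
import Vale.Agent.P202T.Defs
import Vale.Agent.P202.Def

/-! # P202Z: ZC4 (helper50): upper bound in Lech's limit formula. -/

namespace Vale.Agent.P202Z

open IsLocalRing Vale.Agent.P202 Vale.Agent.P202Y

universe u v w

section Gen

variable {A : Type u} [CommRing A]

theorem zc4_gen {M : Type v} [AddCommGroup M] [Module A M] (J : Ideal A) {ι : Type} [Fintype ι]
    (m : ι → M) (hs : ∀ x, ∃ c : ι → A, x = ∑ i, c i • m i) (hk : ∀ i, ∀ a ∈ J, a • m i = 0) :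
    Module.length A M ≤ (Fintype.card ι : ℕ∞) * Module.length A (A ⧸ J) := by
  classical
  have hk' : ∀ i, J ≤ LinearMap.ker (LinearMap.toSpanSingleton A M (m i)) := by
    intro i a ha
    rw [LinearMap.mem_ker, LinearMap.toSpanSingleton_apply]
    exact hk i a ha
  let ψ : (ι → A ⧸ J) →ₗ[A] M := ∑ i, (Submodule.liftQ J (LinearMap.toSpanSingleton A M (m i))
    (hk' i)) ∘ₗ LinearMap.proj i
  have hψ : Function.Surjective ψ := by
    intro x
    obtain ⟨c, hc⟩ := hs x
    refine ⟨fun i => Submodule.Quotient.mk (c i), ?_⟩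
    rw [hc]
    show ψ _ = _
    rw [LinearMap.sum_apply]
    refine Finset.sum_congr rfl fun i _ => ?_
    rw [LinearMap.comp_apply, LinearMap.proj_apply, Submodule.liftQ_apply,
      LinearMap.toSpanSingleton_apply]
  refine (Module.length_le_of_surjective ψ hψ).trans ?_
  rw [Module.length_pi_of_fintype, Finset.sum_const, Finset.card_univ, nsmul_eq_mul]

end Gen

section Trunc

variable {D : ℕ} {κ : Type u} [Field κ]

/-- the exponent of an element of the box -/
noncomputable def zc4e {D t : ℕ} (ν : Fin D → Fin t) : Fin D →₀ ℕ :=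
  Finsupp.equivFunOnFinite.symm fun i => (ν i : ℕ)

theorem zc4e_apply {D t : ℕ} (ν : Fin D → Fin t) (i : Fin D) : zc4e ν i = (ν i : ℕ) := rfl

/-- truncation of a power series to the box -/
noncomputable def zc4T (D t : ℕ) (κ : Type u) [Field κ] :
    MvPowerSeries (Fin D) κ →ₗ[κ] ((Fin D → Fin t) → κ) :=
  LinearMap.pi fun ν => MvPowerSeries.coeff (zc4e ν)

theorem zc4T_apply (t : ℕ) (f : MvPowerSeries (Fin D) κ) (ν : Fin D → Fin t) :
    zc4T D t κ f ν = MvPowerSeries.coeff (zc4e ν) f := rfl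

/-- the ideal `(y_1^t, ..., y_D^t)` -/
noncomputable def zc4I (D t : ℕ) (κ : Type u) [Field κ] : Ideal (MvPowerSeries (Fin D) κ) :=
  Ideal.span (Set.range fun ν : Fin D => (MvPowerSeries.X ν : MvPowerSeries (Fin D) κ) ^ t)

theorem zc4_mem (t : ℕ) (f : MvPowerSeries (Fin D) κ) (hf : zc4T D t κ f = 0) :
    f ∈ zc4I D t κ := by
  classical
  -- the part of `f` with first large exponent at `i`
  let g : Fin D → MvPowerSeries (Fin D) κ := fun i d =>
    if t ≤ d i ∧ ∀ j < i, d j < t then MvPowerSeries.coeff d f else 0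
  have hgc : ∀ i d, MvPowerSeries.coeff d (g i) =
      if t ≤ d i ∧ ∀ j < i, d j < t then MvPowerSeries.coeff d f else 0 := fun i d => rfl
  have hg : ∀ i, g i ∈ zc4I D t κ := by
    intro i
    have h1 : (MvPowerSeries.X i : MvPowerSeries (Fin D) κ) ^ t ∣ g i := by
      rw [MvPowerSeries.X_pow_dvd_iff]
      intro m hm
      rw [hgc, if_neg]
      rintro ⟨h2, _⟩
      omega
    obtain ⟨q, hq⟩ := h1
    rw [hq]
    exact Ideal.mul_mem_right _ _ (Ideal.subset_span ⟨i, rfl⟩)
  have hsum : f = ∑ i, g i := by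
    ext d
    rw [map_sum]
    simp only [hgc]
    by_cases hd : ∃ i, t ≤ d i
    · obtain ⟨i, hi, hmin⟩ : ∃ i, t ≤ d i ∧ ∀ j < i, d j < t := by
        obtain ⟨i, hi⟩ := hd
        have := WellFounded.has_min (wellFounded_lt (α := Fin D)) {i | t ≤ d i} ⟨i, hi⟩
        obtain ⟨m, hm, hm'⟩ := this
        refine ⟨m, hm, fun j hj => ?_⟩
        by_contra h
        exact hm' j (not_lt.mp h) hj
      rw [Finset.sum_eq_single i]
      · rw [if_pos ⟨hi, hmin⟩]
      · intro j _ hj
        rw [if_neg]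
        rintro ⟨h1, h2⟩
        rcases lt_or_gt_of_ne hj with h | h
        · have := hmin j h
          omega
        · have := h2 i h
          omega
      · intro h
        exact (h (Finset.mem_univ _)).elim
    · push Not at hd
      have h1 : MvPowerSeries.coeff d f = 0 := by
        have h2 := congrFun hf (fun i => ⟨d i, hd i⟩)
        rw [zc4T_apply] at h2
        have h3 : zc4e (fun i => (⟨d i, hd i⟩ : Fin t)) = d := by
          ext i
          rfl
        rw [h3] at h2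
        exact h2
      rw [h1]
      symm
      apply Finset.sum_eq_zero
      intro i _
      rw [if_neg]
      rintro ⟨h2, _⟩
      have := hd i
      omega
  rw [hsum]
  exact Ideal.sum_mem _ fun i _ => hg i

theorem zc4_len (t : ℕ) (V : Submodule κ ((Fin D → Fin t) → κ))
    (J : Ideal (MvPowerSeries (Fin D) κ)) (h : ∀ f, zc4T D t κ f ∈ V → f ∈ J) :
    Module.length (MvPowerSeries (Fin D) κ) (MvPowerSeries (Fin D) κ ⧸ J) ≤
      Module.finrank κ (((Fin D → Fin t) → κ) ⧸ V) := by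
  have h1 := Submodule.length_le_length_restrictScalars (R := MvPowerSeries (Fin D) κ) κ
    (⊤ : Submodule (MvPowerSeries (Fin D) κ) (MvPowerSeries (Fin D) κ ⧸ J))
  rw [Module.length_top] at h1
  refine h1.trans ?_
  have h2 : Module.length κ (Submodule.restrictScalars κ
      (⊤ : Submodule (MvPowerSeries (Fin D) κ) (MvPowerSeries (Fin D) κ ⧸ J))) =
      Module.length κ (MvPowerSeries (Fin D) κ ⧸ J) :=
    Module.length_top (R := κ) (M := MvPowerSeries (Fin D) κ ⧸ J)
  rw [h2]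
  let g : MvPowerSeries (Fin D) κ →ₗ[κ] (((Fin D → Fin t) → κ) ⧸ V) := V.mkQ ∘ₗ zc4T D t κ
  have h3 : LinearMap.ker g ≤ LinearMap.ker (Ideal.Quotient.mkₐ κ J).toLinearMap := by
    intro f hf
    rw [LinearMap.mem_ker] at hf ⊢
    have h4 : zc4T D t κ f ∈ V := by
      rwa [LinearMap.comp_apply, Submodule.mkQ_apply, Submodule.Quotient.mk_eq_zero] at hf
    exact Ideal.Quotient.eq_zero_iff_mem.mpr (h f h4)
  let π := Submodule.liftQ (LinearMap.ker g) (Ideal.Quotient.mkₐ κ J).toLinearMap h3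
  have hπ : Function.Surjective π := by
    intro x
    obtain ⟨f, rfl⟩ := Ideal.Quotient.mk_surjective x
    exact ⟨Submodule.Quotient.mk f, rfl⟩
  refine (Module.length_le_of_surjective π hπ).trans ?_
  rw [g.quotKerEquivRange.length_eq, ← Module.length_eq_finrank]
  exact Module.length_le_of_injective _ (Submodule.subtype_injective _)

/-- a polynomial with exponents in a box -/
noncomputable def zc4P (D : ℕ) (κ : Type u) [Field κ] (b : Fin D → ℕ) :
    ((∀ i, Fin (b i)) → κ) →ₗ[κ] MvPowerSeries (Fin D) κ where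
  toFun c := fun d => if h : ∀ i, d i < b i then c fun i => ⟨d i, h i⟩ else 0
  map_add' c c' := by
    funext d
    show (if h : ∀ i, d i < b i then (c + c') fun i => ⟨d i, h i⟩ else 0) =
      (if h : ∀ i, d i < b i then c fun i => ⟨d i, h i⟩ else 0) +
      (if h : ∀ i, d i < b i then c' fun i => ⟨d i, h i⟩ else 0)
    split
    · rfl
    · rw [add_zero]
  map_smul' r c := by
    funext d
    show (if h : ∀ i, d i < b i then (r • c) fun i => ⟨d i, h i⟩ else 0) =
      r * (if h : ∀ i, d i < b i then c fun i => ⟨d i, h i⟩ else 0)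
    split
    · rfl
    · rw [mul_zero]

theorem zc4P_coeff (b : Fin D → ℕ) (c : (∀ i, Fin (b i)) → κ) (d : Fin D →₀ ℕ) :
    MvPowerSeries.coeff d (zc4P D κ b c) =
      if h : ∀ i, d i < b i then c fun i => ⟨d i, h i⟩ else 0 := rfl

theorem zc4_inj (t : ℕ) (a : MvPowerSeries (Fin D) κ) (μ : Fin D →₀ ℕ)
    (hμ : MvPowerSeries.lexOrder a = toLex μ) :
    Function.Injective (zc4T D t κ ∘ₗ LinearMap.mulLeft κ a ∘ₗ zc4P D κ fun i => t - μ i) := by
  rw [← LinearMap.ker_eq_bot, LinearMap.ker_eq_bot']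
  intro c hc
  by_contra hne
  have hp : zc4P D κ (fun i => t - μ i) c ≠ 0 := by
    intro h0
    apply hne
    funext ν
    have h1 : MvPowerSeries.coeff (Finsupp.equivFunOnFinite.symm fun i => (ν i : ℕ))
        (zc4P D κ (fun i => t - μ i) c) = 0 := by rw [h0, map_zero]
    have hlt : ∀ i, (Finsupp.equivFunOnFinite.symm fun i => (ν i : ℕ)) i < t - μ i :=
      fun i => (ν i).2
    rw [zc4P_coeff, dif_pos hlt] at h1
    exact h1
  obtain ⟨d, hd⟩ := MvPowerSeries.exists_finsupp_eq_lexOrder_of_ne_zero hp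
  have h1 := MvPowerSeries.coeff_mul_of_add_lexOrder hμ hd
  have h2 : MvPowerSeries.coeff d (zc4P D κ (fun i => t - μ i) c) ≠ 0 :=
    MvPowerSeries.coeff_ne_zero_of_lexOrder hd.symm
  have h3 : MvPowerSeries.coeff μ a ≠ 0 := MvPowerSeries.coeff_ne_zero_of_lexOrder hμ.symm
  have h4 : ∀ i, d i < t - μ i := by
    by_contra h
    rw [zc4P_coeff, dif_neg h] at h2
    exact h2 rfl
  have h5 : ∀ i, (μ + d) i < t := by
    intro i
    have := h4 i
    show μ i + d i < t
    omega
  have h6 := congrFun hc fun i => ⟨(μ + d) i, h5 i⟩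
  have h7 : zc4e (fun i => (⟨(μ + d) i, h5 i⟩ : Fin t)) = μ + d := by
    ext i
    rfl
  have h8 : MvPowerSeries.coeff (μ + d) (a * zc4P D κ (fun i => t - μ i) c) = 0 := by
    rw [← h7]
    exact h6
  rw [h1] at h8
  exact (mul_ne_zero h3 h2) h8

theorem zc4_bound (t : ℕ) (a : MvPowerSeries (Fin D) κ) (μ : Fin D →₀ ℕ)
    (hμ : MvPowerSeries.lexOrder a = toLex μ) :
    Module.length (MvPowerSeries (Fin D) κ) (MvPowerSeries (Fin D) κ ⧸
      (zc4I D t κ ⊔ Ideal.span {a})) ≤ ((t ^ D - ∏ i, (t - μ i) : ℕ) : ℕ∞) := by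
  classical
  set V : Submodule κ ((Fin D → Fin t) → κ) :=
    LinearMap.range (zc4T D t κ ∘ₗ LinearMap.mulLeft κ a) with hV
  have h1 := zc4_len t V (zc4I D t κ ⊔ Ideal.span {a}) (by
    rintro f ⟨h, hh⟩
    have h2 : zc4T D t κ (f - a * h) = 0 := by
      rw [map_sub, ← hh]
      exact sub_self _
    have h3 := zc4_mem t _ h2
    have h4 : f = (f - a * h) + a * h := by ring
    rw [h4]
    exact Submodule.add_mem_sup h3 (Ideal.mul_mem_right _ _ (Ideal.subset_span rfl)))
  refine h1.trans ?_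
  have h2 : Module.finrank κ ((Fin D → Fin t) → κ) = t ^ D := by
    rw [Module.finrank_fintype_fun_eq_card, Fintype.card_fun, Fintype.card_fin, Fintype.card_fin]
  have h3 : ∏ i, (t - μ i) ≤ Module.finrank κ V := by
    have h4 : Module.finrank κ ((∀ i : Fin D, Fin (t - μ i)) → κ) = ∏ i, (t - μ i) := by
      rw [Module.finrank_fintype_fun_eq_card, Fintype.card_pi]
      simp only [Fintype.card_fin]
    rw [← h4]
    let g : ((∀ i : Fin D, Fin (t - μ i)) → κ) →ₗ[κ] V :=
      LinearMap.codRestrict V (zc4T D t κ ∘ₗ LinearMap.mulLeft κ a ∘ₗ zc4P D κ fun i => t - μ i)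
        (fun c => ⟨zc4P D κ (fun i => t - μ i) c, rfl⟩)
    have hg : Function.Injective g := by
      intro c c' hcc
      exact zc4_inj t a μ hμ (congrArg Subtype.val hcc)
    exact LinearMap.finrank_le_finrank_of_injective hg
  have h5 := Submodule.finrank_quotient_add_finrank V
  rw [h2] at h5
  exact_mod_cast (by omega : Module.finrank κ (((Fin D → Fin t) → κ) ⧸ V) ≤
    t ^ D - ∏ i, (t - μ i))

theorem zc4_box (t : ℕ) : Module.length (MvPowerSeries (Fin D) κ) (MvPowerSeries (Fin D) κ ⧸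
    zc4I D t κ) ≤ ((t ^ D : ℕ) : ℕ∞) := by
  classical
  have h1 := zc4_len t (⊥ : Submodule κ ((Fin D → Fin t) → κ)) (zc4I D t κ) (by
    intro f hf
    exact zc4_mem t f ((Submodule.mem_bot κ).mp hf))
  refine h1.trans ?_
  have h2 : Module.finrank κ ((Fin D → Fin t) → κ) = t ^ D := by
    rw [Module.finrank_fintype_fun_eq_card, Fintype.card_fun, Fintype.card_fin, Fintype.card_fin]
  have h5 := Submodule.finrank_quotient_add_finrank (⊥ : Submodule κ ((Fin D → Fin t) → κ))
  rw [h2] at h5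
  exact_mod_cast (by omega : Module.finrank κ (((Fin D → Fin t) → κ) ⧸
    (⊥ : Submodule κ ((Fin D → Fin t) → κ))) ≤ t ^ D)

end Trunc

section Abs

variable {A : Type u} [CommRing A] {R : Type v} [CommRing R] [Algebra A R]

theorem zc4_abs (I : Ideal A) (J : Ideal R) (hIJ : ∀ x ∈ I, algebraMap A R x ∈ J) (s g : ℕ)
    (f : (Fin s → A) →ₗ[A] R) (a : A) (hf : ∀ x : R, ∃ v, f v = a • x) (ρ : Fin g → R)
    (hρ : Submodule.span A (Set.range ρ) = ⊤) :
    Module.length R (R ⧸ J) ≤ (s : ℕ∞) * Module.length A (A ⧸ I) +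
      (g : ℕ∞) * Module.length A (A ⧸ (I ⊔ Ideal.span {a})) := by
  classical
  have h1 := Submodule.length_le_length_restrictScalars (R := R) A (⊤ : Submodule R (R ⧸ J))
  rw [Module.length_top] at h1
  refine h1.trans ?_
  have h2 : Module.length A (Submodule.restrictScalars A (⊤ : Submodule R (R ⧸ J))) =
      Module.length A (R ⧸ J) := Module.length_top (R := A) (M := R ⧸ J)
  rw [h2]
  let φ : (Fin s → A) →ₗ[A] (R ⧸ J) := (Ideal.Quotient.mkₐ A J).toLinearMap ∘ₗ f
  set N := LinearMap.range φ with hN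
  have h3 : Module.length A (R ⧸ J) = Module.length A N + Module.length A ((R ⧸ J) ⧸ N) :=
    Module.length_eq_add_of_exact N.subtype N.mkQ (Submodule.subtype_injective _)
      (Submodule.mkQ_surjective _) (LinearMap.exact_subtype_mkQ N)
  have hkill : ∀ x ∈ I, ∀ y : R ⧸ J, x • y = 0 := by
    intro x hx y
    obtain ⟨z, rfl⟩ := Ideal.Quotient.mk_surjective y
    have : x • Ideal.Quotient.mk J z = Ideal.Quotient.mk J (algebraMap A R x * z) := by
      rw [← Algebra.smul_def]
      rfl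
    rw [this]
    exact Ideal.Quotient.eq_zero_iff_mem.mpr (Ideal.mul_mem_right _ _ (hIJ x hx))
  have h4 : Module.length A N ≤ (s : ℕ∞) * Module.length A (A ⧸ I) := by
    have h5 := zc4_gen (M := N) I
      (fun i : Fin s => (⟨φ (Pi.single i 1), ⟨_, rfl⟩⟩ : N)) (by
        rintro ⟨x, v, rfl⟩
        refine ⟨v, ?_⟩
        apply Subtype.ext
        rw [Submodule.coe_sum]
        show φ v = ∑ i, v i • φ (Pi.single i 1)
        have h6 : v = ∑ i, v i • (Pi.single i 1 : Fin s → A) := by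
          funext j
          rw [Finset.sum_apply]
          simp [Pi.single_apply]
        conv_lhs => rw [h6]
        rw [map_sum]
        refine Finset.sum_congr rfl fun i _ => ?_
        rw [map_smul]) (by
        intro i x hx
        apply Subtype.ext
        exact hkill x hx _)
    rwa [Fintype.card_fin] at h5
  have h5 : Module.length A ((R ⧸ J) ⧸ N) ≤
      (g : ℕ∞) * Module.length A (A ⧸ (I ⊔ Ideal.span {a})) := by
    have h6 := zc4_gen (M := (R ⧸ J) ⧸ N) (I ⊔ Ideal.span {a})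
      (fun j : Fin g => N.mkQ (Ideal.Quotient.mk J (ρ j))) (by
        intro x
        obtain ⟨y, rfl⟩ := N.mkQ_surjective x
        obtain ⟨z, rfl⟩ := Ideal.Quotient.mk_surjective y
        have hz : z ∈ Submodule.span A (Set.range ρ) := by rw [hρ]; trivial
        obtain ⟨c, hc⟩ := (Submodule.mem_span_range_iff_exists_fun A).mp hz
        refine ⟨c, ?_⟩
        rw [← hc]
        have h7 : Ideal.Quotient.mk J (∑ i, c i • ρ i) = ∑ i, c i • Ideal.Quotient.mk J (ρ i) := by
          rw [map_sum]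
          rfl
        rw [h7, map_sum]
        rfl) (by
        intro j x hx
        obtain ⟨y, hy, z, hz, rfl⟩ := Submodule.mem_sup.mp hx
        rw [add_smul]
        have h7 : y • N.mkQ (Ideal.Quotient.mk J (ρ j)) = 0 := by
          rw [← map_smul, hkill y hy, map_zero]
        have h8 : z • N.mkQ (Ideal.Quotient.mk J (ρ j)) = 0 := by
          obtain ⟨w, rfl⟩ := Ideal.mem_span_singleton'.mp hz
          obtain ⟨v, hv⟩ := hf (ρ j)
          have h9 : a • Ideal.Quotient.mk J (ρ j) ∈ N := ⟨v, by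
            show Ideal.Quotient.mk J (f v) = _
            rw [hv]
            rfl⟩
          have h10 : N.mkQ (a • Ideal.Quotient.mk J (ρ j)) = 0 := by
            rw [Submodule.mkQ_apply]
            exact (Submodule.Quotient.mk_eq_zero N).mpr h9
          rw [mul_smul, ← map_smul, h10, smul_zero]
        rw [h7, h8, add_zero])
    rwa [Fintype.card_fin] at h6
  rw [h3]
  exact add_le_add h4 h5

end Abs

section Main

variable (D : ℕ) {κ : Type u} [Field κ] (R : Type v) [CommRing R]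
  [Algebra (MvPowerSeries (Fin D) κ) R] [Module.Finite (MvPowerSeries (Fin D) κ) R]

theorem zc4_main (s : ℕ)
    (f : (Fin s → MvPowerSeries (Fin D) κ) →ₗ[MvPowerSeries (Fin D) κ] R)
    (a : MvPowerSeries (Fin D) κ) (ha : a ≠ 0) (hf : ∀ x : R, ∃ v, f v = a • x) :
    ∃ (g : ℕ) (μ : Fin D →₀ ℕ), ∀ t : ℕ,
      Module.length R (R ⧸ Ideal.span
        (Set.range fun ν => algebraMap (MvPowerSeries (Fin D) κ) R (MvPowerSeries.X ν) ^ t)) ≤
      ((s * t ^ D + g * (t ^ D - ∏ i, (t - μ i)) : ℕ) : ℕ∞) := by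
  classical
  obtain ⟨g, ρ, hρ⟩ := Module.Finite.exists_fin (R := MvPowerSeries (Fin D) κ) (M := R)
  obtain ⟨μ, hμ⟩ := MvPowerSeries.exists_finsupp_eq_lexOrder_of_ne_zero ha
  refine ⟨g, μ, fun t => ?_⟩
  have h1 := zc4_abs (zc4I D t κ) (Ideal.span
        (Set.range fun ν => algebraMap (MvPowerSeries (Fin D) κ) R (MvPowerSeries.X ν) ^ t)) (by
    intro x hx
    have h1 : (zc4I D t κ).map (algebraMap (MvPowerSeries (Fin D) κ) R) = Ideal.span
        (Set.range fun ν => algebraMap (MvPowerSeries (Fin D) κ) R (MvPowerSeries.X ν) ^ t) := by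
      rw [zc4I, Ideal.map_span, ← Set.range_comp]
      congr 2
      funext ν
      show algebraMap (MvPowerSeries (Fin D) κ) R ((MvPowerSeries.X ν) ^ t) = _
      rw [map_pow]
    rw [← h1]
    exact Ideal.mem_map_of_mem _ hx) s g f a hf ρ hρ
  refine h1.trans ?_
  rw [Nat.cast_add, Nat.cast_mul, Nat.cast_mul]
  exact add_le_add (mul_le_mul_right (zc4_box t) _) (mul_le_mul_right (zc4_bound t a μ hμ) _)

end Main

theorem zc4_real (D : ℕ) (g : ℕ) (μ : Fin D →₀ ℕ) (ε : ℝ) (hε : 0 < ε) :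
    ∃ t : ℕ, 1 ≤ t ∧ (g : ℝ) * ((t : ℝ) ^ D - ∏ i, ((t - μ i : ℕ) : ℝ)) ≤ ε * (t : ℝ) ^ D := by
  have h1 : Filter.Tendsto (fun t : ℕ => (g : ℝ) * (1 - ∏ i : Fin D, (1 - (μ i : ℝ) / (t : ℝ))))
      Filter.atTop (nhds ((g : ℝ) * (1 - ∏ i : Fin D, (1 - 0)))) := by
    refine Filter.Tendsto.const_mul _ (Filter.Tendsto.const_sub _ ?_)
    refine tendsto_finsetProd _ fun i _ => Filter.Tendsto.const_sub _ ?_
    exact tendsto_const_div_atTop_nhds_zero_nat _
  simp only [sub_zero, Finset.prod_const_one, sub_self, mul_zero] at h1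
  have h2 : ∀ᶠ t : ℕ in Filter.atTop,
      (g : ℝ) * (1 - ∏ i : Fin D, (1 - (μ i : ℝ) / (t : ℝ))) < ε :=
    h1.eventually_lt_const hε
  obtain ⟨t, ht⟩ := (h2.and ((Filter.eventually_ge_atTop 1).and
    (Filter.eventually_ge_atTop (∑ i, μ i)))).exists
  obtain ⟨ht1, ht2, ht3⟩ := ht
  refine ⟨t, ht2, ?_⟩
  have ht0 : (0 : ℝ) < t := by exact_mod_cast ht2
  have h3 : ∀ i, μ i ≤ t := fun i =>
    (Finset.single_le_sum (f := fun i => μ i) (fun _ _ => Nat.zero_le _) (Finset.mem_univ i)).trans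
      ht3
  have h4 : ∏ i, ((t - μ i : ℕ) : ℝ) = (t : ℝ) ^ D * ∏ i : Fin D, (1 - (μ i : ℝ) / (t : ℝ)) := by
    have h5 : (t : ℝ) ^ D = ∏ _i : Fin D, (t : ℝ) := by
      rw [Finset.prod_const, Finset.card_univ, Fintype.card_fin]
    rw [h5, ← Finset.prod_mul_distrib]
    refine Finset.prod_congr rfl fun i _ => ?_
    rw [Nat.cast_sub (h3 i)]
    field_simp
  rw [h4]
  have h5 : (0 : ℝ) < (t : ℝ) ^ D := by positivity
  nlinarith

/-- ZC4: Lech's limit formula (upper bound): `length(R/(y^t)) ≤ (s + ε) t^D` for some large `t`. -/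
theorem lech_limit_proved (D : ℕ) {κ : Type u} [Field κ] (R : Type v) [CommRing R]
    [IsLocalRing R] [IsNoetherianRing R] [Algebra (MvPowerSeries (Fin D) κ) R]
    [Module.Finite (MvPowerSeries (Fin D) κ) R]
    [IsLocalHom (algebraMap (MvPowerSeries (Fin D) κ) R)]
    (hres : ∀ x : R, ∃ b, x - algebraMap (MvPowerSeries (Fin D) κ) R b ∈
      maximalIdeal R) (s : ℕ)
    (f : (Fin s → MvPowerSeries (Fin D) κ) →ₗ[MvPowerSeries (Fin D) κ] R)
    (a : MvPowerSeries (Fin D) κ) (ha : a ≠ 0) (hf : ∀ x : R, ∃ v, f v = a • x)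
    (ε : ℝ) (hε : 0 < ε) :
    ∃ t L : ℕ, 1 ≤ t ∧ Module.length R (R ⧸ Ideal.span
      (Set.range fun ν => algebraMap (MvPowerSeries (Fin D) κ) R (MvPowerSeries.X ν) ^ t)) = L ∧
      (L : ℝ) ≤ (s + ε) * (t : ℝ) ^ D := by
  obtain ⟨g, μ, h⟩ := zc4_main D R s f a ha hf
  obtain ⟨t, ht1, ht2⟩ := zc4_real D g μ ε hε
  have h1 := h t
  have h2 : Module.length R (R ⧸ Ideal.span (Set.range fun ν =>
      algebraMap (MvPowerSeries (Fin D) κ) R (MvPowerSeries.X ν) ^ t)) ≠ ⊤ :=
    ne_top_of_le_ne_top (ENat.natCast_ne_top _) h1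
  obtain ⟨L, hL⟩ := ENat.ne_top_iff_exists.mp h2
  refine ⟨t, L, ht1, hL.symm, ?_⟩
  rw [← hL] at h1
  have h3 : L ≤ s * t ^ D + g * (t ^ D - ∏ i, (t - μ i)) := by exact_mod_cast h1
  have h4 : ∏ i, (t - μ i) ≤ t ^ D := by
    calc ∏ i, (t - μ i) ≤ ∏ _i : Fin D, t := Finset.prod_le_prod' fun i _ => Nat.sub_le _ _
      _ = t ^ D := by rw [Finset.prod_const, Finset.card_univ, Fintype.card_fin]
  have h5 : (L : ℝ) ≤ ((s * t ^ D + g * (t ^ D - ∏ i, (t - μ i)) : ℕ) : ℝ) := by
    exact_mod_cast h3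
  rw [Nat.cast_add, Nat.cast_mul, Nat.cast_mul, Nat.cast_sub h4, Nat.cast_prod, Nat.cast_pow] at h5
  linarith

end Vale.Agent.P202Z
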