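import Mathlib

namespace Vale.Agent.P202Z

universe u v

/-- ZC5: generic freeness over a domain. -/
theorem exists_rank_proved (A : Type u) [CommRing A] [IsDomain A] (R : Type v) [AddCommGroup R]
    [Module A R] [Module.Finite A R] :
    ∃ (s : ℕ) (f : (Fin s → A) →ₗ[A] R) (a : A), Function.Injective f ∧ a ≠ 0 ∧
      ∀ x : R, ∃ v, f v = a • x := by
  classical
  obtain ⟨v, hv⟩ := exists_linearIndependent_of_le_finrank (R := A) (M := R) le_rfl
  have h1 : Module.finrank A (Submodule.span A (Set.range v)) = Module.finrank A R := by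
    rw [finrank_span_eq_card hv, Fintype.card_fin]
  have h2 := Submodule.finrank_quotient_add_finrank (Submodule.span A (Set.range v))
  have h3 : Module.finrank A (R ⧸ Submodule.span A (Set.range v)) = 0 := by omega
  rw [Module.finrank_eq_zero_iff_isTorsion] at h3
  obtain ⟨c, hc1, hc2⟩ := Submodule.annihilator_top_inter_nonZeroDivisors h3
  refine ⟨_, Fintype.linearCombination A v, c,
    linearIndependent_iff_injective_fintypeLinearCombination.1 hv,
    nonZeroDivisors.ne_zero hc2, ?_⟩
  intro x
  have h4 := (Submodule.mem_annihilator.1 hc1) (Submodule.Quotient.mk x) Submodule.mem_top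
  rw [← Submodule.Quotient.mk_smul, Submodule.Quotient.mk_eq_zero,
    ← Fintype.range_linearCombination] at h4
  obtain ⟨a, ha⟩ := h4
  exact ⟨a, ha⟩

end Vale.Agent.P202Z
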