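import Vale.Agent.P202Y.Ps2

/-! # P202Z, module ZD3: module finiteness over the power series ring (helper12) -/

namespace Vale.Agent.P202Z

open IsLocalRing Vale.Agent.P202Y

universe u v w

/-- ZD3: module finiteness over the power series ring. -/
theorem finite_psHom_proved (D : ℕ) {l : Type u} [Field l] {S : Type v} [CommRing S]
    [IsLocalRing S]
    [IsNoetherianRing S] [IsAdicComplete (maximalIdeal S) S]
    (Ψ : MvPowerSeries (Fin D) l →+* S)
    (hm : ∀ i, Ψ (MvPowerSeries.X i) ∈ maximalIdeal S)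
    (hl : ∀ x, ∃ t, x - Ψ (MvPowerSeries.C t) ∈ maximalIdeal S)
    (hfin : ∃ N, maximalIdeal S ^ N ≤ Ideal.span (Set.range fun i => Ψ (MvPowerSeries.X i))) :
    Ψ.Finite ∧ IsLocalHom Ψ := by
  constructor
  · letI : Algebra l S := (Ψ.comp MvPowerSeries.C).toAlgebra
    let φ : MvPowerSeries (Fin D) l →ₐ[l] S :=
      { Ψ with commutes' := fun t => rfl }
    obtain ⟨N, hN⟩ := hfin
    exact ps_finite (k := l) (R := S) hl φ hm N hN
  · constructor
    intro a ha
    by_contra h
    have h1 : MvPowerSeries.constantCoeff a = 0 := by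
      by_contra h2
      exact h (MvPowerSeries.isUnit_iff_constantCoeff.2 (isUnit_iff_ne_zero.2 h2))
    have h2 := mem_vars D a h1
    have h3 : (Ideal.span (Set.range MvPowerSeries.X) : Ideal (MvPowerSeries (Fin D) l)) ≤
        (maximalIdeal S).comap Ψ := by
      rw [Ideal.span_le]
      rintro _ ⟨i, rfl⟩
      exact hm i
    exact (mem_maximalIdeal _).1 (h3 h2) ha

end Vale.Agent.P202Z
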