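import Vale.Agent.P202C.Red

/-! # P202Z, module ZD4: reductions of the maximal ideal exist (infinite residue field) (helper29) -/

set_option autoImplicit false

namespace Vale.Agent.P202Z

open IsLocalRing Vale.Agent.P202

universe u

variable {R : Type u} [CommRing R] [IsLocalRing R] [IsNoetherianRing R]

private theorem ZD4_seq [Infinite (ResidueField R)] (n : ℕ) :
    ∃ X : ℕ → R, ∀ i, i < n → X i ∈ maximalIdeal R ∧ Sup (maximalIdeal R) (P X i) (X i) ∧
      ∀ V ∈ (P X i).minimalPrimes, V ≠ maximalIdeal R → X i ∉ V := by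
  classical
  induction n with
  | zero => exact ⟨fun _ => 0, fun i hi => absurd hi (Nat.not_lt_zero _)⟩
  | succ n ih =>
    obtain ⟨X, hX⟩ := ih
    have hfin := Ideal.finite_minimalPrimes_of_isNoetherianRing R (P X n)
    obtain ⟨x, hx, hxV, hxs⟩ := exists_sup (P X n)
      (hfin.toFinset.filter fun V => V ≠ maximalIdeal R) (fun V hV hle => by
        rw [Finset.mem_filter, Set.Finite.mem_toFinset] at hV
        have hp : V.IsPrime := hV.1.isPrime
        exact hV.2 (le_antisymm (IsLocalRing.le_maximalIdeal hp.ne_top) hle))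
    have hP : ∀ i, i ≤ n → P (Function.update X n x) i = P X i := fun i hi =>
      P_congr fun j hj => Function.update_of_ne (by omega) _ _
    refine ⟨Function.update X n x, fun i hi => ?_⟩
    rcases Nat.lt_succ_iff_lt_or_eq.mp hi with h | h
    · rw [hP i h.le, Function.update_of_ne (by omega)]
      exact hX i h
    · subst h
      rw [hP i le_rfl, Function.update_self]
      refine ⟨hx, hxs, fun V hV hne => hxV V ?_⟩
      rw [Finset.mem_filter, Set.Finite.mem_toFinset]
      exact ⟨hV, hne⟩

omit [IsNoetherianRing R] in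
private theorem ZD4_height (X : ℕ → R) (n : ℕ)
    (hX : ∀ i, i < n → ∀ V ∈ (P X i).minimalPrimes, V ≠ maximalIdeal R → X i ∉ V) :
    ∀ i, i ≤ n → ∀ q ∈ (P X i).minimalPrimes, q = maximalIdeal R ∨ (i : ℕ∞) ≤ q.height := by
  intro i
  induction i with
  | zero => intro _ q _; right; simp
  | succ i ih =>
    intro hi q hq
    have hqp : q.IsPrime := hq.isPrime
    have hle : P X i ≤ q := by
      refine le_trans ?_ hq.le
      rw [P_succ]; exact le_sup_left
    obtain ⟨q', hq', hq'q⟩ := Ideal.exists_minimalPrimes_le hle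
    have hq'p : q'.IsPrime := hq'.isPrime
    rcases ih (by omega) q' hq' with h | h
    · left
      refine le_antisymm (IsLocalRing.le_maximalIdeal hqp.ne_top) ?_
      rw [← h]; exact hq'q
    · by_cases hm : q' = maximalIdeal R
      · left
        refine le_antisymm (IsLocalRing.le_maximalIdeal hqp.ne_top) ?_
        rw [← hm]; exact hq'q
      · right
        have hx : X i ∉ q' := hX i (by omega) q' hq' hm
        have hxq : X i ∈ q := by
          refine hq.le ?_
          rw [P_succ]
          exact Ideal.mem_sup_right (Ideal.mem_span_singleton_self _)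
        have hlt : q' < q := lt_of_le_of_ne hq'q (fun h => hx (h ▸ hxq))
        have h1 := Ideal.height_add_one_le_of_lt_of_isPrime hlt
        push_cast
        exact (add_le_add_left h 1).trans h1

/-- ZD4: reductions of the maximal ideal exist (infinite residue field). -/
theorem exists_reduction_gen_proved (R : Type u) [CommRing R] [IsLocalRing R] [IsNoetherianRing R]
    [Infinite (ResidueField R)] (D : ℕ) (hD : ringKrullDim R = D) :
    ∃ y : Fin D → R, (∀ l, y l ∈ maximalIdeal R) ∧
      ∃ c : ℕ, maximalIdeal R ^ (c + 1) ≤ Ideal.span (Set.range y) * maximalIdeal R ^ c := by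
  obtain ⟨X, hX⟩ := ZD4_seq (R := R) D
  have hspan : Ideal.span (Set.range (fun l : Fin D => X l)) = P X D := by
    unfold P
    congr 1
    ext r
    constructor
    · rintro ⟨l, rfl⟩
      exact ⟨l, l.isLt, rfl⟩
    · rintro ⟨j, hj, rfl⟩
      exact ⟨⟨j, hj⟩, rfl⟩
  have hmax : ∀ q ∈ (P X D).minimalPrimes, q = maximalIdeal R := by
    intro q hq
    rcases ZD4_height X D (fun i hi => (hX i hi).2.2) D le_rfl q hq with h | h
    · exact h
    · by_contra hne
      have hqp : q.IsPrime := hq.isPrime
      have hlt : q < maximalIdeal R := lt_of_le_of_ne (IsLocalRing.le_maximalIdeal hqp.ne_top) hne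
      have h1 := Ideal.height_add_one_le_of_lt_of_isPrime hlt
      have h2 : (maximalIdeal R).height = (D : ℕ∞) := by
        have := IsLocalRing.maximalIdeal_height_eq_ringKrullDim (R := R)
        rw [hD] at this
        exact_mod_cast this
      rw [h2] at h1
      have h3 : (D : ℕ∞) + 1 ≤ D := (add_le_add_left h 1).trans h1
      have h4 : ((D + 1 : ℕ) : ℕ∞) ≤ (D : ℕ∞) := by exact_mod_cast h3
      have h5 : D + 1 ≤ D := by exact_mod_cast h4
      omega
  have hfin : ∃ c, maximalIdeal R ^ c ≤ P X D := by
    have h3 : maximalIdeal R ≤ (P X D).radical := by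
      rw [← Ideal.sInf_minimalPrimes]
      refine le_sInf fun K hK => ?_
      rw [hmax K hK]
    exact Ideal.exists_pow_le_of_le_radical_of_fg h3 (IsNoetherian.noetherian _)
  obtain ⟨N₀, hN₀⟩ := Vale.Agent.P202C.rd_red D X (fun i hi => ⟨(hX i hi).1, (hX i hi).2.1⟩)
    hfin D le_rfl
  rw [Nat.sub_self, P_zero] at hN₀
  refine ⟨fun l : Fin D => X l, fun l => (hX l l.isLt).1, N₀, ?_⟩
  rw [hspan]
  have := hN₀ N₀ le_rfl
  rwa [bot_sup_eq] at this

end Vale.Agent.P202Z
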