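import Vale.Agent.P202Z.Defs
import Vale.Agent.P202T.Defs
import Vale.Agent.P202.Def
import Mathlib

/-! # P202Z, module ZD1: a finite free algebra mapping onto a finite local algebra (helper95) -/

namespace Vale.Agent.P202Z

open IsLocalRing Vale.Agent.P202 Vale.Agent.P202Y Polynomial
open scoped TensorProduct

universe u v w

/-- a finite free algebra over `A` with a basis containing `1` such that products of the other
basis elements have small coordinate at `1`, mapping to `R` with `t` in the image -/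
def ZD1Good (A : Type u) [CommRing A] [IsLocalRing A] (R : Type v) [CommRing R] [IsLocalRing R]
    [Algebra A R] (t : Set R) : Prop :=
  ∃ (P : Type u) (_ : CommRing P) (_ : Algebra A P) (ι : Type) (_ : Fintype ι)
    (b : Module.Basis ι A P) (i₀ : ι) (π : P →ₐ[A] R), b i₀ = 1 ∧
    (∀ i j, ¬ (i = i₀ ∧ j = i₀) → b.repr (b i * b j) i₀ ∈ maximalIdeal A) ∧
    (∀ i, i ≠ i₀ → π (b i) ∈ maximalIdeal R) ∧ t ⊆ Set.range π

theorem zd1_empty (A : Type u) [CommRing A] [IsLocalRing A] (R : Type v) [CommRing R]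
    [IsLocalRing R] [Algebra A R] : ZD1Good A R ∅ := by
  refine ⟨A, inferInstance, inferInstance, Unit, inferInstance, Module.Basis.singleton Unit A, (),
    Algebra.ofId A R, ?_, ?_, ?_, Set.empty_subset _⟩
  · exact Module.Basis.singleton_apply Unit A ()
  · intro i j h
    exact absurd ⟨Subsingleton.elim _ _, Subsingleton.elim _ _⟩ h
  · intro i h
    exact absurd (Subsingleton.elim _ _) h

theorem zd1_coeff {A : Type u} [CommRing A] {I : Ideal A} {f : A[X]} (h0 : f.coeff 0 ∈ I)
    (n : ℕ) (hn : n ≠ 0) : ((X ^ n : A[X]) %ₘ f).coeff 0 ∈ I := by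
  have h1 := congrArg (fun p : A[X] => p.coeff 0) (modByMonic_add_div (X ^ n : A[X]) f)
  simp only [coeff_add, mul_coeff_zero] at h1
  have h2 : (X ^ n : A[X]).coeff 0 = 0 := by
    rw [coeff_X_pow, if_neg (Ne.symm hn)]
  rw [h2] at h1
  have h3 : ((X ^ n : A[X]) %ₘ f).coeff 0 = - (f.coeff 0 * ((X ^ n : A[X]) /ₘ f).coeff 0) :=
    eq_neg_of_add_eq_zero_left h1
  rw [h3]
  exact I.neg_mem (I.mul_mem_right _ h0)

theorem zd1_step (A : Type u) [CommRing A] [IsLocalRing A] (R : Type v) [CommRing R]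
    [IsLocalRing R] [Algebra A R] [IsLocalHom (algebraMap A R)] (r : R)
    (hr : r ∈ maximalIdeal R) (hint : IsIntegral A r) (t : Set R) (h : ZD1Good A R t) :
    ZD1Good A R (insert r t) := by
  obtain ⟨P, iP, aP, ι, iι, b, i₀, π, h1, h2, h3, h4⟩ := h
  obtain ⟨f, hf, hfr⟩ := hint
  -- the constant coefficient lies in the maximal ideal
  have hf0 : f.coeff 0 ∈ maximalIdeal A := by
    rw [mem_maximalIdeal, mem_nonunits_iff]
    intro hu
    have hu' : IsUnit (algebraMap A R (f.coeff 0)) := hu.map _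
    have h5 : algebraMap A R (f.coeff 0) ∈ maximalIdeal R := by
      have h6 : eval₂ (algebraMap A R) r f = 0 := hfr
      have h7 : f = C (f.coeff 0) + X * divX f := by
        rw [add_comm]
        exact (X_mul_divX_add f).symm
      rw [h7, eval₂_add, eval₂_C, eval₂_mul, eval₂_X] at h6
      rw [eq_neg_of_add_eq_zero_left h6]
      exact (maximalIdeal R).neg_mem ((maximalIdeal R).mul_mem_right _ hr)
    rw [mem_maximalIdeal, mem_nonunits_iff] at h5
    exact h5 hu'
  have hpos : 0 < f.natDegree := by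
    rw [Nat.pos_iff_ne_zero]
    intro h0
    have h5 : f = 1 := by
      rw [eq_C_of_natDegree_eq_zero h0]
      have h6 : f.coeff 0 = 1 := by
        have h7 : f.leadingCoeff = 1 := hf
        rw [leadingCoeff, h0] at h7
        exact h7
      rw [h6, C_1]
    rw [h5, eval₂_one] at hfr
    exact one_ne_zero hfr
  let bb := AdjoinRoot.powerBasisAux' hf
  have hbb : ∀ i, bb i = AdjoinRoot.root f ^ (i : ℕ) := fun i =>
    (AdjoinRoot.powerBasis' hf).basis_eq_pow i
  let Q := AdjoinRoot f
  let ψ : AdjoinRoot f →ₐ[A] R := AdjoinRoot.liftAlgHom f (Algebra.ofId A R) r hfr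
  have hψ : ψ (AdjoinRoot.root f) = r := AdjoinRoot.liftAlgHom_root _ _ _ _
  refine ⟨P ⊗[A] AdjoinRoot f, inferInstance, inferInstance, ι × Fin f.natDegree, inferInstance,
    b.tensorProduct bb, (i₀, ⟨0, hpos⟩), Algebra.TensorProduct.productMap π ψ, ?_, ?_, ?_, ?_⟩
  · rw [Module.Basis.tensorProduct_apply, h1, hbb, pow_zero]
    rfl
  · rintro ⟨i, k⟩ ⟨j, l⟩ hne
    rw [Module.Basis.tensorProduct_apply, Module.Basis.tensorProduct_apply,
      Algebra.TensorProduct.tmul_mul_tmul, Module.Basis.tensorProduct_repr_tmul_apply, smul_eq_mul]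
    by_cases h5 : i = i₀ ∧ j = i₀
    · refine (maximalIdeal A).mul_mem_right _ ?_
      have h6 : (k : ℕ) + (l : ℕ) ≠ 0 := by
        intro h7
        apply hne
        have hk : (k : ℕ) = 0 := by omega
        have hl : (l : ℕ) = 0 := by omega
        exact ⟨Prod.ext h5.1 (Fin.ext hk), Prod.ext h5.2 (Fin.ext hl)⟩
      rw [hbb, hbb, ← pow_add]
      have h8 : AdjoinRoot.root f ^ ((k : ℕ) + (l : ℕ)) =
          AdjoinRoot.mk f (X ^ ((k : ℕ) + (l : ℕ))) := by
        rw [map_pow, AdjoinRoot.mk_X]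
      rw [h8]
      change (AdjoinRoot.modByMonicHom hf (AdjoinRoot.mk f (X ^ ((k : ℕ) + (l : ℕ))))).coeff 0 ∈ _
      rw [AdjoinRoot.modByMonicHom_mk]
      exact zd1_coeff hf0 _ h6
    · exact (maximalIdeal A).mul_mem_left _ (h2 i j h5)
  · rintro ⟨i, k⟩ hne
    rw [Module.Basis.tensorProduct_apply, Algebra.TensorProduct.productMap_apply_tmul, hbb,
      map_pow, hψ]
    by_cases h5 : i = i₀
    · refine (maximalIdeal R).mul_mem_left _ ?_
      have h6 : (k : ℕ) ≠ 0 := by
        intro h7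
        exact hne (Prod.ext h5 (Fin.ext h7))
      exact Ideal.pow_mem_of_mem _ hr _ (Nat.pos_of_ne_zero h6)
    · exact (maximalIdeal R).mul_mem_right _ (h3 i h5)
  · intro x hx
    rcases hx with rfl | hx
    · exact ⟨1 ⊗ₜ AdjoinRoot.root f, by
        rw [Algebra.TensorProduct.productMap_apply_tmul, map_one, one_mul, hψ]⟩
    · obtain ⟨p, hp⟩ := h4 hx
      exact ⟨p ⊗ₜ 1, by
        rw [Algebra.TensorProduct.productMap_apply_tmul, map_one, mul_one, hp]⟩

theorem zd1_finset (A : Type u) [CommRing A] [IsLocalRing A] (R : Type v) [CommRing R]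
    [IsLocalRing R] [Algebra A R] [IsLocalHom (algebraMap A R)] [Module.Finite A R]
    (s : Finset R) : (∀ x ∈ s, x ∈ maximalIdeal R) → ZD1Good A R s := by
  classical
  induction s using Finset.induction_on with
  | empty =>
    intro _
    rw [Finset.coe_empty]
    exact zd1_empty A R
  | insert a s _ ih =>
    intro hs
    rw [Finset.coe_insert]
    exact zd1_step A R a (hs a (Finset.mem_insert_self _ _)) (Algebra.IsIntegral.isIntegral a) _
      (ih fun x hx => hs x (Finset.mem_insert_of_mem hx))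

theorem zd1_convert (A : Type u) [CommRing A] [IsLocalRing A] (R : Type v) [CommRing R]
    [IsLocalRing R] [Algebra A R] {P : Type u} [CommRing P] [Algebra A P] {n : ℕ}
    (b : Module.Basis (Fin (n + 1)) A P) (π : P →ₐ[A] R) (hπ : Function.Surjective π)
    (h1 : b 0 = 1)
    (h2 : ∀ i j, ¬ (i = 0 ∧ j = 0) → b.repr (b i * b j) 0 ∈ maximalIdeal A)
    (h3 : ∀ i, i ≠ 0 → π (b i) ∈ maximalIdeal R) :
    ∃ (c : Fin (n + 1) → Fin (n + 1) → Fin (n + 1) → A) (h : SCAx c)
      (π : SC c h →ₐ[A] R), Function.Surjective π ∧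
      (∀ i j, ¬ (i = 0 ∧ j = 0) → c i j 0 ∈ maximalIdeal A) ∧
      ∀ i : Fin n, π (SC.bas i.succ) ∈ maximalIdeal R := by
  let c : Fin (n + 1) → Fin (n + 1) → Fin (n + 1) → A := fun i j m => b.repr (b i * b j) m
  have hmul : ∀ i j, b i * b j = ∑ m, c i j m • b m := fun i j =>
    (b.sum_repr (b i * b j)).symm
  have hax : SCAx c := by
    refine ⟨fun j m => ?_, fun i j m => ?_, fun i j k l => ?_⟩
    · change b.repr (b 0 * b j) m = _
      rw [h1, one_mul, b.repr_self, Finsupp.single_apply]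
    · change b.repr (b i * b j) m = b.repr (b j * b i) m
      rw [mul_comm]
    · have e1 : ∀ p q r : Fin (n + 1), b.repr (b p * b q * b r) l = ∑ m, c p q m * c m r l := by
        intro p q r
        rw [hmul p q, Finset.sum_mul, map_sum, Finsupp.finsetSum_apply]
        refine Finset.sum_congr rfl fun m _ => ?_
        rw [smul_mul_assoc, map_smul, Finsupp.smul_apply, smul_eq_mul]
      rw [← e1, mul_comm (b i * b j), ← mul_assoc, mul_comm (b k) (b i), mul_assoc,
        mul_comm (b i)]
      rw [mul_comm (b k) (b j), e1]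
      refine Finset.sum_congr rfl fun m _ => ?_
      have hc : c m i l = c i m l := by
        change b.repr (b m * b i) l = b.repr (b i * b m) l
        rw [mul_comm]
      rw [hc]
  let φ₀ : SC c hax ≃ₗ[A] P := (SC.bas (c := c) (h := hax)).equiv b (Equiv.refl _)
  let φ : SC c hax →ₗ[A] R := π.toLinearMap ∘ₗ φ₀.toLinearMap
  have hφ : ∀ i, φ (SC.bas i) = π (b i) := by
    intro i
    change π ((SC.bas (c := c) (h := hax)).equiv b (Equiv.refl _) (SC.bas i)) = _
    rw [Module.Basis.equiv_apply]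
    rfl
  have hφ1 : φ 1 = 1 := by
    rw [← SC.bas_zero, hφ, h1, map_one]
  have hφm : ∀ x y, φ (x * y) = φ x * φ y := by
    have h4 : (LinearMap.mul A (SC c hax)).compr₂ φ = (LinearMap.mul A R).compl₁₂ φ φ := by
      refine LinearMap.ext_basis (SC.bas (c := c) (h := hax)) (SC.bas (c := c) (h := hax))
        fun i j => ?_
      rw [LinearMap.compr₂_apply, LinearMap.compl₁₂_apply, LinearMap.mul_apply',
        LinearMap.mul_apply', SC.bas_mul, map_sum, hφ, hφ, ← map_mul, hmul, map_sum]
      refine Finset.sum_congr rfl fun m _ => ?_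
      rw [map_smul, map_smul, hφ]
    intro x y
    have h5 := LinearMap.congr_fun (LinearMap.congr_fun h4 x) y
    rw [LinearMap.compr₂_apply, LinearMap.compl₁₂_apply, LinearMap.mul_apply',
        LinearMap.mul_apply'] at h5
    exact h5
  refine ⟨c, hax, AlgHom.ofLinearMap φ hφ1 hφm, ?_, ?_, ?_⟩
  · intro x
    obtain ⟨p, hp⟩ := hπ x
    refine ⟨φ₀.symm p, ?_⟩
    change π (φ₀ (φ₀.symm p)) = x
    rw [LinearEquiv.apply_symm_apply, hp]
  · intro i j hij
    exact h2 i j hij
  · intro i
    change φ (SC.bas i.succ) ∈ _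
    rw [hφ]
    exact h3 _ (Fin.succ_ne_zero i)

/-- ZD1: a finite free algebra with structure constants mapping onto `R`. -/
theorem exists_P_proved (A : Type u) [CommRing A] [IsLocalRing A] [IsNoetherianRing A]
    [IsAdicComplete (maximalIdeal A) A] (R : Type v) [CommRing R] [IsLocalRing R] [Algebra A R]
    [Module.Finite A R] [IsLocalHom (algebraMap A R)]
    (hres : ∀ x : R, ∃ b, x - algebraMap A R b ∈ maximalIdeal R) :
    ∃ (n : ℕ) (c : Fin (n + 1) → Fin (n + 1) → Fin (n + 1) → A) (h : SCAx c)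
      (π : SC c h →ₐ[A] R), Function.Surjective π ∧
      (∀ i j, ¬ (i = 0 ∧ j = 0) → c i j 0 ∈ maximalIdeal A) ∧
      ∀ i : Fin n, π (SC.bas i.succ) ∈ maximalIdeal R := by
  classical
  obtain ⟨s, hs⟩ := (IsNoetherian.noetherian ((maximalIdeal R).restrictScalars A) :
    ((maximalIdeal R).restrictScalars A).FG)
  have hsm : ∀ x ∈ s, x ∈ maximalIdeal R := by
    intro x hx
    have h1 : x ∈ Submodule.span A (s : Set R) := Submodule.subset_span hx
    rw [hs] at h1
    exact h1
  obtain ⟨P, iP, aP, ι, iι, b, i₀, π, h1, h2, h3, h4⟩ := zd1_finset A R s hsm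
  have hsur : Function.Surjective π := by
    intro x
    obtain ⟨a, ha⟩ := hres x
    have h5 : Submodule.span A (s : Set R) ≤ LinearMap.range π.toLinearMap := by
      rw [Submodule.span_le]
      intro y hy
      obtain ⟨p, hp⟩ := h4 hy
      exact ⟨p, hp⟩
    rw [hs] at h5
    obtain ⟨p, hp⟩ := h5 ha
    refine ⟨p + algebraMap A P a, ?_⟩
    have hp' : π p = x - algebraMap A R a := hp
    rw [map_add, AlgHom.commutes, hp', sub_add_cancel]
  have hcard : Fintype.card ι = (Fintype.card ι - 1) + 1 := by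
    have h5 : 0 < Fintype.card ι := Fintype.card_pos_iff.mpr ⟨i₀⟩
    omega
  let e₀ : ι ≃ Fin (Fintype.card ι - 1 + 1) := Fintype.equivFinOfCardEq hcard
  let e : ι ≃ Fin (Fintype.card ι - 1 + 1) := e₀.trans (Equiv.swap (e₀ i₀) 0)
  have he : e i₀ = 0 := by
    change Equiv.swap (e₀ i₀) 0 (e₀ i₀) = 0
    exact Equiv.swap_apply_left _ _
  have he' : e.symm 0 = i₀ := by
    rw [← he, Equiv.symm_apply_apply]
  have hne : ∀ i, i ≠ 0 → e.symm i ≠ i₀ := by
    intro i hi h5
    apply hi
    rw [← he, ← h5, Equiv.apply_symm_apply]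
  refine ⟨Fintype.card ι - 1, zd1_convert A R (b.reindex e) π hsur ?_ ?_ ?_⟩
  · rw [Module.Basis.reindex_apply, he', h1]
  · intro i j hij
    rw [Module.Basis.reindex_apply, Module.Basis.reindex_apply, Module.Basis.repr_reindex_apply,
      he']
    refine h2 _ _ fun h5 => hij ⟨?_, ?_⟩
    · by_contra h6
      exact hne i h6 h5.1
    · by_contra h6
      exact hne j h6 h5.2
  · intro i hi
    rw [Module.Basis.reindex_apply]
    exact h3 _ (hne i hi)

end Vale.Agent.P202Z
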