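import Mathlib

/-! # P202Z: ZD2 minors of the relation module vanish (helper23) -/

namespace Vale.Agent.P202Z

universe u v

/-- ZD2: minors of a submodule of a free module with quotient of rank `≥ s` vanish. -/
theorem minors_vanish_proved (A : Type u) [CommRing A] [IsDomain A] (N : ℕ) (R : Type v)
    [AddCommGroup R]
    [Module A R] (π : (Fin N → A) →ₗ[A] R) (hπ : Function.Surjective π) (s q : ℕ)
    (hs : s + q = N + 1) (f : (Fin s → A) →ₗ[A] R) (hf : Function.Injective f)
    (w : Fin q → Fin N → A) (hw : ∀ i, π (w i) = 0) (h : Fin q → Fin N) :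
    (Matrix.of fun i j => w i (h j)).det = 0 := by
  by_contra hdet
  choose u hu using fun j : Fin s => hπ (f (Pi.single j 1))
  have hli : LinearIndependent A (Sum.elim w u) := by
    rw [Fintype.linearIndependent_iff]
    intro g hg
    rw [Fintype.sum_sum_type] at hg
    simp only [Sum.elim_inl, Sum.elim_inr] at hg
    have h1 : f (fun j => g (Sum.inr j)) = 0 := by
      have h0 := congrArg π hg
      simp only [map_add, map_sum, map_smul, hw, hu, smul_zero, Finset.sum_const_zero, zero_add,
        map_zero] at h0
      have e : (fun j => g (Sum.inr j)) = ∑ j, g (Sum.inr j) • (Pi.single j (1 : A) : Fin s → A) := by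
        ext i
        simp [Finset.sum_apply, Pi.single_apply]
      rw [e, map_sum]
      simpa only [map_smul] using h0
    have h2 : (fun j => g (Sum.inr j)) = 0 := hf (by rw [h1, map_zero])
    have h3 : ∀ j, g (Sum.inr j) = 0 := fun j => congrFun h2 j
    simp only [h3, zero_smul, Finset.sum_const_zero, add_zero] at hg
    have h4 : (fun i => g (Sum.inl i)) = 0 := by
      apply Matrix.eq_zero_of_vecMul_eq_zero hdet
      ext j
      have := congrFun hg (h j)
      simpa [Matrix.vecMul, dotProduct] using this
    rintro (i | j)
    · exact congrFun h4 i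
    · exact h3 j
  have hc := hli.fintype_card_le_finrank
  simp at hc
  omega

end Vale.Agent.P202Z
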