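import Vale.Agent.P202Y.SCAlg
import Vale.Agent.P202Z.ZD3
import Vale.Agent.P202Y.YC1

/-! # P202Z, ZD5: `S` is free over `R' = P' / I'` (helper49) -/

namespace Vale.Agent.P202Z

open IsLocalRing Vale.Agent.P202Y

universe u v w

/-! ## power series -/

theorem ZD5_dec (D : ℕ) {k : Type u} [Field k] (f : MvPowerSeries (Fin D) k) :
    ∃ (t : k) (g : Fin D → MvPowerSeries (Fin D) k),
      f = MvPowerSeries.C t + ∑ i, g i * MvPowerSeries.X i := by
  have h1 : f - MvPowerSeries.C (MvPowerSeries.constantCoeff f) ∈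
      maximalIdeal (MvPowerSeries (Fin D) k) := by
    rw [mem_maximalIdeal, mem_nonunits_iff, MvPowerSeries.isUnit_iff_constantCoeff]
    simp
  rw [mvps_maximal_proved, Ideal.mem_span_range_iff_exists_fun] at h1
  obtain ⟨g, hg⟩ := h1
  exact ⟨_, g, by rw [hg]; ring⟩

theorem ZD5_unique (D : ℕ) {k : Type u} [Field k] {S : Type v} [CommRing S] [IsLocalRing S]
    [IsNoetherianRing S] (Ψ Ψ' : MvPowerSeries (Fin D) k →+* S)
    (hC : ∀ t, Ψ (MvPowerSeries.C t) = Ψ' (MvPowerSeries.C t))
    (hX : ∀ i, Ψ (MvPowerSeries.X i) = Ψ' (MvPowerSeries.X i))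
    (hm : ∀ i, Ψ (MvPowerSeries.X i) ∈ maximalIdeal S) (f : MvPowerSeries (Fin D) k) :
    Ψ f = Ψ' f := by
  have key : ∀ (q : ℕ) (f : MvPowerSeries (Fin D) k), Ψ f - Ψ' f ∈ maximalIdeal S ^ q := by
    intro q
    induction q with
    | zero => intro f; simp
    | succ q ih =>
      intro f
      obtain ⟨t, g, rfl⟩ := ZD5_dec D f
      have e : Ψ (MvPowerSeries.C t + ∑ i, g i * MvPowerSeries.X i) -
          Ψ' (MvPowerSeries.C t + ∑ i, g i * MvPowerSeries.X i) =
          ∑ i, (Ψ (g i) - Ψ' (g i)) * Ψ (MvPowerSeries.X i) := by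
        rw [map_add, map_add, map_sum, map_sum, hC, add_sub_add_left_eq_sub,
          ← Finset.sum_sub_distrib]
        refine Finset.sum_congr rfl fun i _ => ?_
        rw [map_mul, map_mul, ← hX i]
        ring
      rw [e, pow_succ]
      exact Ideal.sum_mem _ fun i _ => Ideal.mul_mem_mul (ih _) (hm i)
  rw [← sub_eq_zero]
  have h1 := Ideal.iInf_pow_eq_bot_of_isLocalRing (maximalIdeal S) (maximalIdeal.isMaximal S).ne_top
  have h2 : Ψ f - Ψ' f ∈ (⨅ i, maximalIdeal S ^ i : Ideal S) := by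
    rw [Ideal.mem_iInf]
    exact fun q => key q f
  rw [h1] at h2
  exact h2

/-! ## change of coefficients -/

/-- change of coefficients of a structure-constant algebra -/
def ZD5_theta {A : Type u} {A' : Type v} [CommRing A] [CommRing A'] {n : ℕ} (ι : A →+* A')
    (c : Fin (n + 1) → Fin (n + 1) → Fin (n + 1) → A) (h : SCAx c)
    (h' : SCAx fun i i' m => ι (c i i' m)) :
    SC c h →+* SC (fun i i' m => ι (c i i' m)) h' where
  toFun x := SC.vec.symm fun a => ι (SC.vec x a)
  map_one' := by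
    refine SC.ext' fun m => ?_
    change ι (SC.vec (1 : SC c h) m) = _
    rw [SC.vec_one, SC.vec_one]
    split <;> simp
  map_mul' x y := by
    refine SC.ext' fun m => ?_
    rw [SC.vec_mul]
    change ι (SC.vec (x * y) m) = ∑ i, ∑ j, ι (SC.vec x i) * ι (SC.vec y j) * ι (c i j m)
    rw [SC.vec_mul, map_sum]
    refine Finset.sum_congr rfl fun i _ => ?_
    rw [map_sum]
    refine Finset.sum_congr rfl fun j _ => ?_
    rw [map_mul, map_mul]
  map_zero' := by
    refine SC.ext' fun m => ?_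
    change ι (SC.vec (0 : SC c h) m) = _
    simp
  map_add' x y := by
    refine SC.ext' fun m => ?_
    change ι (SC.vec (x + y) m) = ι (SC.vec x m) + ι (SC.vec y m)
    rw [map_add, Pi.add_apply, map_add]

theorem ZD5_theta_bas {A : Type u} {A' : Type v} [CommRing A] [CommRing A'] {n : ℕ} (ι : A →+* A')
    (c : Fin (n + 1) → Fin (n + 1) → Fin (n + 1) → A) (h : SCAx c)
    (h' : SCAx fun i i' m => ι (c i i' m)) (i : Fin (n + 1)) :
    ZD5_theta ι c h h' (SC.bas i) = SC.bas i := by
  refine SC.ext' fun m => ?_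
  change ι (SC.vec (SC.bas i) m) = _
  rw [SC.vec_bas, SC.vec_bas]
  split <;> simp

theorem ZD5_theta_alg {A : Type u} {A' : Type v} [CommRing A] [CommRing A'] {n : ℕ} (ι : A →+* A')
    (c : Fin (n + 1) → Fin (n + 1) → Fin (n + 1) → A) (h : SCAx c)
    (h' : SCAx fun i i' m => ι (c i i' m)) (f : A) :
    ZD5_theta ι c h h' (algebraMap _ _ f) = algebraMap _ _ (ι f) := by
  refine SC.ext' fun m => ?_
  change ι (SC.vec (algebraMap A (SC c h) f) m) = _
  rw [SC.vec_algebraMap, SC.vec_algebraMap]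
  split <;> simp

/-! ## adapted bases and flatness (after YD4, helper41) -/

/-- adapted basis of `R/Y` -/
theorem ZD5_series (R : Type u) [CommRing R] [IsLocalRing R] [IsNoetherianRing R]
    {k : Type w} [Field k] (a : k →+* R) (hk : ∀ x, ∃ t, x - a t ∈ maximalIdeal R) (Y : Ideal R) :
    (∃ N, maximalIdeal R ^ N ≤ Y) → Y ≤ maximalIdeal R →
      ∃ (e : ℕ) (ρ : Fin (e + 1) → R),
        (∀ x, ∃ t : Fin (e + 1) → k, x - ∑ i, a (t i) * ρ i ∈ Y) ∧
        (∀ i, ρ i ∉ Y ⊔ Ideal.span (ρ '' {j | i < j})) := by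
  refine IsNoetherian.induction (P := fun Y : Ideal R => (∃ N, maximalIdeal R ^ N ≤ Y) →
      Y ≤ maximalIdeal R →
      ∃ (e : ℕ) (ρ : Fin (e + 1) → R),
        (∀ x, ∃ t : Fin (e + 1) → k, x - ∑ i, a (t i) * ρ i ∈ Y) ∧
        (∀ i, ρ i ∉ Y ⊔ Ideal.span (ρ '' {j | i < j}))) ?_ Y
  intro Y ih hN hYm
  by_cases hE : Y = maximalIdeal R
  · subst hE
    refine ⟨0, fun _ => 1, ?_, ?_⟩
    · intro x
      obtain ⟨t, ht⟩ := hk x
      exact ⟨fun _ => t, by simpa using ht⟩
    · intro i
      have h0 : {j : Fin (0 + 1) | i < j} = ∅ := by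
        ext j
        simp only [Set.mem_ofPred_eq, Set.mem_empty_iff_false, iff_false, not_lt]
        omega
      rw [h0, Set.image_empty, Ideal.span_empty, sup_bot_eq]
      exact (Ideal.ne_top_iff_one _).mp (maximalIdeal.isMaximal R).ne_top
  · have hlt : Y < maximalIdeal R := lt_of_le_of_ne hYm hE
    classical
    obtain ⟨g, hgm, hgY, hmg⟩ : ∃ g ∈ maximalIdeal R, g ∉ Y ∧ ∀ x ∈ maximalIdeal R, x * g ∈ Y := by
      have hs := Nat.find_spec hN
      have hmin := fun n => Nat.find_min hN (m := n)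
      rcases h0 : Nat.find hN with _ | s
      · rw [h0, pow_zero, Ideal.one_eq_top] at hs
        exact absurd (top_le_iff.mp (hs.trans hYm)) (maximalIdeal.isMaximal R).ne_top
      · rcases s with _ | s
        · rw [h0, zero_add, pow_one] at hs
          exact absurd (le_antisymm hYm hs) hE
        · rw [h0] at hs
          have h1 := hmin (s + 1) (by rw [h0]; exact Nat.lt_succ_self _)
          obtain ⟨g, hg1, hg2⟩ := SetLike.not_le_iff_exists.mp h1
          refine ⟨g, ?_, hg2, ?_⟩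
          · exact Ideal.pow_le_self (Nat.succ_ne_zero s) hg1
          · intro x hx
            apply hs
            rw [pow_succ', pow_succ'] at *
            exact Ideal.mul_mem_mul hx (by rw [← pow_succ'] at *; exact hg1)
    set Y' : Ideal R := Y ⊔ Ideal.span {g} with hY'
    have hgY' : g ∈ Y' := Ideal.mem_sup_right (Ideal.mem_span_singleton_self g)
    have hYY' : Y ≤ Y' := le_sup_left
    have hlt' : Y' > Y := by
      refine lt_of_le_of_ne hYY' ?_
      intro h
      exact hgY (h ▸ hgY')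
    have hY'm : Y' ≤ maximalIdeal R :=
      sup_le hYm ((Ideal.span_singleton_le_iff_mem _).mpr hgm)
    obtain ⟨e, ρ, h3, h4⟩ := ih Y' hlt' (hN.imp fun n hn => hn.trans hYY') hY'm
    refine ⟨e + 1, Fin.snoc (α := fun _ => R) ρ g, ?_, ?_⟩
    · intro x
      obtain ⟨t, ht⟩ := h3 x
      obtain ⟨y, hy, z, hz, hyz⟩ := Submodule.mem_sup.mp ht
      obtain ⟨c, rfl⟩ := Ideal.mem_span_singleton'.mp hz
      obtain ⟨t', ht'⟩ := hk c
      refine ⟨Fin.snoc (α := fun _ => k) t t', ?_⟩
      rw [Fin.sum_univ_castSucc]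
      simp only [Fin.snoc_castSucc, Fin.snoc_last]
      have e1 : x - (∑ i : Fin (e + 1), a (t i) * ρ i + a t' * g) = y + (c - a t') * g := by
        linear_combination -hyz
      rw [e1]
      exact Y.add_mem hy (hmg _ ht')
    · intro i
      refine Fin.lastCases ?_ (fun i => ?_) i
      · rw [Fin.snoc_last]
        have h0 : {j : Fin (e + 1 + 1) | Fin.last (e + 1) < j} = ∅ := by
          ext j
          simp [Fin.le_last]
        rw [h0, Set.image_empty, Ideal.span_empty, sup_bot_eq]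
        exact hgY
      · rw [Fin.snoc_castSucc]
        intro hmem
        apply h4 i
        refine (sup_le ?_ ?_ : Y ⊔ Ideal.span _ ≤ Y' ⊔ Ideal.span (ρ '' {j | i < j})) hmem
        · exact hYY'.trans le_sup_left
        · rw [Ideal.span_le]
          rintro _ ⟨j, hj, rfl⟩
          revert hj
          refine Fin.lastCases ?_ (fun j => ?_) j
          · intro _
            rw [Fin.snoc_last]
            exact Ideal.mem_sup_left hgY'
          · intro hj
            rw [Fin.snoc_castSucc]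
            exact Ideal.mem_sup_right (Ideal.subset_span ⟨j, by simpa using hj, rfl⟩)

/-- flat colon lemma -/
theorem ZD5_colon {R : Type u} {S : Type v} [CommRing R] [IsLocalRing R] [CommRing S]
    [Algebra R S] [Module.Flat R S] (F : Ideal R) (x : R) (hx : x ∉ F) (s : S)
    (hs : algebraMap R S x * s ∈ F.map (algebraMap R S)) :
    s ∈ (maximalIdeal R).map (algebraMap R S) := by
  rw [Ideal.map, Ideal.span, Submodule.mem_span_set'] at hs
  obtain ⟨n, f, g, hfg⟩ := hs
  have hg : ∀ i, ∃ y ∈ F, algebraMap R S y = (g i : S) := fun i => (g i).2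
  choose y hyF hy using hg
  have hrel : ∑ i : Fin (n + 1), (Fin.cons x (fun i => - y i) : Fin (n + 1) → R) i •
      (Fin.cons s f : Fin (n + 1) → S) i = 0 := by
    rw [Fin.sum_univ_succ]
    simp only [Fin.cons_zero, Fin.cons_succ, Algebra.smul_def]
    rw [← hfg, ← Finset.sum_add_distrib]
    refine Finset.sum_eq_zero (fun i _ => ?_)
    rw [map_neg, hy i, smul_eq_mul]
    ring
  obtain ⟨m, A, z, hA, hz⟩ := Module.Flat.isTrivialRelation_of_sum_smul_eq_zero (R := R) (M := S)
    (f := (Fin.cons x (fun i => - y i) : Fin (n + 1) → R))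
    (x := (Fin.cons s f : Fin (n + 1) → S)) hrel
  have h0 := hA 0
  rw [Fin.cons_zero] at h0
  rw [h0]
  refine Ideal.sum_mem _ (fun j _ => ?_)
  rw [Algebra.smul_def]
  refine Ideal.mul_mem_right _ _ (Ideal.mem_map_of_mem _ ?_)
  by_contra hn
  have hu : IsUnit (A 0 j) := by
    by_contra hnu
    exact hn ((mem_maximalIdeal _).mpr hnu)
  apply hx
  rw [← Ideal.unit_mul_mem_iff_mem F hu]
  have hj := hz j
  rw [Fin.sum_univ_succ] at hj
  simp only [Fin.cons_zero, Fin.cons_succ] at hj
  have e1 : A 0 j * x = ∑ i : Fin n, y i * A i.succ j := by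
    have e2 : ∑ i : Fin n, -y i * A i.succ j = - ∑ i : Fin n, y i * A i.succ j := by
      rw [← Finset.sum_neg_distrib]
      exact Finset.sum_congr rfl (fun i _ => by ring)
    rw [e2] at hj
    linear_combination hj
  rw [e1]
  exact Ideal.sum_mem _ (fun i _ => Ideal.mul_mem_right _ _ (hyF i))

theorem ZD5_indep {R : Type u} {S : Type v} [CommRing R] [IsLocalRing R] [CommRing S]
    [Algebra R S] [Module.Flat R S] {l : Type w} [Field l] (b : l →+* S) (Y : Ideal R) {e : ℕ}
    (ρ : Fin (e + 1) → R) (r4 : ∀ i, ρ i ∉ Y ⊔ Ideal.span (ρ '' {j | i < j})) {r : ℕ}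
    (σ : Fin (r + 1) → S)
    (hσ2 : ∀ t : Fin (r + 1) → l, ∑ m, b (t m) * σ m ∈ (maximalIdeal R).map (algebraMap R S) →
      t = 0) (t : Fin (r + 1) → Fin (e + 1) → l)
    (ht : ∑ i, algebraMap R S (ρ i) * ∑ m, b (t m i) * σ m ∈ Y.map (algebraMap R S)) :
    ∀ i m, t m i = 0 := by
  have key : ∀ n : ℕ, ∀ i : Fin (e + 1), i.1 = n → ∀ i', t i' i = 0 := by
    intro n
    induction n using Nat.strong_induction_on with
    | _ n ih =>
      intro i hi
      set s : Fin (e + 1) → S := fun i => ∑ i', b (t i' i) * σ i' with hs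
      have hmem : algebraMap R S (ρ i) * s i ∈
          (Y ⊔ Ideal.span (ρ '' {j | i < j})).map (algebraMap R S) := by
        have e1 : algebraMap R S (ρ i) * s i = ∑ j, algebraMap R S (ρ j) * s j
            - ∑ j ∈ Finset.univ.erase i, algebraMap R S (ρ j) * s j := by
          rw [← Finset.add_sum_erase _ _ (Finset.mem_univ i)]; ring
        rw [e1]
        refine Ideal.sub_mem _ (Ideal.map_mono le_sup_left ht)
          (Ideal.sum_mem _ (fun j hj => ?_))
        rcases lt_trichotomy j i with hji | hji | hji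
        · have hz : s j = 0 := by
            rw [hs]
            refine Finset.sum_eq_zero (fun i' _ => ?_)
            rw [ih j.1 (by rw [← hi]; exact hji) j rfl i', map_zero, zero_mul]
          rw [hz, mul_zero]
          exact Ideal.zero_mem _
        · exact absurd hji (Finset.ne_of_mem_erase hj)
        · exact Ideal.mul_mem_right _ _ (Ideal.mem_map_of_mem _
            (Ideal.mem_sup_right (Ideal.subset_span ⟨j, hji, rfl⟩)))
      have hsm := ZD5_colon _ _ (r4 i) _ hmem
      have := hσ2 (fun i' => t i' i) hsm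
      intro i'
      exact congrFun this i'
  intro i m
  exact key i.1 i rfl m


/-! ## the kernel, modulo powers -/

/-- the ideal of `P'` generated by the elements of `P` over `I` -/
def ZD5_J {R : Type u} {P : Type v} {P' : Type w} [CommRing R] [CommRing P] [CommRing P']
    (π : P →+* R) (θ : P →+* P') (I : Ideal R) : Ideal P' := (I.comap π).map θ

theorem ZD5_J_mul {R : Type u} {P : Type v} {P' : Type w} [CommRing R] [CommRing P] [CommRing P']
    (π : P →+* R) (θ : P →+* P') (I I' : Ideal R) {x y : P'} (hx : x ∈ ZD5_J π θ I)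
    (hy : y ∈ ZD5_J π θ I') : x * y ∈ ZD5_J π θ (I * I') := by
  have h1 : ZD5_J π θ I * ZD5_J π θ I' ≤ ZD5_J π θ (I * I') := by
    unfold ZD5_J
    rw [← Ideal.map_mul]
    exact Ideal.map_mono (Ideal.le_comap_mul π)
  exact h1 (Ideal.mul_mem_mul hx hy)

theorem ZD5_span {R : Type u} [CommRing R] [IsLocalRing R]
    {k l : Type*} [Field k] [Field l] (a : k →+* R) (j : k →+* l)
    {P P' : Type*} [CommRing P] [CommRing P'] (π : P →+* R) (θ : P →+* P')
    (aP : k →+* P) (haP : ∀ t, π (aP t) = a t) (bP : l →+* P') (hθ : ∀ t, θ (aP t) = bP (j t))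
    (hP' : ∀ s : P', ∃ t, s - bP t ∈ ZD5_J π θ (maximalIdeal R)) (q : ℕ) {e : ℕ}
    (ρ : Fin (e + 1) → R) (ρt : Fin (e + 1) → P) (hρ : ∀ i, π (ρt i) = ρ i)
    (r3 : ∀ x, ∃ t : Fin (e + 1) → k, x - ∑ i, a (t i) * ρ i ∈ maximalIdeal R ^ q) (s : P') :
    ∃ t : Fin (e + 1) → l, s - ∑ i, bP (t i) * θ (ρt i) ∈ ZD5_J π θ (maximalIdeal R ^ q) := by
  set Q : P' → Prop := fun s => ∃ t : Fin (e + 1) → l,
    s - ∑ i, bP (t i) * θ (ρt i) ∈ ZD5_J π θ (maximalIdeal R ^ q) with hQ
  have hQ0 : ∀ x ∈ ZD5_J π θ (maximalIdeal R ^ q), Q x := by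
    intro x hx
    exact ⟨fun _ => 0, by simpa using hx⟩
  have hQadd : ∀ x y, Q x → Q y → Q (x + y) := by
    rintro x y ⟨t, ht⟩ ⟨t', ht'⟩
    refine ⟨fun i => t i + t' i, ?_⟩
    have e1 : x + y - ∑ i, bP (t i + t' i) * θ (ρt i) = (x - ∑ i, bP (t i) * θ (ρt i))
        + (y - ∑ i, bP (t' i) * θ (ρt i)) := by
      have : ∑ i, bP (t i + t' i) * θ (ρt i) = ∑ i, bP (t i) * θ (ρt i)
          + ∑ i, bP (t' i) * θ (ρt i) := by
        rw [← Finset.sum_add_distrib]
        exact Finset.sum_congr rfl (fun i _ => by rw [map_add]; ring)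
      rw [this]; ring
    rw [e1]
    exact Ideal.add_mem _ ht ht'
  have hstep : ∀ n ≤ q, ∀ x ∈ ZD5_J π θ (maximalIdeal R ^ (q - n)), Q x := by
    intro n
    induction n with
    | zero => intro _ x hx; exact hQ0 x hx
    | succ n ih =>
      intro hn x hx
      have hn' : q - n = (q - (n + 1)) + 1 := by omega
      have ihn := ih (by omega)
      rw [hn'] at ihn
      have hall : ∀ s : P', Q (s * x) := by
        rw [ZD5_J, Ideal.map, Ideal.span] at hx
        refine Submodule.span_induction (p := fun x _ => ∀ s : P', Q (s * x)) ?_ ?_ ?_ ?_ hx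
        · rintro _ ⟨p, hp, rfl⟩ s
          obtain ⟨lam, hlam⟩ := hP' s
          obtain ⟨t, ht⟩ := r3 (π p)
          have h1 : (s - bP lam) * θ p ∈ ZD5_J π θ (maximalIdeal R ^ (q - (n + 1) + 1)) := by
            rw [pow_succ']
            exact ZD5_J_mul π θ _ _ hlam (Ideal.mem_map_of_mem _ hp)
          have h2 : p - ∑ i, aP (t i) * ρt i ∈ (maximalIdeal R ^ q).comap π := by
            rw [Ideal.mem_comap, map_sub, map_sum]
            have : ∑ i, π (aP (t i) * ρt i) = ∑ i, a (t i) * ρ i :=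
              Finset.sum_congr rfl fun i _ => by rw [map_mul, haP, hρ]
            rw [this]
            exact ht
          have h3 := Ideal.mem_map_of_mem θ h2
          rw [map_sub, map_sum] at h3
          have h4 : s * θ p = (s - bP lam) * θ p + bP lam * θ p := by ring
          rw [h4]
          refine hQadd _ _ (ihn _ h1) ⟨fun i => lam * j (t i), ?_⟩
          have h5 : bP lam * θ p - ∑ i, bP (lam * j (t i)) * θ (ρt i) =
              bP lam * (θ p - ∑ i, θ (aP (t i) * ρt i)) := by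
            rw [mul_sub, Finset.mul_sum]
            congr 1
            refine Finset.sum_congr rfl fun i _ => ?_
            rw [map_mul, map_mul, hθ]
            ring
          rw [h5]
          exact Ideal.mul_mem_left _ _ h3
        · intro s
          rw [mul_zero]
          exact hQ0 0 (Ideal.zero_mem _)
        · intro x y _ _ hx hy s
          rw [mul_add]
          exact hQadd _ _ (hx s) (hy s)
        · intro c x _ hx s
          rw [smul_eq_mul, ← mul_assoc]
          exact hx (s * c)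
      have := hall 1
      rwa [one_mul] at this
  refine hstep q le_rfl s ?_
  rw [Nat.sub_self, pow_zero, Ideal.one_eq_top, ZD5_J, Ideal.comap_top, Ideal.map_top]
  exact Submodule.mem_top

theorem ZD5_core {R : Type u} {S : Type v} [CommRing R] [IsLocalRing R] [IsNoetherianRing R]
    [CommRing S] [Algebra R S] [Module.Flat R S]
    {k l : Type*} [Field k] [Field l] (a : k →+* R) (b : l →+* S) (j : k →+* l)
    {P P' : Type*} [CommRing P] [CommRing P'] (π : P →+* R) (hπ : Function.Surjective π)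
    (θ : P →+* P') (φ' : P' →+* S) (hφθ : ∀ x, φ' (θ x) = algebraMap R S (π x))
    (aP : k →+* P) (haP : ∀ t, π (aP t) = a t) (bP : l →+* P') (hbP : ∀ t, φ' (bP t) = b t)
    (hθ : ∀ t, θ (aP t) = bP (j t)) (hk : ∀ x, ∃ t, x - a t ∈ maximalIdeal R)
    (hP' : ∀ s : P', ∃ t, s - bP t ∈ ZD5_J π θ (maximalIdeal R)) {r : ℕ}
    (σ : Fin (r + 1) → S)
    (hσ2 : ∀ t : Fin (r + 1) → l, ∑ m, b (t m) * σ m ∈ (maximalIdeal R).map (algebraMap R S) →
      t = 0) (v : Fin (r + 1) → P') (hv : ∑ m, φ' (v m) * σ m = 0) (q : ℕ) (m : Fin (r + 1)) :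
    v m ∈ ZD5_J π θ (maximalIdeal R ^ q) := by
  rcases Nat.eq_zero_or_pos q with rfl | hq
  · rw [pow_zero, Ideal.one_eq_top, ZD5_J, Ideal.comap_top, Ideal.map_top]
    exact Submodule.mem_top
  obtain ⟨e, ρ, r3, r4⟩ := ZD5_series R a hk (maximalIdeal R ^ q) ⟨q, le_rfl⟩
    (Ideal.pow_le_self hq.ne')
  choose ρt hρ using fun i => hπ (ρ i)
  choose t ht using fun m => ZD5_span a j π θ aP haP bP hθ hP' q ρ ρt hρ r3 (v m)
  have hφJ : ∀ x ∈ ZD5_J π θ (maximalIdeal R ^ q),
      φ' x ∈ (maximalIdeal R ^ q).map (algebraMap R S) := by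
    intro x hx
    have h1 : (ZD5_J π θ (maximalIdeal R ^ q)).map φ' ≤
        (maximalIdeal R ^ q).map (algebraMap R S) := by
      unfold ZD5_J
      rw [Ideal.map_map]
      rw [Ideal.map_le_iff_le_comap]
      intro p hp
      rw [Ideal.mem_comap, RingHom.comp_apply, hφθ]
      exact Ideal.mem_map_of_mem _ hp
    exact h1 (Ideal.mem_map_of_mem _ hx)
  have hsum : ∑ i, algebraMap R S (ρ i) * ∑ m, b (t m i) * σ m ∈
      (maximalIdeal R ^ q).map (algebraMap R S) := by
    have h1 : ∑ i, algebraMap R S (ρ i) * ∑ m, b (t m i) * σ m =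
        - ∑ m, φ' (v m - ∑ i, bP (t m i) * θ (ρt i)) * σ m := by
      have h2 : ∀ m, φ' (v m - ∑ i, bP (t m i) * θ (ρt i)) * σ m =
          φ' (v m) * σ m - ∑ i, algebraMap R S (ρ i) * (b (t m i) * σ m) := by
        intro m
        rw [map_sub, map_sum, sub_mul, Finset.sum_mul]
        congr 1
        refine Finset.sum_congr rfl fun i _ => ?_
        rw [map_mul, hbP, hφθ, hρ]
        ring
      rw [Finset.sum_congr rfl fun m _ => h2 m, Finset.sum_sub_distrib, hv, zero_sub, neg_neg,
        Finset.sum_comm]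
      refine Finset.sum_congr rfl fun i _ => ?_
      rw [Finset.mul_sum]
    rw [h1]
    exact Ideal.neg_mem_iff _ |>.2 (Ideal.sum_mem _ fun m _ =>
      Ideal.mul_mem_right _ _ (hφJ _ (ht m)))
  have ht0 := ZD5_indep b (maximalIdeal R ^ q) ρ r4 σ hσ2 t hsum
  have h1 := ht m
  have h2 : ∑ i, bP (t m i) * θ (ρt i) = 0 :=
    Finset.sum_eq_zero fun i _ => by rw [ht0 i m, map_zero, zero_mul]
  rwa [h2, sub_zero] at h1

/-- Krull intersection -/
theorem ZD5_krull {A' : Type u} {P' : Type v} [CommRing A'] [IsLocalRing A'] [IsNoetherianRing A']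
    [CommRing P'] [Algebra A' P'] [Module.Finite A' P'] (I' : Ideal P') (x : P')
    (hx : ∀ q, x ∈ ((maximalIdeal A').map (algebraMap A' P')) ^ q ⊔ I') : x ∈ I' := by
  rw [← Ideal.Quotient.eq_zero_iff_mem]
  have h1 := Ideal.iInf_pow_smul_eq_bot_of_isLocalRing (M := P' ⧸ I') (maximalIdeal A')
    (maximalIdeal.isMaximal A').ne_top
  have h2 : Ideal.Quotient.mk I' x ∈
      (⨅ i : ℕ, maximalIdeal A' ^ i • (⊤ : Submodule A' (P' ⧸ I'))) := by
    rw [Submodule.mem_iInf]
    intro q
    obtain ⟨y, hy, z, hz, hyz⟩ := Submodule.mem_sup.mp (hx q)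
    rw [← hyz, map_add, Ideal.Quotient.eq_zero_iff_mem.2 hz, add_zero, Ideal.smul_top_eq_map]
    rw [← Ideal.map_pow] at hy
    have h3 := Ideal.mem_map_of_mem (Ideal.Quotient.mk I') hy
    rw [Ideal.map_map] at h3
    exact h3
  rw [h1] at h2
  exact h2


/-! ## assembly -/

/-- The statement of ZD3 (`finite_psHom`) is used only here. -/
theorem ZD5_surj {R : Type u} {S : Type v} {A' P P' : Type*} [CommRing R] [IsLocalRing R]
    [CommRing S] [Algebra R S] [CommRing A'] [IsLocalRing A'] [CommRing P] [CommRing P']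
    [Algebra A' P'] {l : Type w} [Field l] (b : l →+* S) (π : P →+* R)
    (hπ : Function.Surjective π) (θ : P →+* P') (φ' : P' →+* S)
    (hφθ : ∀ x, φ' (θ x) = algebraMap R S (π x)) (bP : l →+* P') (hbP : ∀ t, φ' (bP t) = b t)
    (Ψ : A' →+* S) (hΨ : ∀ f, φ' (algebraMap A' P' f) = Ψ f) (hfin : Ψ.Finite) (Y : Ideal R)
    (hY : Y.map (algebraMap R S) ≤ (maximalIdeal A').map Ψ) (hYN : ∃ N, maximalIdeal R ^ N ≤ Y)
    {r : ℕ} (σ : Fin (r + 1) → S)
    (hσ1 : ∀ x : S, ∃ t : Fin (r + 1) → l,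
      x - ∑ m, b (t m) * σ m ∈ (maximalIdeal R).map (algebraMap R S)) (x : S) :
    ∃ v : Fin (r + 1) → P', x = ∑ m, φ' (v m) * σ m := by
  let _ : Algebra A' S := Ψ.toAlgebra
  have : Module.Finite A' S := hfin
  let N : Submodule A' S :=
    { carrier := {x | ∃ v : Fin (r + 1) → P', x = ∑ m, φ' (v m) * σ m}
      add_mem' := by
        rintro x y ⟨v, rfl⟩ ⟨v', rfl⟩
        refine ⟨fun m => v m + v' m, ?_⟩
        rw [← Finset.sum_add_distrib]
        refine Finset.sum_congr rfl fun m _ => ?_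
        rw [map_add, add_mul]
      zero_mem' := ⟨fun _ => 0, by simp⟩
      smul_mem' := by
        rintro f x ⟨v, rfl⟩
        refine ⟨fun m => algebraMap A' P' f * v m, ?_⟩
        rw [Algebra.smul_def, Finset.mul_sum]
        refine Finset.sum_congr rfl fun m _ => ?_
        rw [map_mul, hΨ]
        change Ψ f * _ = _
        ring }
  have hmul : ∀ (p : P) (x : S), x ∈ N → algebraMap R S (π p) * x ∈ N := by
    rintro p x ⟨v, rfl⟩
    refine ⟨fun m => θ p * v m, ?_⟩
    rw [Finset.mul_sum]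
    refine Finset.sum_congr rfl fun m _ => ?_
    rw [map_mul, hφθ]
    ring
  have hq : ∀ (q : ℕ) (x : S), ∃ n ∈ N, x - n ∈ (maximalIdeal R ^ q).map (algebraMap R S) := by
    intro q
    induction q with
    | zero =>
      intro x
      refine ⟨0, N.zero_mem, ?_⟩
      rw [pow_zero, Ideal.one_eq_top, Ideal.map_top]
      exact Submodule.mem_top
    | succ q ih =>
      intro x
      have hstep : ∀ z ∈ (maximalIdeal R ^ q).map (algebraMap R S),
          ∀ s : S, ∃ n ∈ N, s * z - n ∈ (maximalIdeal R ^ (q + 1)).map (algebraMap R S) := by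
        intro z hz
        rw [Ideal.map, Ideal.span] at hz
        refine Submodule.span_induction (p := fun z _ => ∀ s : S, ∃ n ∈ N,
          s * z - n ∈ (maximalIdeal R ^ (q + 1)).map (algebraMap R S)) ?_ ?_ ?_ ?_ hz
        · rintro _ ⟨u, hu, rfl⟩ s
          obtain ⟨t, ht⟩ := hσ1 s
          obtain ⟨p, rfl⟩ := hπ u
          refine ⟨algebraMap R S (π p) * ∑ m, b (t m) * σ m, hmul p _ ⟨fun m => bP (t m), ?_⟩, ?_⟩
          · exact Finset.sum_congr rfl fun m _ => by rw [hbP]
          · have e : s * algebraMap R S (π p) - algebraMap R S (π p) * ∑ m, b (t m) * σ m =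
              (s - ∑ m, b (t m) * σ m) * algebraMap R S (π p) := by ring
            rw [e, pow_succ', Ideal.map_mul]
            exact Ideal.mul_mem_mul ht (Ideal.mem_map_of_mem _ hu)
        · intro s
          refine ⟨0, N.zero_mem, ?_⟩
          rw [mul_zero, sub_zero]
          exact Ideal.zero_mem _
        · intro x y _ _ hx hy s
          obtain ⟨n, hn, h1⟩ := hx s
          obtain ⟨n', hn', h2⟩ := hy s
          refine ⟨n + n', N.add_mem hn hn', ?_⟩
          have e : s * (x + y) - (n + n') = (s * x - n) + (s * y - n') := by ring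
          rw [e]
          exact Ideal.add_mem _ h1 h2
        · intro c x _ hx s
          rw [smul_eq_mul, ← mul_assoc]
          exact hx (s * c)
      obtain ⟨n, hn, h1⟩ := ih x
      obtain ⟨n', hn', h2⟩ := hstep _ h1 1
      refine ⟨n + n', N.add_mem hn hn', ?_⟩
      have e : x - (n + n') = 1 * (x - n) - n' := by ring
      rw [e]
      exact h2
  obtain ⟨M, hM⟩ := hYN
  have htop : (⊤ : Submodule A' S) ≤ N ⊔ maximalIdeal A' • (⊤ : Submodule A' S) := by
    intro x _
    obtain ⟨n, hn, h1⟩ := hq M x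
    have h2 : x - n ∈ (maximalIdeal A').map Ψ := hY (Ideal.map_mono hM h1)
    have e : x = n + (x - n) := by ring
    rw [e]
    refine Submodule.add_mem_sup hn ?_
    rw [Ideal.smul_top_eq_map]
    exact h2
  have hfg : (⊤ : Submodule A' S).FG := Module.Finite.fg_top
  have hle := Submodule.le_of_le_smul_of_le_jacobson_bot hfg
    (IsLocalRing.maximalIdeal_le_jacobson ⊥) htop
  exact hle (Submodule.mem_top : x ∈ (⊤ : Submodule A' S))


/-- ZD5: `S` is free over `R' = P' / I'` (flatness of `S` over `R`, lengths, Krull intersection):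
surjectivity and kernel of `P'^(r+1) → S`. -/
theorem kernel_P_proved (D : ℕ) (R : Type u) (S : Type v) [CommRing R] [IsLocalRing R]
    [IsNoetherianRing R] [IsAdicComplete (maximalIdeal R) R] [CommRing S] [IsLocalRing S]
    [IsNoetherianRing S] [IsAdicComplete (maximalIdeal S) S] [Algebra R S] [Module.Flat R S]
    [IsLocalHom (algebraMap R S)]
    {k : Type u} [Field k] {l : Type v} [Field l] (a : k →+* R) (b : l →+* S) (j : k →+* l)
    (hab : b.comp j = (algebraMap R S).comp a)
    (hk : ∀ x, ∃ t, x - a t ∈ maximalIdeal R) (hl : ∀ x, ∃ t, x - b t ∈ maximalIdeal S)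
    (hfib : ∃ N, maximalIdeal S ^ N ≤ (maximalIdeal R).map (algebraMap R S))
    (y : Fin D → R) (hy : ∀ i, y i ∈ maximalIdeal R)
    (hyfin : ∃ N, maximalIdeal R ^ N ≤ Ideal.span (Set.range y))
    (ΨR : MvPowerSeries (Fin D) k →+* R) (hRC : ∀ t, ΨR (MvPowerSeries.C t) = a t)
    (hRX : ∀ i, ΨR (MvPowerSeries.X i) = y i)
    (Ψ : MvPowerSeries (Fin D) l →+* S) (hSC : ∀ t, Ψ (MvPowerSeries.C t) = b t)
    (hSX : ∀ i, Ψ (MvPowerSeries.X i) = algebraMap R S (y i))
    {n G : ℕ} (c : Fin (n + 1) → Fin (n + 1) → Fin (n + 1) → MvPowerSeries (Fin D) k)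
    (h : SCAx c) (π : SC c h →+* R) (hπ : Function.Surjective π)
    (hπA : ∀ f, π (algebraMap _ _ f) = ΨR f)
    (g : Fin G → SC c h) (hg : RingHom.ker π = Ideal.span (Set.range g))
    (h' : SCAx fun i i' m => MvPowerSeries.map j (c i i' m))
    (φ' : SC (fun i i' m => MvPowerSeries.map j (c i i' m)) h' →+* S)
    (hφA : ∀ f, φ' (algebraMap _ _ f) = Ψ f)
    (hφb : ∀ i, φ' (SC.bas i) = algebraMap R S (π (SC.bas i)))
    {r : ℕ} (σ : Fin (r + 1) → S)
    (hσ1 : ∀ x : S, ∃ t : Fin (r + 1) → l,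
      x - ∑ m, b (t m) * σ m ∈ (maximalIdeal R).map (algebraMap R S))
    (hσ2 : ∀ t : Fin (r + 1) → l, ∑ m, b (t m) * σ m ∈ (maximalIdeal R).map (algebraMap R S) →
      t = 0) :
    (∀ x : S, ∃ v : Fin (r + 1) → SC (fun i i' m => MvPowerSeries.map j (c i i' m)) h',
      x = ∑ m, φ' (v m) * σ m) ∧
    ∀ v : Fin (r + 1) → SC (fun i i' m => MvPowerSeries.map j (c i i' m)) h',
      ∑ m, φ' (v m) * σ m = 0 → ∀ m, v m ∈ Ideal.span (Set.range fun s : Fin G =>
        (SC.vec.symm fun a => MvPowerSeries.map j (SC.vec (g s) a) :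
          SC (fun i i' m => MvPowerSeries.map j (c i i' m)) h')) := by
  have hmS : (maximalIdeal R).map (algebraMap R S) ≤ maximalIdeal S :=
    ((IsLocalRing.local_hom_TFAE (algebraMap R S)).out 0 2).mp ‹IsLocalHom (algebraMap R S)›
  have hyS : ∀ i, algebraMap R S (y i) ∈ maximalIdeal S := fun i =>
    hmS (Ideal.mem_map_of_mem _ (hy i))
  obtain ⟨θ, hθd⟩ : ∃ θ : SC c h →+* SC (fun i i' m => MvPowerSeries.map j (c i i' m)) h',
      θ = ZD5_theta (MvPowerSeries.map j) c h h' := ⟨_, rfl⟩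
  have hθb : ∀ i, θ (SC.bas i) = SC.bas i := fun i => by
    rw [hθd]; exact ZD5_theta_bas _ c h h' i
  have hθa : ∀ f, θ (algebraMap _ _ f) = algebraMap _ _ (MvPowerSeries.map j f) := fun f => by
    rw [hθd]; exact ZD5_theta_alg _ c h h' f
  have hAS : ∀ f, Ψ (MvPowerSeries.map j f) = algebraMap R S (ΨR f) := by
    intro f
    refine ZD5_unique D (Ψ.comp (MvPowerSeries.map j)) ((algebraMap R S).comp ΨR) ?_ ?_ ?_ f
    · intro t
      rw [RingHom.comp_apply, RingHom.comp_apply, MvPowerSeries.map_C, hSC, hRC]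
      exact RingHom.congr_fun hab t
    · intro i
      rw [RingHom.comp_apply, RingHom.comp_apply, MvPowerSeries.map_X, hSX, hRX]
    · intro i
      rw [RingHom.comp_apply, MvPowerSeries.map_X, hSX]
      exact hyS i
  have hφθ : ∀ x, φ' (θ x) = algebraMap R S (π x) := by
    intro x
    rw [SC.eq_sum x, map_sum, map_sum, map_sum, map_sum]
    refine Finset.sum_congr rfl fun i _ => ?_
    rw [Algebra.smul_def, map_mul, map_mul, map_mul, map_mul, hθa, hθb, hφA, hφb, hπA, hAS]
  -- constants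
  obtain ⟨aP, haP⟩ : ∃ aP : k →+* SC c h,
      aP = (algebraMap (MvPowerSeries (Fin D) k) (SC c h)).comp MvPowerSeries.C := ⟨_, rfl⟩
  obtain ⟨bP, hbP⟩ : ∃ bP : l →+* SC (fun i i' m => MvPowerSeries.map j (c i i' m)) h',
      bP = (algebraMap (MvPowerSeries (Fin D) l) _).comp MvPowerSeries.C := ⟨_, rfl⟩
  have haP' : ∀ t, π (aP t) = a t := fun t => by
    rw [haP, RingHom.comp_apply, hπA, hRC]
  have hbP' : ∀ t, φ' (bP t) = b t := fun t => by
    rw [hbP, RingHom.comp_apply, hφA, hSC]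
  have hθt : ∀ t, θ (aP t) = bP (j t) := fun t => by
    rw [haP, hbP, RingHom.comp_apply, RingHom.comp_apply, hθa, MvPowerSeries.map_C]
  have hXJ : ∀ ν, algebraMap (MvPowerSeries (Fin D) l)
      (SC (fun i i' m => MvPowerSeries.map j (c i i' m)) h') (MvPowerSeries.X ν) ∈
      ZD5_J π θ (maximalIdeal R) := by
    intro ν
    have h1 : algebraMap (MvPowerSeries (Fin D) l)
      (SC (fun i i' m => MvPowerSeries.map j (c i i' m)) h') (MvPowerSeries.X ν) =
        θ (algebraMap (MvPowerSeries (Fin D) k) (SC c h) (MvPowerSeries.X ν)) := by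
      rw [hθa, MvPowerSeries.map_X]
    rw [h1]
    refine Ideal.mem_map_of_mem _ ?_
    rw [Ideal.mem_comap, hπA, hRX]
    exact hy ν
  have hP' : ∀ s, ∃ t, s - bP t ∈ ZD5_J π θ (maximalIdeal R) := by
    intro s
    choose t G' hG' using fun i => ZD5_dec D (SC.vec s i)
    choose w hw using fun i => hk (π (SC.bas i))
    refine ⟨∑ i, t i * j (w i), ?_⟩
    have e1 : s - bP (∑ i, t i * j (w i)) =
        ∑ i, (algebraMap _ _ (∑ ν, G' i ν * MvPowerSeries.X ν) * SC.bas i +
          bP (t i) * (SC.bas i - bP (j (w i)))) := by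
      conv_lhs => rw [SC.eq_sum s]
      rw [map_sum, ← Finset.sum_sub_distrib]
      refine Finset.sum_congr rfl fun i _ => ?_
      rw [Algebra.smul_def, hG' i, map_add, map_mul, hbP, RingHom.comp_apply, RingHom.comp_apply]
      ring
    rw [e1]
    refine Ideal.sum_mem _ fun i _ => Ideal.add_mem _ (Ideal.mul_mem_right _ _ ?_)
      (Ideal.mul_mem_left _ _ ?_)
    · rw [map_sum]
      refine Ideal.sum_mem _ fun ν _ => ?_
      rw [map_mul]
      exact Ideal.mul_mem_left _ _ (hXJ ν)
    · rw [← hθt, ← hθb, ← map_sub]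
      refine Ideal.mem_map_of_mem _ ?_
      rw [Ideal.mem_comap, map_sub, haP']
      exact hw i
  obtain ⟨N₁, hN₁⟩ := hfib
  obtain ⟨N₂, hN₂⟩ := hyfin
  have hspan : (Ideal.span (Set.range y)).map (algebraMap R S) =
      Ideal.span (Set.range fun i => Ψ (MvPowerSeries.X i)) := by
    rw [Ideal.map_span, ← Set.range_comp]
    congr 1
    ext x
    simp [hSX]
  constructor
  · -- surjectivity
    have hfin := finite_psHom_proved D Ψ (fun i => by rw [hSX]; exact hyS i)
      (fun x => by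
        obtain ⟨t, ht⟩ := hl x
        exact ⟨t, by rw [hSC]; exact ht⟩)
      ⟨N₁ * N₂, by
        rw [pow_mul, ← hspan]
        refine (Ideal.pow_right_mono hN₁ N₂).trans ?_
        rw [← Ideal.map_pow]
        exact Ideal.map_mono hN₂⟩
    intro x
    refine ZD5_surj b π hπ θ φ' hφθ bP hbP' Ψ hφA hfin.1 (Ideal.span (Set.range y)) ?_
      ⟨N₂, hN₂⟩ σ hσ1 x
    rw [hspan, Ideal.span_le]
    rintro _ ⟨i, rfl⟩
    refine Ideal.mem_map_of_mem _ ?_
    rw [mvps_maximal_proved]
    exact Ideal.subset_span ⟨i, rfl⟩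
  · intro v hv m
    have hcore := fun q => ZD5_core a b j π hπ θ φ' hφθ aP haP' bP hbP' hθt hk hP' σ hσ2 v hv q m
    have hI : (RingHom.ker π).map θ = Ideal.span (Set.range fun s : Fin G =>
        (SC.vec.symm fun a => MvPowerSeries.map j (SC.vec (g s) a) :
          SC (fun i i' m => MvPowerSeries.map j (c i i' m)) h')) := by
      rw [hg, Ideal.map_span, ← Set.range_comp]
      congr 1
      rw [hθd]
      rfl
    rw [← hI]
    refine ZD5_krull (A' := MvPowerSeries (Fin D) l) _ _ fun q => ?_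
    have h1 := hcore (N₂ * q)
    obtain ⟨K, hK⟩ : ∃ K : Ideal (SC c h), K = Ideal.span (Set.range fun ν =>
      algebraMap (MvPowerSeries (Fin D) k) (SC c h) (MvPowerSeries.X ν)) := ⟨_, rfl⟩
    have hKπ : K.map π = Ideal.span (Set.range y) := by
      rw [hK, Ideal.map_span, ← Set.range_comp]
      congr 2
      funext ν
      rw [Function.comp_apply, hπA, hRX]
    have h2 : (maximalIdeal R ^ (N₂ * q)).comap π ≤ K ^ q ⊔ RingHom.ker π := by
      have h3 : maximalIdeal R ^ (N₂ * q) ≤ (K ^ q).map π := by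
        rw [pow_mul, Ideal.map_pow, hKπ]
        exact Ideal.pow_right_mono hN₂ q
      refine (Ideal.comap_mono h3).trans ?_
      intro z hz
      rw [Ideal.mem_comap] at hz
      obtain ⟨z', hz', hzz⟩ := (Ideal.mem_map_iff_of_surjective π hπ).1 hz
      have e : z = z' + (z - z') := by ring
      rw [e]
      refine Submodule.add_mem_sup hz' ?_
      rw [RingHom.mem_ker, map_sub, hzz, sub_self]
    have h4 : ((maximalIdeal R ^ (N₂ * q)).comap π).map θ ≤ (K ^ q ⊔ RingHom.ker π).map θ :=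
      Ideal.map_mono h2
    rw [Ideal.map_sup, Ideal.map_pow] at h4
    have h5 : K.map θ ≤ (maximalIdeal (MvPowerSeries (Fin D) l)).map
        (algebraMap (MvPowerSeries (Fin D) l)
          (SC (fun i i' m => MvPowerSeries.map j (c i i' m)) h')) := by
      rw [hK, Ideal.map_span, Ideal.span_le]
      rintro _ ⟨_, ⟨ν, rfl⟩, rfl⟩
      change θ (algebraMap (MvPowerSeries (Fin D) k) (SC c h) (MvPowerSeries.X ν)) ∈ _
      rw [hθa, MvPowerSeries.map_X]
      refine Ideal.mem_map_of_mem _ ?_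
      rw [mvps_maximal_proved]
      exact Ideal.subset_span ⟨ν, rfl⟩
    exact (sup_le_sup_right (Ideal.pow_right_mono h5 q) _) (h4 h1)

end Vale.Agent.P202Z
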