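import Mathlib

/-! # P202Z, module ZD6: a basis of the closed fibre (adapted from helper41's YD4) -/

namespace Vale.Agent.P202Z

open IsLocalRing

universe u v w

/-- adapted basis of `R/Y` -/
private theorem ZD6_series (R : Type u) [CommRing R] [IsLocalRing R] [IsNoetherianRing R]
    {k : Type w} [Field k] (a : k →+* R) (hk : ∀ x, ∃ t, x - a t ∈ maximalIdeal R) (Y : Ideal R) :
    (∃ N, maximalIdeal R ^ N ≤ Y) → Y ≤ maximalIdeal R →
      ∃ (e : ℕ) (ρ : Fin (e + 1) → R), ρ 0 = 1 ∧ (∀ i : Fin e, ρ i.succ ∈ maximalIdeal R) ∧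
        (∀ x, ∃ t : Fin (e + 1) → k, x - ∑ i, a (t i) * ρ i ∈ Y) ∧
        (∀ i, ρ i ∉ Y ⊔ Ideal.span (ρ '' {j | i < j})) := by
  refine IsNoetherian.induction (P := fun Y : Ideal R => (∃ N, maximalIdeal R ^ N ≤ Y) →
      Y ≤ maximalIdeal R →
      ∃ (e : ℕ) (ρ : Fin (e + 1) → R), ρ 0 = 1 ∧ (∀ i : Fin e, ρ i.succ ∈ maximalIdeal R) ∧
        (∀ x, ∃ t : Fin (e + 1) → k, x - ∑ i, a (t i) * ρ i ∈ Y) ∧
        (∀ i, ρ i ∉ Y ⊔ Ideal.span (ρ '' {j | i < j}))) ?_ Y
  intro Y ih hN hYm
  by_cases hE : Y = maximalIdeal R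
  · subst hE
    refine ⟨0, fun _ => 1, rfl, fun i => i.elim0, ?_, ?_⟩
    · intro x
      obtain ⟨t, ht⟩ := hk x
      exact ⟨fun _ => t, by simpa using ht⟩
    · intro i
      have h0 : {j : Fin (0 + 1) | i < j} = ∅ := by
        ext j
        simp only [Set.mem_ofPred_eq, Set.mem_empty_iff_false, iff_false, not_lt]
        omega
      rw [h0, Set.image_empty, Ideal.span_empty, sup_bot_eq]
      exact (Ideal.ne_top_iff_one _).mp (maximalIdeal.isMaximal R).ne_top
  · have hlt : Y < maximalIdeal R := lt_of_le_of_ne hYm hE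
    classical
    -- a socle element
    obtain ⟨g, hgm, hgY, hmg⟩ : ∃ g ∈ maximalIdeal R, g ∉ Y ∧ ∀ x ∈ maximalIdeal R, x * g ∈ Y := by
      have hs := Nat.find_spec hN
      have hmin := fun n => Nat.find_min hN (m := n)
      rcases h0 : Nat.find hN with _ | s
      · rw [h0, pow_zero, Ideal.one_eq_top] at hs
        exact absurd (top_le_iff.mp (hs.trans hYm)) (maximalIdeal.isMaximal R).ne_top
      · rcases s with _ | s
        · rw [h0, zero_add, pow_one] at hs
          exact absurd (le_antisymm hYm hs) hE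
        · rw [h0] at hs
          have h1 := hmin (s + 1) (by rw [h0]; exact Nat.lt_succ_self _)
          obtain ⟨g, hg1, hg2⟩ := SetLike.not_le_iff_exists.mp h1
          refine ⟨g, ?_, hg2, ?_⟩
          · exact Ideal.pow_le_self (Nat.succ_ne_zero s) hg1
          · intro x hx
            apply hs
            rw [pow_succ', pow_succ'] at *
            exact Ideal.mul_mem_mul hx (by rw [← pow_succ'] at *; exact hg1)
    set Y' : Ideal R := Y ⊔ Ideal.span {g} with hY'
    have hgY' : g ∈ Y' := Ideal.mem_sup_right (Ideal.mem_span_singleton_self g)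
    have hYY' : Y ≤ Y' := le_sup_left
    have hlt' : Y' > Y := by
      refine lt_of_le_of_ne hYY' ?_
      intro h
      exact hgY (h ▸ hgY')
    have hY'm : Y' ≤ maximalIdeal R :=
      sup_le hYm ((Ideal.span_singleton_le_iff_mem _).mpr hgm)
    obtain ⟨e, ρ, h1, h2, h3, h4⟩ := ih Y' hlt' (hN.imp fun n hn => hn.trans hYY') hY'm
    refine ⟨e + 1, Fin.snoc (α := fun _ => R) ρ g, ?_, ?_, ?_, ?_⟩
    · have : (0 : Fin (e + 1 + 1)) = Fin.castSucc 0 := rfl
      rw [this, Fin.snoc_castSucc]; exact h1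
    · intro i
      refine Fin.lastCases ?_ (fun i => ?_) i
      · rw [Fin.succ_last, Fin.snoc_last]; exact hgm
      · rw [Fin.succ_castSucc, Fin.snoc_castSucc]; exact h2 i
    · intro x
      obtain ⟨t, ht⟩ := h3 x
      obtain ⟨y, hy, z, hz, hyz⟩ := Submodule.mem_sup.mp ht
      obtain ⟨c, rfl⟩ := Ideal.mem_span_singleton'.mp hz
      obtain ⟨t', ht'⟩ := hk c
      refine ⟨Fin.snoc (α := fun _ => k) t t', ?_⟩
      rw [Fin.sum_univ_castSucc]
      simp only [Fin.snoc_castSucc, Fin.snoc_last]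
      have e1 : x - (∑ i : Fin (e + 1), a (t i) * ρ i + a t' * g) = y + (c - a t') * g := by
        linear_combination -hyz
      rw [e1]
      exact Y.add_mem hy (hmg _ ht')
    · intro i
      refine Fin.lastCases ?_ (fun i => ?_) i
      · rw [Fin.snoc_last]
        have h0 : {j : Fin (e + 1 + 1) | Fin.last (e + 1) < j} = ∅ := by
          ext j
          simp [Fin.le_last]
        rw [h0, Set.image_empty, Ideal.span_empty, sup_bot_eq]
        exact hgY
      · rw [Fin.snoc_castSucc]
        intro hmem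
        apply h4 i
        refine (sup_le ?_ ?_ : Y ⊔ Ideal.span _ ≤ Y' ⊔ Ideal.span (ρ '' {j | i < j})) hmem
        · exact hYY'.trans le_sup_left
        · rw [Ideal.span_le]
          rintro _ ⟨j, hj, rfl⟩
          revert hj
          refine Fin.lastCases ?_ (fun j => ?_) j
          · intro _
            rw [Fin.snoc_last]
            exact Ideal.mem_sup_left hgY'
          · intro hj
            rw [Fin.snoc_castSucc]
            exact Ideal.mem_sup_right (Ideal.subset_span ⟨j, by simpa using hj, rfl⟩)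

/-- independence of an adapted family -/
private theorem ZD6_indep {R : Type u} [CommRing R] {k : Type w} [Field k] (a : k →+* R)
    (Y : Ideal R) {e : ℕ} (ρ : Fin (e + 1) → R) (h : ∀ i, ρ i ∉ Y ⊔ Ideal.span (ρ '' {j | i < j}))
    (t : Fin (e + 1) → k) (ht : ∑ i, a (t i) * ρ i ∈ Y) : t = 0 := by
  have key : ∀ n : ℕ, ∀ i : Fin (e + 1), i.1 = n → t i = 0 := by
    intro n
    induction n using Nat.strong_induction_on with
    | _ n ih =>
      intro i hi
      by_contra hne
      apply h i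
      have hu : IsUnit (a (t i)) := (IsUnit.mk0 _ hne).map a
      rw [← Ideal.unit_mul_mem_iff_mem _ hu]
      have e1 : a (t i) * ρ i = ∑ j, a (t j) * ρ j
          - ∑ j ∈ Finset.univ.erase i, a (t j) * ρ j := by
        rw [← Finset.add_sum_erase _ _ (Finset.mem_univ i)]; ring
      rw [e1]
      refine Ideal.sub_mem _ (Ideal.mem_sup_left ht) (Ideal.sum_mem _ (fun j hj => ?_))
      rcases lt_trichotomy j i with hji | hji | hji
      · rw [ih j.1 (by rw [← hi]; exact hji) j rfl, map_zero, zero_mul]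
        exact Ideal.zero_mem _
      · exact absurd hji (Finset.ne_of_mem_erase hj)
      · exact Ideal.mem_sup_right (Ideal.mul_mem_left _ _ (Ideal.subset_span ⟨j, hji, rfl⟩))
  funext i
  exact key i.1 i rfl

/-- ZD6: a basis of the closed fibre. -/
theorem exists_sigma_proved (R : Type u) (S : Type v) [CommRing R] [IsLocalRing R]
    [CommRing S] [IsLocalRing S] [IsNoetherianRing S] [Algebra R S]
    [IsLocalHom (algebraMap R S)] {l : Type v} [Field l] (b : l →+* S)
    (hl : ∀ x, ∃ t, x - b t ∈ maximalIdeal S)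
    (hfib : ∃ N, maximalIdeal S ^ N ≤ (maximalIdeal R).map (algebraMap R S)) :
    ∃ (r : ℕ) (σ : Fin (r + 1) → S), σ 0 = 1 ∧ (∀ i : Fin r, σ i.succ ∈ maximalIdeal S) ∧
      (∀ x : S, ∃ t : Fin (r + 1) → l,
        x - ∑ m, b (t m) * σ m ∈ (maximalIdeal R).map (algebraMap R S)) ∧
      (∀ t : Fin (r + 1) → l, ∑ m, b (t m) * σ m ∈ (maximalIdeal R).map (algebraMap R S) →
        t = 0) := by
  have hmS : (maximalIdeal R).map (algebraMap R S) ≤ maximalIdeal S :=
    ((IsLocalRing.local_hom_TFAE (algebraMap R S)).out 0 2).mp ‹IsLocalHom (algebraMap R S)›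
  obtain ⟨r, σ, s1, s2, s3, s4⟩ :=
    ZD6_series S b hl ((maximalIdeal R).map (algebraMap R S)) hfib hmS
  exact ⟨r, σ, s1, s2, s3, ZD6_indep b _ σ s4⟩

end Vale.Agent.P202Z
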