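import Vale.Agent.P202Z.Defs
import Vale.Agent.P202Y.YD7a

/-! # P202Z, ZD7 part a: existence of a solution of the relations from a presentation (helper7) -/

namespace Vale.Agent.P202Z

open Vale.Agent.P202Y

universe u v

/-- The relations, from identities in a ring with coordinates modulo `I`. -/
theorem ZD7_rel {A : Type u} {S : Type v} [CommRing A] [CommRing S] (Ψ : A →+* S)
    {D n G r L c q K t : ℕ} (y : Fin D → A) (ρ : Fin (n + 1) → S) (σ : Fin (r + 1) → S)
    (h0 : ρ 0 = 1) (s0 : σ 0 = 1)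
    (cc : Fin (n + 1) → Fin (n + 1) → Fin (n + 1) → A) (hcc : SCAx cc)
    (hc : ∀ i j, YD7Phi Ψ ρ (cc i j) = ρ i * ρ j)
    (gi : Fin G → Fin (n + 1) → A)
    (hsurj : ∀ s : S, ∃ x : Fin (r + 1) → Fin (n + 1) → A, YD7Theta Ψ ρ σ x = s)
    (hker : ∀ x : Fin (r + 1) → Fin (n + 1) → A, YD7Theta Ψ ρ σ x = 0 → ∀ m,
      ∃ u : Fin G → Fin (n + 1) → A, ∀ a, x m a = ∑ s, mR cc (gi s) (u s) a)
    (hc0 : ∀ i j, ¬ (i = 0 ∧ j = 0) → ∃ w : Fin D → A, cc i j 0 = ∑ ν, y ν * w ν)
    (hgz : ∀ s, ∃ w : Fin D → A, gi s 0 = ∑ ν, y ν * w ν)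
    (hmin : ∀ (f : Fin q → Fin G × Fin (n + 1)) (h : Fin q → Fin (n + 1)),
      (Matrix.of fun i j => mR cc (bR A n (f i).2) (gi (f i).1) (h j)).det = 0)
    (hred : ∀ f : Fin (c + 1) → Fin n, ∃ Af : Fin D → (Fin c → Fin n ⊕ Fin D) → Fin (n + 1) → A,
      (List.ofFn fun j => ρ (f j).succ).prod =
      ∑ ν, ∑ g : Fin c → Fin n ⊕ Fin D, Ψ (y ν) * (YD7Phi Ψ ρ (Af ν g) *
        (List.ofFn fun j => Sum.elim (fun i : Fin n => ρ i.succ) (fun ν => Ψ (y ν)) (g j)).prod))
    (hnl : ∀ (j : Fin r) (x : Fin (r + 1) → Fin (n + 1) → A),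
      YD7Theta Ψ ρ σ x = σ j.succ ^ K → ∀ m, ∃ w : Fin D → A, x m 0 = ∑ ν, y ν * w ν)
    (z : Fin D → S)
    (hzc : ∀ ν (x : Fin (r + 1) → Fin (n + 1) → A), YD7Theta Ψ ρ σ x = z ν →
      ∃ w : Fin D → A, x 0 0 = ∑ μ, y μ * w μ)
    (g : Fin L → S)
    (hka : ∀ ν k, ∃ (κ : Fin L → A) (w : Fin D → S), Ψ (y ν) * g k =
      (∑ k' : Fin L, if k' < k then Ψ (κ k') * g k' else 0) + ∑ μ, z μ ^ t * w μ)
    (hla : ∀ s : S, ∃ (κ : Fin L → A) (w : Fin D → S), s =
      (∑ k' : Fin L, Ψ (κ k') * g k') + ∑ μ, z μ ^ t * w μ) :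
    ∃ T : Ix D n G r L c → A, ZRel q K t y T := by
  classical
  -- kernel for pairs
  have hker2 : ∀ x x' : Fin (r + 1) → Fin (n + 1) → A,
      YD7Theta Ψ ρ σ x = YD7Theta Ψ ρ σ x' → ∃ u : Fin (r + 1) → Fin G → Fin (n + 1) → A,
        ∀ m a, x m a = x' m a + ∑ s, mR cc (gi s) (u m s) a := by
    intro x x' hx
    have hz : YD7Theta Ψ ρ σ (fun m a => x m a - x' m a) = 0 := by
      have h1 := YD7Theta_add Ψ ρ σ (fun m a => x m a - x' m a) x'
      simp only [sub_add_cancel] at h1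
      have h2 : YD7Theta Ψ ρ σ (fun m a => x m a) = YD7Theta Ψ ρ σ x := rfl
      rw [h2, hx] at h1
      exact (right_eq_add.mp h1)
    choose u hu using hker _ hz
    exact ⟨u, fun m a => by rw [← hu m a]; ring⟩
  have hkerP : ∀ x x' : Fin (n + 1) → A, YD7Phi Ψ ρ x = YD7Phi Ψ ρ x' →
      ∃ u : Fin G → Fin (n + 1) → A, ∀ a, x a = x' a + ∑ s, mR cc (gi s) (u s) a := by
    intro x x' hx
    have h1 : ∀ z : Fin (n + 1) → A, YD7Theta Ψ ρ σ (fun m a => if m = 0 then z a else 0) =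
        YD7Phi Ψ ρ z := by
      intro z
      unfold YD7Theta
      rw [Finset.sum_eq_single 0]
      · simp [s0]
      · intro m _ hm
        simp [hm, YD7Phi]
      · intro h; exact absurd (Finset.mem_univ _) h
    obtain ⟨u, hu⟩ := hker2 (fun m a => if m = 0 then x a else 0)
      (fun m a => if m = 0 then x' a else 0) (by rw [h1, h1, hx])
    exact ⟨u 0, fun a => by simpa using hu 0 a⟩
  choose θc hθc using hsurj
  choose wc hwc using hc0
  choose wg hwg using hgz
  -- structure constants of `S`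
  let dd : Fin (r + 1) → Fin (r + 1) → Fin (r + 1) → Fin (n + 1) → A := fun i j =>
    if i = 0 then bS A n r j 0 else if j = 0 then bS A n r i 0 else θc (σ i * σ j)
  have hdd : ∀ i j, YD7Theta Ψ ρ σ (dd i j) = σ i * σ j := by
    intro i j
    simp only [dd]
    split
    · rename_i hi
      rw [YD7Theta_bS, h0, hi, s0]
    · split
      · rename_i hj
        rw [YD7Theta_bS, h0, hj, s0, one_mul, mul_one]
      · exact hθc _
  have hddc : ∀ i j, dd i j = dd j i := by
    intro i j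
    simp only [dd]
    by_cases hi : i = 0
    · by_cases hj : j = 0
      · rw [hi, hj]
      · rw [if_pos hi, if_neg hj, if_pos hi]
    · by_cases hj : j = 0
      · rw [if_neg hi, if_pos hj, if_pos hj]
      · rw [if_neg hi, if_neg hj, if_neg hj, if_neg hi, mul_comm]
  have hddu : ∀ j, dd 0 j = bS A n r j 0 := by
    intro j
    simp only [dd, if_true]
  -- associativity witnesses
  have hsa : ∀ i j k, ∃ u : Fin (r + 1) → Fin G → Fin (n + 1) → A, ∀ l a,
      ∑ m, mR cc (dd i j m) (dd m k l) a = ∑ m, mR cc (dd j k m) (dd i m l) a +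
        ∑ s, mR cc (gi s) (u l s) a := by
    intro i j k
    refine hker2 (fun l a => ∑ m, mR cc (dd i j m) (dd m k l) a)
      (fun l a => ∑ m, mR cc (dd j k m) (dd i m l) a) ?_
    rw [YD7Theta_sum, YD7Theta_sum]
    have e1 : ∑ m, YD7Theta Ψ ρ σ (fun l n => mR cc (dd i j m) (dd m k l) n) =
        YD7Theta Ψ ρ σ (dd i j) * σ k := by
      have h2 : ∀ m, YD7Theta Ψ ρ σ (fun l n => mR cc (dd i j m) (dd m k l) n) =
          YD7Phi Ψ ρ (dd i j m) * (σ m * σ k) := by
        intro m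
        rw [← hdd m k]
        unfold YD7Theta
        rw [Finset.mul_sum]
        refine Finset.sum_congr rfl fun l _ => ?_
        have := YD7Phi_mR Ψ ρ cc hc (dd i j m) (dd m k l)
        rw [← mul_assoc, ← this]
      rw [Finset.sum_congr rfl fun m _ => h2 m]
      unfold YD7Theta
      rw [Finset.sum_mul]
      exact Finset.sum_congr rfl fun m _ => by ring
    have e2 : ∑ m, YD7Theta Ψ ρ σ (fun l n => mR cc (dd j k m) (dd i m l) n) =
        σ i * YD7Theta Ψ ρ σ (dd j k) := by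
      have h2 : ∀ m, YD7Theta Ψ ρ σ (fun l n => mR cc (dd j k m) (dd i m l) n) =
          YD7Phi Ψ ρ (dd j k m) * (σ i * σ m) := by
        intro m
        rw [← hdd i m]
        unfold YD7Theta
        rw [Finset.mul_sum]
        refine Finset.sum_congr rfl fun l _ => ?_
        have := YD7Phi_mR Ψ ρ cc hc (dd j k m) (dd i m l)
        rw [← mul_assoc, ← this]
      rw [Finset.sum_congr rfl fun m _ => h2 m]
      unfold YD7Theta
      rw [Finset.mul_sum]
      exact Finset.sum_congr rfl fun m _ => by ring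
    rw [e1, e2, hdd, hdd, mul_assoc]
  choose ua hua using hsa
  -- reduction
  choose Af hAf using hred
  have hrd : ∀ f : Fin (c + 1) → Fin n, ∃ u : Fin G → Fin (n + 1) → A, ∀ a,
      lR cc (List.ofFn fun j => bR A n (f j).succ) a =
      (∑ ν, ∑ g : Fin c → Fin n ⊕ Fin D, y ν *
        mR cc (fun a => Af f ν g a) (lR cc (List.ofFn fun j => gen y n (g j))) a) +
      ∑ s, mR cc (gi s) (u s) a := by
    intro f
    refine hkerP (lR cc (List.ofFn fun j => bR A n (f j).succ))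
      (fun a => ∑ ν, ∑ g : Fin c → Fin n ⊕ Fin D, y ν *
        mR cc (fun a => Af f ν g a) (lR cc (List.ofFn fun j => gen y n (g j))) a) ?_
    rw [YD7Phi_lR Ψ ρ cc hc h0, YD7Phi_sum]
    have e1 : (List.ofFn fun j => bR A n (f j).succ).map (YD7Phi Ψ ρ) =
        List.ofFn fun j => ρ (f j).succ := by
      rw [List.map_ofFn]
      congr 1
      funext j
      exact YD7Phi_bR Ψ ρ _
    rw [e1, hAf]
    refine Finset.sum_congr rfl fun ν _ => ?_
    rw [YD7Phi_sum]
    refine Finset.sum_congr rfl fun g _ => ?_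
    rw [YD7Phi_smul]
    congr 1
    have h3 := YD7Phi_mR Ψ ρ cc hc (fun a => Af f ν g a)
      (lR cc (List.ofFn fun j => gen y n (g j)))
    have h4 : YD7Phi Ψ ρ (fun n_1 => mR cc (fun a => Af f ν g a)
      (lR cc (List.ofFn fun j => gen y n (g j))) n_1) = YD7Phi Ψ ρ (mR cc
        (fun a => Af f ν g a) (lR cc (List.ofFn fun j => gen y n (g j)))) := rfl
    rw [h4, h3, YD7Phi_lR Ψ ρ cc hc h0]
    congr 1
    rw [List.map_ofFn]
    congr 2
    funext j
    rw [Function.comp_apply]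
    rcases g j with i | ν'
    · simp only [gen, Sum.elim_inl]
      exact (YD7Phi_bR Ψ ρ _).symm
    · simp only [gen, Sum.elim_inr]
      rw [YD7Phi_smul, YD7Phi_oR Ψ ρ h0, mul_one]
  choose ur hur using hrd
  -- nilpotency
  have hnl' : ∀ (j : Fin r) m, ∃ w : Fin D → A,
      pS cc dd (bS A n r j.succ 0) K m 0 = ∑ ν, y ν * w ν := by
    intro j m
    refine hnl j _ ?_ m
    rw [YD7Theta_pS Ψ ρ σ cc hc dd hdd h0 s0, YD7Theta_bS, h0, one_mul]
  choose wn hwn using hnl'
  have hzc' : ∀ ν, ∃ w : Fin D → A, θc (z ν) 0 0 = ∑ μ, y μ * w μ := fun ν =>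
    hzc ν _ (hθc _)
  choose wz hwz using hzc'
  -- powers of `z`
  have hzt : ∀ μ, YD7Theta Ψ ρ σ (pS cc dd (θc (z μ)) t) = z μ ^ t := by
    intro μ
    rw [YD7Theta_pS Ψ ρ σ cc hc dd hdd h0 s0, hθc]
  choose κa wa hwa using hka
  choose κl wl hwl using hla
  have hkaI : ∀ (ν : Fin D) (k : Fin L), ∃ u : Fin (r + 1) → Fin G → Fin (n + 1) → A, ∀ m a,
      y ν * θc (g k) m a = ((∑ k' : Fin L, if k' < k then κa ν k k' * θc (g k') m a else 0) +
        ∑ μ, mS cc dd (pS cc dd (θc (z μ)) t) (fun m a => θc (wa ν k μ) m a) m a) +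
        ∑ s, mR cc (gi s) (u m s) a := by
    intro ν k
    refine hker2 (fun m a => y ν * θc (g k) m a) (fun m a => (∑ k' : Fin L, if k' < k then
      κa ν k k' * θc (g k') m a else 0) +
        ∑ μ, mS cc dd (pS cc dd (θc (z μ)) t) (fun m a => θc (wa ν k μ) m a) m a) ?_
    rw [YD7Theta_smul, hθc, hwa, YD7Theta_add, YD7Theta_sum, YD7Theta_sum]
    congr 1
    · refine Finset.sum_congr rfl fun k' _ => ?_
      by_cases hk : k' < k
      · simp only [if_pos hk]
        rw [YD7Theta_smul, hθc]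
      · simp only [if_neg hk]
        simp [YD7Theta, YD7Phi]
    · refine Finset.sum_congr rfl fun μ _ => ?_
      have := YD7Theta_mS Ψ ρ σ cc hc dd hdd (pS cc dd (θc (z μ)) t)
        (fun m a => θc (wa ν k μ) m a)
      have h2 : YD7Theta Ψ ρ σ (fun m a => θc (wa ν k μ) m a) = wa ν k μ := hθc _
      rw [hzt, h2] at this
      rw [← this]
  choose uk huk using hkaI
  have hlaI : ∀ (a' : Fin (r + 1)) (b' : Fin (n + 1)),
      ∃ u : Fin (r + 1) → Fin G → Fin (n + 1) → A, ∀ m a,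
      bS A n r a' b' m a = ((∑ k : Fin L, κl (ρ b' * σ a') k * θc (g k) m a) +
        ∑ μ, mS cc dd (pS cc dd (θc (z μ)) t) (fun m a => θc (wl (ρ b' * σ a') μ) m a) m a) +
        ∑ s, mR cc (gi s) (u m s) a := by
    intro a' b'
    refine hker2 (bS A n r a' b') (fun m a => (∑ k : Fin L, κl (ρ b' * σ a') k * θc (g k) m a) +
        ∑ μ, mS cc dd (pS cc dd (θc (z μ)) t) (fun m a => θc (wl (ρ b' * σ a') μ) m a) m a) ?_
    rw [YD7Theta_bS, YD7Theta_add, YD7Theta_sum, YD7Theta_sum]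
    conv_lhs => rw [hwl (ρ b' * σ a')]
    congr 1
    · refine Finset.sum_congr rfl fun k' _ => ?_
      rw [YD7Theta_smul, hθc]
    · refine Finset.sum_congr rfl fun μ _ => ?_
      have := YD7Theta_mS Ψ ρ σ cc hc dd hdd (pS cc dd (θc (z μ)) t)
        (fun m a => θc (wl (ρ b' * σ a') μ) m a)
      have h2 : YD7Theta Ψ ρ σ (fun m a => θc (wl (ρ b' * σ a') μ) m a) = wl (ρ b' * σ a') μ :=
        hθc _
      rw [hzt, h2] at this
      rw [← this]
  choose ul hul using hlaI
  let T : Ix D n G r L c → A := fun x => match x with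
    | .cP i j m => cc i j m
    | .c0 i j ν => if h : ¬ (i = 0 ∧ j = 0) then wc i j h ν else 0
    | .gI s a => gi s a
    | .gz s ν => wg s ν
    | .cS i j m a => dd i j m a
    | .sa i j k l s a => ua i j k l s a
    | .red f ν g a => Af f ν g a
    | .rd f s a => ur f s a
    | .nl j m ν => wn j m ν
    | .z ν m a => θc (z ν) m a
    | .zc ν μ => wz ν μ
    | .g k m a => θc (g k) m a
    | .ka ν k k' => κa ν k k'
    | .w ν k μ m a => θc (wa ν k μ) m a
    | .wI ν k s m a => uk ν k m s a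
    | .la a b k => κl (ρ b * σ a) k
    | .v a b μ m a' => θc (wl (ρ b * σ a) μ) m a'
    | .vI a b s m a' => ul a b m s a'
  refine ⟨T, ⟨hcc.unit, hcc.comm, hcc.assoc, ?_, hwg, hmin, ?_, ?_, ?_, ?_, hwn, hwz, ?_, ?_⟩⟩
  · intro i j hij
    have h1 := hwc i j hij
    have h2 : ∀ ν, T (.c0 i j ν) = wc i j hij ν := fun ν => dif_pos hij
    simp only [h2]
    exact h1
  · intro j m a
    change dd 0 j m a = _
    rw [hddu]
    unfold bS oR
    by_cases hjm : j = m
    · subst hjm; simp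
    · rw [if_neg hjm, if_neg]
      rintro ⟨h2, -⟩
      exact hjm h2.symm
  · intro i j m a
    change dd i j m a = dd j i m a
    rw [hddc]
  · intro i j k l a
    exact hua i j k l a
  · intro f a
    exact hur f a
  · intro ν k m a
    exact huk ν k m a
  · intro a' b' m a
    exact hul a' b' m a

end Vale.Agent.P202Z
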