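import Vale.Agent.P202Z.Defs
import Vale.Agent.P202T.Defs
import Vale.Agent.P202.Def
import Vale.Agent.P202Z.ZD7a
import Vale.Agent.P202Y.YD7
import Vale.Agent.P202Y.YC1
import Vale.Agent.P202Y.YD2
import Vale.Agent.P202Z.ZD1
import Vale.Agent.P202Z.ZD2
import Vale.Agent.P202Z.ZD3
import Vale.Agent.P202Z.ZD5
import Vale.Agent.P202Z.ZD6

/-! # P202Z, ZD7: extraction of the relations, general case (helper7) -/

namespace Vale.Agent.P202Z

open IsLocalRing Vale.Agent.P202 Vale.Agent.P202Y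

universe u v w

theorem ZD7_SCAx_map {A : Type u} {B : Type v} [CommRing A] [CommRing B] (f : A →+* B) {n : ℕ}
    {c : Fin (n + 1) → Fin (n + 1) → Fin (n + 1) → A} (h : SCAx c) :
    SCAx fun i j m => f (c i j m) where
  unit j m := by
    rw [h.unit]
    split
    · rw [map_one]
    · rw [map_zero]
  comm i j m := by rw [h.comm]
  assoc i j k l := by
    have := congrArg f (h.assoc i j k l)
    simpa only [map_sum, map_mul] using this

theorem ZD7_map_mR {A : Type u} {B : Type v} [CommRing A] [CommRing B] (f : A →+* B) {n : ℕ}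
    (c : Fin (n + 1) → Fin (n + 1) → Fin (n + 1) → A) (x y : Fin (n + 1) → A) (m : Fin (n + 1)) :
    f (mR c x y m) = mR (fun i j m => f (c i j m)) (fun a => f (x a)) (fun a => f (y a)) m := by
  simp only [mR, map_sum, map_mul]

/-- the ring homomorphism `x ↦ ∑ Ψ(x_i) ρ_i` -/
noncomputable def ZD7hom {A : Type u} {S : Type v} [CommRing A] [CommRing S] (Ψ : A →+* S) {n : ℕ}
    (ρ : Fin (n + 1) → S) (h0 : ρ 0 = 1) (c : Fin (n + 1) → Fin (n + 1) → Fin (n + 1) → A)
    (h : SCAx c) (hc : ∀ i j, YD7Phi Ψ ρ (c i j) = ρ i * ρ j) : SC c h →+* S where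
  toFun x := YD7Phi Ψ ρ (SC.vec x)
  map_one' := YD7Phi_oR Ψ ρ h0
  map_mul' x y := YD7Phi_mR Ψ ρ c hc (SC.vec x) (SC.vec y)
  map_zero' := by
    rw [map_zero]
    simp [YD7Phi]
  map_add' x y := YD7Phi_add Ψ ρ (SC.vec x) (SC.vec y)

theorem ZD7hom_apply {A : Type u} {S : Type v} [CommRing A] [CommRing S] (Ψ : A →+* S) {n : ℕ}
    (ρ : Fin (n + 1) → S) (h0 : ρ 0 = 1) (c : Fin (n + 1) → Fin (n + 1) → Fin (n + 1) → A)
    (h : SCAx c) (hc : ∀ i j, YD7Phi Ψ ρ (c i j) = ρ i * ρ j) (x : SC c h) :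
    ZD7hom Ψ ρ h0 c h hc x = YD7Phi Ψ ρ (SC.vec x) := rfl

theorem ZD7_constantCoeff {D : ℕ} {l : Type u} [Field l] (f : MvPowerSeries (Fin D) l)
    (hf : MvPowerSeries.constantCoeff f = 0) : f ∈ maximalIdeal (MvPowerSeries (Fin D) l) := by
  rw [mem_maximalIdeal, mem_nonunits_iff, MvPowerSeries.isUnit_iff_constantCoeff, hf]
  exact not_isUnit_zero

theorem ZD7_sub_C {D : ℕ} {l : Type u} [Field l] (f : MvPowerSeries (Fin D) l) :
    f - MvPowerSeries.C (MvPowerSeries.constantCoeff f) ∈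
      maximalIdeal (MvPowerSeries (Fin D) l) := by
  refine ZD7_constantCoeff _ ?_
  rw [map_sub, MvPowerSeries.constantCoeff_C, sub_self]

/-- elements of the maximal ideal of the power series ring map into an ideal containing the
images of the variables -/
theorem ZD7_map_max {D : ℕ} {l : Type u} [Field l] {S : Type v} [CommRing S]
    (Ψ : MvPowerSeries (Fin D) l →+* S) (I : Ideal S) (hI : ∀ i, Ψ (MvPowerSeries.X i) ∈ I)
    (f : MvPowerSeries (Fin D) l) (hf : f ∈ maximalIdeal (MvPowerSeries (Fin D) l)) :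
    Ψ f ∈ I := by
  obtain ⟨w, rfl⟩ := YD7_exists_sum f hf
  rw [map_sum]
  refine Ideal.sum_mem _ fun ν _ => ?_
  rw [map_mul]
  exact I.mul_mem_right _ (hI ν)

section Pres

variable {A : Type u} [CommRing A] {R : Type v} [CommRing R] [Algebra A R] {n : ℕ}
  {c : Fin (n + 1) → Fin (n + 1) → Fin (n + 1) → A} {h : SCAx c} (π : SC c h →ₐ[A] R)

theorem ZD7_pi (x : SC c h) :
    π x = YD7Phi (algebraMap A R) (fun i => π (SC.bas i)) (SC.vec x) := by
  conv_lhs => rw [SC.eq_sum x]
  rw [map_sum]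
  unfold YD7Phi
  refine Finset.sum_congr rfl fun i _ => ?_
  rw [map_smul, Algebra.smul_def]

theorem ZD7_pi_c (i j : Fin (n + 1)) :
    YD7Phi (algebraMap A R) (fun i => π (SC.bas i)) (c i j) = π (SC.bas i) * π (SC.bas j) := by
  rw [← map_mul, SC.bas_mul, map_sum]
  unfold YD7Phi
  refine Finset.sum_congr rfl fun m _ => ?_
  rw [map_smul, Algebra.smul_def]

end Pres

/-- the structure constants and the data of the presentation -/
theorem ZD7_minors {A : Type u} {B : Type w} [CommRing A] [IsDomain A] [CommRing B] (J : A →+* B)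
    {R : Type v} [CommRing R] [Algebra A R] {n : ℕ}
    {c : Fin (n + 1) → Fin (n + 1) → Fin (n + 1) → A} {h : SCAx c} (π : SC c h →ₐ[A] R)
    (hπ : Function.Surjective π) {G : ℕ} (g : Fin G → SC c h) (hg : ∀ s, π (g s) = 0)
    (s q : ℕ) (hs : s + q = n + 2) (f : (Fin s → A) →ₗ[A] R) (hf : Function.Injective f)
    (u : Fin q → Fin G × Fin (n + 1)) (k : Fin q → Fin (n + 1)) :
    (Matrix.of fun i j => mR (fun i j m => J (c i j m)) (bR B n (u i).2)
      (fun a => J (SC.vec (g (u i).1) a)) (k j)).det = 0 := by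
  have h1 := minors_vanish_proved A (n + 1) R (π.toLinearMap ∘ₗ (SC.vec (c := c) (h := h)).symm.toLinearMap)
    (hπ.comp (SC.vec (c := c) (h := h)).symm.surjective) s q hs f hf
    (fun i => mR c (bR A n (u i).2) (SC.vec (g (u i).1))) (fun i => by
      have h2 : (SC.vec (c := c) (h := h)).symm (mR c (bR A n (u i).2) (SC.vec (g (u i).1))) =
          (SC.vec.symm (bR A n (u i).2)) * (g (u i).1) := rfl
      change π ((SC.vec (c := c) (h := h)).symm (mR c (bR A n (u i).2) (SC.vec (g (u i).1)))) = 0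
      rw [h2, map_mul, hg, mul_zero]) k
  have h2 : (Matrix.of fun i j => mR (fun i j m => J (c i j m)) (bR B n (u i).2)
      (fun a => J (SC.vec (g (u i).1) a)) (k j)) = J.mapMatrix
      (Matrix.of fun i j => mR c (bR A n (u i).2) (SC.vec (g (u i).1)) (k j)) := by
    ext i j
    rw [RingHom.mapMatrix_apply, Matrix.map_apply, Matrix.of_apply, Matrix.of_apply, ZD7_map_mR]
    congr 1
    funext a
    unfold bR
    split
    · rw [map_one]
    · rw [map_zero]
  rw [h2, ← RingHom.map_det, h1, map_zero]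

/-- ZD7: extraction of the relations from the rings. -/
theorem extract_rel_proved (D : ℕ) (R : Type u) (S : Type v) [CommRing R] [IsLocalRing R]
    [IsNoetherianRing R] [IsAdicComplete (maximalIdeal R) R] [CommRing S] [IsLocalRing S]
    [IsNoetherianRing S] [IsAdicComplete (maximalIdeal S) S] [Algebra R S] [Module.Flat R S]
    [IsLocalHom (algebraMap R S)]
    {k : Type u} [Field k] {l : Type v} [Field l] (a : k →+* R) (b : l →+* S) (j : k →+* l)
    (hab : b.comp j = (algebraMap R S).comp a)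
    (hk : ∀ x, ∃ t, x - a t ∈ maximalIdeal R) (hl : ∀ x, ∃ t, x - b t ∈ maximalIdeal S)
    (hfib : ∃ N, maximalIdeal S ^ N ≤ (maximalIdeal R).map (algebraMap R S))
    (y : Fin D → R) (hy : ∀ i, y i ∈ maximalIdeal R)
    (c : ℕ) (hc : maximalIdeal R ^ (c + 1) ≤ Ideal.span (Set.range y) * maximalIdeal R ^ c)
    (ΨR : MvPowerSeries (Fin D) k →+* R) (hRC : ∀ t, ΨR (MvPowerSeries.C t) = a t)
    (hRX : ∀ i, ΨR (MvPowerSeries.X i) = y i)
    (s : ℕ) (ρ : Fin s → R) (hρ : ∀ f : Fin s → MvPowerSeries (Fin D) k,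
      ∑ i, ΨR (f i) * ρ i = 0 → f = 0)
    (z : Fin D → S) (hz : ∀ i, z i ∈ maximalIdeal S) (t L : ℕ) (g : Fin L → S)
    (hg1 : ∀ x ∈ maximalIdeal S, ∀ k, ∃ κ : Fin L → l, (∀ k', ¬ k' < k → κ k' = 0) ∧
        x * g k - ∑ k', b (κ k') * g k' ∈ Ideal.span (Set.range fun ν => z ν ^ t))
    (hg2 : ∀ x, ∃ κ : Fin L → l, x - ∑ k', b (κ k') * g k' ∈
      Ideal.span (Set.range fun ν => z ν ^ t)) :
    ∃ (n G r q K : ℕ) (T : Ix D n G r L c → MvPowerSeries (Fin D) l),
      s + q = n + 2 ∧ 1 ≤ q ∧ ZRel q K t (fun i => MvPowerSeries.X i) T := by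
  classical
  set φ := algebraMap R S with hφdef
  have hφm : ∀ x ∈ maximalIdeal R, φ x ∈ maximalIdeal S := by
    intro x hx
    rw [mem_maximalIdeal, mem_nonunits_iff] at hx ⊢
    exact fun h => hx (isUnit_of_map_unit φ x h)
  have hyfin : ∃ N, maximalIdeal R ^ N ≤ Ideal.span (Set.range y) :=
    ⟨c + 1, hc.trans Ideal.mul_le_left⟩
  obtain ⟨Ψ, hSC, hSX⟩ := exists_psHom_proved D b (fun i => φ (y i)) (fun i => hφm _ (hy i))
  let J : MvPowerSeries (Fin D) k →+* MvPowerSeries (Fin D) l := MvPowerSeries.map j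
  have hcomp : Ψ.comp J = φ.comp ΨR := by
    refine psHom_unique_proved D _ _ (fun t => ?_) (fun i => ?_) (fun i => ?_)
    · rw [RingHom.comp_apply, RingHom.comp_apply, hRC, MvPowerSeries.map_C, hSC]
      exact RingHom.congr_fun hab t
    · rw [RingHom.comp_apply, RingHom.comp_apply, hRX, MvPowerSeries.map_X, hSX]
    · rw [RingHom.comp_apply, MvPowerSeries.map_X, hSX]
      exact hφm _ (hy i)
  have hJ : ∀ f, Ψ (J f) = φ (ΨR f) := fun f => RingHom.congr_fun hcomp f
  -- the presentation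
  obtain ⟨hfinR, hlocR⟩ := finite_psHom_proved D ΨR (fun i => by rw [hRX]; exact hy i)
    (fun x => by
      obtain ⟨t, ht⟩ := hk x
      exact ⟨t, by rw [hRC]; exact ht⟩)
    (by
      obtain ⟨N, hN⟩ := hyfin
      refine ⟨N, ?_⟩
      have : (fun i => ΨR (MvPowerSeries.X i)) = y := funext hRX
      rw [this]
      exact hN)
  let : Algebra (MvPowerSeries (Fin D) k) R := ΨR.toAlgebra
  have hAlg : algebraMap (MvPowerSeries (Fin D) k) R = ΨR := rfl
  have : Module.Finite (MvPowerSeries (Fin D) k) R := hfinR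
  have : IsLocalHom (algebraMap (MvPowerSeries (Fin D) k) R) := hlocR
  have : IsAdicComplete (maximalIdeal (MvPowerSeries (Fin D) k)) (MvPowerSeries (Fin D) k) := by
    rw [mvps_maximal_proved]
    infer_instance
  have : IsDomain (MvPowerSeries (Fin D) k) := NoZeroDivisors.to_isDomain _
  obtain ⟨n, c0, h0, π, hπ, hc0m, hπm⟩ := exists_P_proved (MvPowerSeries (Fin D) k) R
    (fun x => by
      obtain ⟨t, ht⟩ := hk x
      exact ⟨MvPowerSeries.C t, by rw [hAlg, hRC]; exact ht⟩)
  have : IsNoetherianRing (SC c0 h0) := IsNoetherianRing.of_finite (MvPowerSeries (Fin D) k) _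
  obtain ⟨G, gP, hgP⟩ : ∃ (G : ℕ) (gP : Fin G → SC c0 h0),
      RingHom.ker (π : SC c0 h0 →+* R) = Ideal.span (Set.range gP) := by
    obtain ⟨G, gP, hgP⟩ := Submodule.fg_iff_exists_fin_generating_family.mp
      (IsNoetherian.noetherian (RingHom.ker (π : SC c0 h0 →+* R)))
    exact ⟨G, gP, hgP.symm⟩
  have hgP0 : ∀ s, π (gP s) = 0 := by
    intro s
    have : gP s ∈ RingHom.ker (π : SC c0 h0 →+* R) := by
      rw [hgP]
      exact Ideal.subset_span ⟨s, rfl⟩
    exact this
  let ρR : Fin (n + 1) → R := fun i => π (SC.bas i)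
  have hρR0 : ρR 0 = 1 := by
    simp only [ρR, SC.bas_zero, map_one]
  have hπx : ∀ x : SC c0 h0, π x = YD7Phi ΨR ρR (SC.vec x) := fun x => ZD7_pi π x
  have hcR : ∀ i i', YD7Phi ΨR ρR (c0 i i') = ρR i * ρR i' := fun i i' => ZD7_pi_c π i i'
  let ρS : Fin (n + 1) → S := fun i => φ (ρR i)
  have hρS0 : ρS 0 = 1 := by simp only [ρS, hρR0, map_one]
  have hρSm : ∀ i : Fin n, ρS i.succ ∈ maximalIdeal S := fun i => hφm _ (hπm i)
  have hPhi : ∀ x : Fin (n + 1) → MvPowerSeries (Fin D) k,
      YD7Phi Ψ ρS (fun i => J (x i)) = φ (YD7Phi ΨR ρR x) := by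
    intro x
    unfold YD7Phi
    rw [map_sum]
    refine Finset.sum_congr rfl fun i _ => ?_
    rw [hJ, map_mul]
  let cc : Fin (n + 1) → Fin (n + 1) → Fin (n + 1) → MvPowerSeries (Fin D) l :=
    fun i i' m => J (c0 i i' m)
  have h' : SCAx cc := ZD7_SCAx_map J h0
  have hcc : ∀ i i', YD7Phi Ψ ρS (cc i i') = ρS i * ρS i' := by
    intro i i'
    have := hPhi (c0 i i')
    rw [hcR, map_mul] at this
    exact this
  let φ' : SC cc h' →+* S := ZD7hom Ψ ρS hρS0 cc h' hcc
  obtain ⟨r, σ, hσ0, hσm, hσ1, hσ2⟩ := exists_sigma_proved R S b hl hfib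
  obtain ⟨hS1, hS2⟩ := kernel_P_proved D R S a b j hab hk hl hfib y hy hyfin ΨR hRC hRX Ψ hSC hSX c0 h0
    (π : SC c0 h0 →+* R) hπ (fun f => π.commutes f) gP hgP h' φ'
    (fun f => by
      change YD7Phi Ψ ρS (SC.vec (algebraMap (MvPowerSeries (Fin D) l) (SC cc h') f)) = _
      unfold YD7Phi
      simp only [SC.vec_algebraMap]
      rw [Finset.sum_eq_single 0]
      · rw [if_pos rfl, hρS0, mul_one]
      · intro i _ hi
        rw [if_neg hi, map_zero, zero_mul]
      · intro h; exact absurd (Finset.mem_univ _) h)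
    (fun i => by
      change YD7Phi Ψ ρS (SC.vec (SC.bas i)) = _
      unfold YD7Phi
      simp only [SC.vec_bas]
      rw [Finset.sum_eq_single i]
      · rw [if_pos rfl, map_one, one_mul]
        rfl
      · intro i' _ hi
        rw [if_neg hi, map_zero, zero_mul]
      · intro h; exact absurd (Finset.mem_univ _) h)
    σ hσ1 hσ2
  set M := maximalIdeal (MvPowerSeries (Fin D) l) with hM
  -- elements of `m S`
  have hmS : ∀ x : Fin (r + 1) → Fin (n + 1) → MvPowerSeries (Fin D) l,
      YD7Theta Ψ ρS σ x ∈ (maximalIdeal R).map φ → ∀ m, x m 0 ∈ M := by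
    intro x hx m
    have hXI : ∀ i, Ψ (MvPowerSeries.X i) ∈ (maximalIdeal R).map φ := fun i => by
      rw [hSX]
      exact Ideal.mem_map_of_mem φ (hy i)
    have h1 : ∑ m, b (MvPowerSeries.constantCoeff (x m 0)) * σ m ∈ (maximalIdeal R).map φ := by
      have h2 : ∑ m, b (MvPowerSeries.constantCoeff (x m 0)) * σ m = YD7Theta Ψ ρS σ x -
          ∑ m, (YD7Phi Ψ ρS (x m) - b (MvPowerSeries.constantCoeff (x m 0))) * σ m := by
        unfold YD7Theta
        rw [← Finset.sum_sub_distrib]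
        exact Finset.sum_congr rfl fun m _ => by ring
      rw [h2]
      refine Ideal.sub_mem _ hx (Ideal.sum_mem _ fun m _ => Ideal.mul_mem_right _ _ ?_)
      unfold YD7Phi
      rw [Fin.sum_univ_succ, hρS0, mul_one]
      have h3 : Ψ (x m 0) + ∑ i : Fin n, Ψ (x m i.succ) * ρS i.succ -
          b (MvPowerSeries.constantCoeff (x m 0)) =
          Ψ (x m 0 - MvPowerSeries.C (MvPowerSeries.constantCoeff (x m 0))) +
          ∑ i : Fin n, Ψ (x m i.succ) * ρS i.succ := by
        rw [map_sub, hSC]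
        ring
      rw [h3]
      refine Ideal.add_mem _ (ZD7_map_max Ψ _ hXI _ (ZD7_sub_C _))
        (Ideal.sum_mem _ fun i _ => Ideal.mul_mem_left _ _ ?_)
      exact Ideal.mem_map_of_mem φ (hπm i)
    exact ZD7_constantCoeff _ (congrFun (hσ2 _ h1) m)
  -- generators of the maximal ideal of `R`
  let Gg : Fin n ⊕ Fin D → R := Sum.elim (fun i => ρR i.succ) y
  have hG : maximalIdeal R ≤ Ideal.span (Set.range Gg) := by
    intro x hx
    obtain ⟨p, rfl⟩ := hπ x
    rw [hπx] at hx ⊢
    have h1 := YD7_Phi_max ΨR ρR hρR0 hπm _ hx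
    have h2 := YD7_mem_max ΨR _ h1
    unfold YD7Phi
    rw [Fin.sum_univ_succ, hρR0, mul_one]
    refine Ideal.add_mem _ (ZD7_map_max ΨR _ (fun i => ?_) _ h2)
      (Ideal.sum_mem _ fun i _ => Ideal.mul_mem_left _ _ ?_)
    · rw [hRX]
      exact Ideal.subset_span ⟨Sum.inr i, rfl⟩
    · exact Ideal.subset_span ⟨Sum.inl i, rfl⟩
  have hred : ∀ f : Fin (c + 1) → Fin n, ∃ Af : Fin D → (Fin c → Fin n ⊕ Fin D) → R,
      (List.ofFn fun j => ρR (f j).succ).prod = ∑ ν, ∑ g : Fin c → Fin n ⊕ Fin D,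
        y ν * (Af ν g * (List.ofFn fun j => Gg (g j)).prod) := by
    intro f
    refine YD7_red Gg y c _ ?_
    refine Ideal.mul_mono_right (Ideal.pow_right_mono hG c) (hc ?_)
    have : ∀ (n' : ℕ) (f : Fin n' → Fin n),
        (List.ofFn fun j => ρR (f j).succ).prod ∈ maximalIdeal R ^ n' := by
      intro n'
      induction n' with
      | zero => intro f; simp
      | succ n' ih =>
        intro f
        rw [List.ofFn_succ, List.prod_cons, pow_succ']
        exact Ideal.mul_mem_mul (hπm _) (ih fun i => f i.succ)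
    exact this (c + 1) f
  choose Af hAf using hred
  choose lift hlift using hπ
  -- the rank
  let fR : (Fin s → MvPowerSeries (Fin D) k) →ₗ[MvPowerSeries (Fin D) k] R :=
    { toFun := fun v => ∑ i, ΨR (v i) * ρ i
      map_add' := fun v w => by
        rw [← Finset.sum_add_distrib]
        exact Finset.sum_congr rfl fun i _ => by rw [Pi.add_apply, map_add, add_mul]
      map_smul' := fun f v => by
        change ∑ i, ΨR (f * v i) * ρ i = ΨR f * ∑ i, ΨR (v i) * ρ i
        rw [Finset.mul_sum]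
        exact Finset.sum_congr rfl fun i _ => by rw [map_mul, mul_assoc] }
  have hfR : Function.Injective fR := by
    rw [injective_iff_map_eq_zero]
    intro v hv
    exact hρ v hv
  have hsn : s ≤ n + 1 := by
    let fP : (Fin s → MvPowerSeries (Fin D) k) →ₗ[MvPowerSeries (Fin D) k]
        (Fin (n + 1) → MvPowerSeries (Fin D) k) :=
      (SC.vec (c := c0) (h := h0)).toLinearMap ∘ₗ
        (Fintype.linearCombination (MvPowerSeries (Fin D) k) fun i => lift (ρ i))
    have hfP : Function.Injective fP := by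
      rw [injective_iff_map_eq_zero]
      intro v hv
      refine hρ v ?_
      have h1 : Fintype.linearCombination (MvPowerSeries (Fin D) k) (fun i => lift (ρ i)) v = 0 :=
        (SC.vec (c := c0) (h := h0)).map_eq_zero_iff.mp hv
      rw [Fintype.linearCombination_apply] at h1
      have h2 := congrArg π h1
      rw [map_sum, map_zero] at h2
      rw [← h2]
      refine Finset.sum_congr rfl fun i _ => ?_
      rw [map_smul, Algebra.smul_def, hAlg, hlift]
    have := card_le_of_injective (MvPowerSeries (Fin D) k) fP hfP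
    simpa using this
  obtain ⟨K, hK⟩ := hfib
  have hq : s + (n + 2 - s) = n + 2 := by omega
  obtain ⟨T, hT⟩ := ZD7_rel (K := K) (t := t) (c := c) (q := n + 2 - s) Ψ
    (fun i : Fin D => MvPowerSeries.X i) ρS σ hρS0 hσ0 cc h'
    hcc (fun s' a' => J (SC.vec (gP s') a'))
    (fun x => by
      obtain ⟨v, hv⟩ := hS1 x
      exact ⟨fun m => SC.vec (v m), hv.symm⟩)
    (fun x hx m => by
      have h1 := hS2 (fun m => (SC.vec.symm (x m) : SC cc h')) hx m
      rw [Ideal.mem_span_range_iff_exists_fun] at h1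
      obtain ⟨u, hu⟩ := h1
      refine ⟨fun s' => SC.vec (u s'), fun a' => ?_⟩
      have h2 := congrArg (fun p : SC cc h' => SC.vec p a') hu
      simp only [map_sum, Finset.sum_apply] at h2
      have h3 : SC.vec (SC.vec.symm (x m) : SC cc h') a' = x m a' := rfl
      rw [h3] at h2
      rw [← h2]
      refine Finset.sum_congr rfl fun s' _ => ?_
      rw [mul_comm]
      rfl)
    (fun i i' hi => by
      obtain ⟨w, hw⟩ := YD7_exists_sum _ (hc0m i i' hi)
      refine ⟨fun ν => J (w ν), ?_⟩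
      change J (c0 i i' 0) = _
      rw [hw, map_sum]
      refine Finset.sum_congr rfl fun ν _ => ?_
      rw [map_mul, MvPowerSeries.map_X])
    (fun s' => by
      have h1 : YD7Phi ΨR ρR (SC.vec (gP s')) ∈ maximalIdeal R := by
        rw [← hπx, hgP0]
        exact Ideal.zero_mem _
      obtain ⟨w, hw⟩ := YD7_exists_sum _ (YD7_mem_max ΨR _ (YD7_Phi_max ΨR ρR hρR0 hπm _ h1))
      refine ⟨fun ν => J (w ν), ?_⟩
      change J (SC.vec (gP s') 0) = _
      rw [hw, map_sum]
      refine Finset.sum_congr rfl fun ν _ => ?_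
      rw [map_mul, MvPowerSeries.map_X])
    (fun f h => ZD7_minors J π (fun x => ⟨lift x, hlift x⟩) gP hgP0 s (n + 2 - s) hq fR hfR f h)
    (fun f => by
      refine ⟨fun ν g' a' => J (SC.vec (lift (Af f ν g')) a'), ?_⟩
      have h1 : (List.ofFn fun j => ρS (f j).succ).prod =
          φ (List.ofFn fun j => ρR (f j).succ).prod := by
        rw [map_list_prod, List.map_ofFn]
        rfl
      rw [h1, hAf f, map_sum]
      refine Finset.sum_congr rfl fun ν _ => ?_
      rw [map_sum]
      refine Finset.sum_congr rfl fun g' _ => ?_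
      rw [map_mul, map_mul, hSX]
      congr 1
      rw [hPhi, ← hπx, hlift]
      congr 1
      rw [map_list_prod, List.map_ofFn]
      congr 2
      funext i
      rw [Function.comp_apply]
      rcases g' i with i' | ν'
      · rfl
      · simp only [Gg, Sum.elim_inr, hSX])
    (fun i x hx m => YD7_exists_sum _ (hmS x (by
      rw [hx]
      exact hK (Ideal.pow_mem_pow (hσm i) K)) m))
    z
    (fun ν x hx => YD7_exists_sum _ (YD7_mem_max Ψ _
      (YD7_Theta_max Ψ ρS σ hρS0 hσ0 hρSm hσm x (by rw [hx]; exact hz ν))))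
    g
    (fun ν i => by
      obtain ⟨κ, h1, h2⟩ := hg1 (φ (y ν)) (hφm _ (hy ν)) i
      rw [Ideal.mem_span_range_iff_exists_fun] at h2
      obtain ⟨w, hw⟩ := h2
      refine ⟨fun k' => MvPowerSeries.C (κ k'), w, ?_⟩
      rw [hSX, sub_eq_iff_eq_add.mp hw.symm, add_comm]
      congr 1
      · refine Finset.sum_congr rfl fun k' _ => ?_
        by_cases hk' : k' < i
        · rw [if_pos hk', hSC]
        · rw [if_neg hk', h1 k' hk', map_zero, zero_mul]
      · exact Finset.sum_congr rfl fun μ _ => mul_comm _ _)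
    (fun x => by
      obtain ⟨κ, h2⟩ := hg2 x
      rw [Ideal.mem_span_range_iff_exists_fun] at h2
      obtain ⟨w, hw⟩ := h2
      refine ⟨fun k' => MvPowerSeries.C (κ k'), w, ?_⟩
      rw [sub_eq_iff_eq_add.mp hw.symm, add_comm]
      congr 1
      · exact Finset.sum_congr rfl fun k' _ => by rw [hSC]
      · exact Finset.sum_congr rfl fun μ _ => mul_comm _ _)
  exact ⟨n, G, r, n + 2 - s, K, T, hq, by omega, hT⟩

end Vale.Agent.P202Z
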