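import Vale.Agent.P202Z.Defs
import Vale.Agent.P202T.Defs
import Vale.Agent.P202.Def
import Vale.Agent.P202Y.YD1
import Vale.Agent.P202Y.YD5
import Vale.Agent.P202Y.YD2
import Vale.Agent.P202Z.ZC2
import Vale.Agent.P202Z.ZC3
import Vale.Agent.P202Z.ZC4
import Vale.Agent.P202Z.ZC5
import Vale.Agent.P202Z.ZD3
import Vale.Agent.P202Z.ZD4
import Vale.Agent.P202Z.ZD7

/-! # P202Z ZD8: extraction with the multiplicities, general case (helper36) -/

namespace Vale.Agent.P202Z

open IsLocalRing Vale.Agent.P202 Vale.Agent.P202Y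

universe u v

theorem ZD8_pow {R : Type u} [CommRing R] (m Y : Ideal R) (c : ℕ) (h : m ^ (c + 1) ≤ Y * m ^ c)
    (t : ℕ) : m ^ (t + c) ≤ Y ^ t * m ^ c := by
  induction t with
  | zero => simp
  | succ t ih =>
    calc m ^ (t + 1 + c) = m ^ (t + c) * m := by ring
      _ ≤ Y ^ t * m ^ c * m := Ideal.mul_mono_left ih
      _ = Y ^ t * m ^ (c + 1) := by ring
      _ ≤ Y ^ t * (Y * m ^ c) := Ideal.mul_mono_right h
      _ = Y ^ (t + 1) * m ^ c := by ring

theorem ZD8_pow' {R : Type u} [CommRing R] (m Y : Ideal R) (c : ℕ) (h : m ^ (c + 1) ≤ Y * m ^ c)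
    (t : ℕ) : m ^ (t + c) ≤ Y ^ t :=
  (ZD8_pow m Y c h t).trans Ideal.mul_le_left

theorem ZD8_infinite {R : Type u} [CommRing R] [IsLocalRing R] {k : Type v} [Field k] [CharZero k]
    (a : k →+* R) : Infinite (ResidueField R) :=
  Infinite.of_injective ((residue R).comp a) (RingHom.injective _)

/-- power series parameters: a finite local structure map `k[[Y]] → R`. -/
theorem ZD8_param (D : ℕ) {k : Type u} [Field k] (R : Type v) [CommRing R] [IsLocalRing R]
    [IsNoetherianRing R] [IsAdicComplete (maximalIdeal R) R] (a : k →+* R)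
    (hk : ∀ x, ∃ t, x - a t ∈ maximalIdeal R) (y : Fin D → R) (hy : ∀ i, y i ∈ maximalIdeal R)
    (N : ℕ) (hN : maximalIdeal R ^ N ≤ Ideal.span (Set.range y)) :
    ∃ ΨR : MvPowerSeries (Fin D) k →+* R, (∀ t, ΨR (MvPowerSeries.C t) = a t) ∧
      (∀ i, ΨR (MvPowerSeries.X i) = y i) ∧ ΨR.Finite ∧ IsLocalHom ΨR := by
  obtain ⟨Ψ, hC, hX⟩ := exists_psHom_proved D a y hy
  have hXe : (fun i => Ψ (MvPowerSeries.X i)) = y := funext hX
  obtain ⟨h1, h2⟩ := finite_psHom_proved D Ψ (fun i => by rw [hX]; exact hy i)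
    (fun x => by
      obtain ⟨t, ht⟩ := hk x
      exact ⟨t, by rw [hC]; exact ht⟩)
    ⟨N, by rw [hXe]; exact hN⟩
  exact ⟨Ψ, hC, hX, h1, h2⟩

/-- ZD8: extraction, with the multiplicities. -/
theorem extract_proved (D : ℕ) (R : Type u) (S : Type v) [CommRing R] [IsLocalRing R]
    [IsNoetherianRing R] [IsAdicComplete (maximalIdeal R) R] [CommRing S] [IsLocalRing S]
    [IsNoetherianRing S] [IsAdicComplete (maximalIdeal S) S] [Algebra R S] [Module.Flat R S]
    [IsLocalHom (algebraMap R S)] [Algebra ℚ R] (hD : ringKrullDim R = D)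
    (hDS : ringKrullDim S = D)
    (hfib : ∃ N, maximalIdeal S ^ N ≤ (maximalIdeal R).map (algebraMap R S))
    (xR xS : ℝ) (hxR : HasMult R xR) (hxS : HasMult S xS) (ε : ℝ) (hε : 0 < ε) :
    ∃ (l : Type v) (_ : Field l) (_ : CharZero l) (n G r L c q K t s : ℕ)
      (T : Ix D n G r L c → MvPowerSeries (Fin D) l),
      ZRel q K t (fun i => MvPowerSeries.X i) T ∧ s + q = n + 2 ∧ 1 ≤ q ∧ 1 ≤ t ∧
        xR ≤ s ∧ (L : ℝ) ≤ (xS + ε) * (t : ℝ) ^ D := by
  obtain ⟨k, _, l, _, a, b, j, hk0, hl0, hk, hl, hab⟩ := exists_coef_proved R S (algebraMap R S)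
  have : Infinite (ResidueField R) := ZD8_infinite a
  have : Infinite (ResidueField S) := ZD8_infinite b
  obtain ⟨y, hy, c, hc⟩ := exists_reduction_gen_proved R D hD
  obtain ⟨z, hz, c', hc'⟩ := exists_reduction_gen_proved S D hDS
  obtain ⟨ΨR, hRC, hRX, hRf, hRl⟩ := ZD8_param D R a hk y hy (c + 1) (hc.trans Ideal.mul_le_left)
  obtain ⟨ΨS, hSC, hSX, hSf, hSl⟩ := ZD8_param D S b hl z hz (c' + 1) (hc'.trans Ideal.mul_le_left)
  have : IsDomain (MvPowerSeries (Fin D) k) := NoZeroDivisors.to_isDomain _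
  have : IsDomain (MvPowerSeries (Fin D) l) := NoZeroDivisors.to_isDomain _
  -- the rank of `R`
  obtain ⟨s, ρ, hρ, hxs⟩ : ∃ (s : ℕ) (ρ : Fin s → R),
      (∀ f : Fin s → MvPowerSeries (Fin D) k, ∑ i, ΨR (f i) * ρ i = 0 → f = 0) ∧ xR ≤ s := by
    algebraize [ΨR]
    have : IsLocalHom (algebraMap (MvPowerSeries (Fin D) k) R) := hRl
    obtain ⟨s, f, a0, hfi, ha0, hfs⟩ := exists_rank_proved (MvPowerSeries (Fin D) k) R
    have hres : ∀ x : R, ∃ b, x - algebraMap (MvPowerSeries (Fin D) k) R b ∈ maximalIdeal R := by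
      intro x
      obtain ⟨t, ht⟩ := hk x
      refine ⟨MvPowerSeries.C t, ?_⟩
      have : algebraMap (MvPowerSeries (Fin D) k) R (MvPowerSeries.C t) = a t := hRC t
      rw [this]
      exact ht
    refine ⟨s, fun i => f (Pi.single i 1), fun g hg => ?_,
      mult_le_rank_proved D R hres hD s f a0 ha0 hfs xR hxR⟩
    have h1 : f g = 0 := by
      have h2 : g = ∑ i, g i • (Pi.single i 1 : Fin s → MvPowerSeries (Fin D) k) := by
        funext m
        simp [Finset.sum_apply, Pi.single_apply]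
      rw [h2, map_sum]
      rw [← hg]
      refine Finset.sum_congr rfl fun i _ => ?_
      rw [map_smul, Algebra.smul_def]
      rfl
    exact hfi (by rw [h1, map_zero])
  -- Lech's limit formula for `S`
  obtain ⟨t, L, ht, hL, hLx⟩ : ∃ t L : ℕ, 1 ≤ t ∧
      Module.length S (S ⧸ Ideal.span (Set.range fun ν => z ν ^ t)) = L ∧
      (L : ℝ) ≤ (xS + ε) * (t : ℝ) ^ D := by
    algebraize [ΨS]
    have : IsLocalHom (algebraMap (MvPowerSeries (Fin D) l) S) := hSl
    obtain ⟨s', f, a0, hfi, ha0, hfs⟩ := exists_rank_proved (MvPowerSeries (Fin D) l) S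
    have hres : ∀ x : S, ∃ b, x - algebraMap (MvPowerSeries (Fin D) l) S b ∈ maximalIdeal S := by
      intro x
      obtain ⟨t, ht⟩ := hl x
      refine ⟨MvPowerSeries.C t, ?_⟩
      have : algebraMap (MvPowerSeries (Fin D) l) S (MvPowerSeries.C t) = b t := hSC t
      rw [this]
      exact ht
    have hXz : ∀ ν, algebraMap (MvPowerSeries (Fin D) l) S (MvPowerSeries.X ν) = z ν := hSX
    have h1 : (s' : ℝ) ≤ xS := by
      refine rank_le_mult_proved D S hres hDS s' f hfi c' (fun N => ?_) xS hxS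
      simp only [hXz]
      exact ZD8_pow' _ _ c' hc' N
    obtain ⟨t, L, ht, hL, hLx⟩ := lech_limit_proved D S hres s' f a0 ha0 hfs ε hε
    have hXz' : (fun ν => algebraMap (MvPowerSeries (Fin D) l) S (MvPowerSeries.X ν) ^ t) =
        fun ν => z ν ^ t := funext fun ν => by rw [hXz]
    rw [hXz'] at hL
    refine ⟨t, L, ht, hL, hLx.trans ?_⟩
    exact mul_le_mul_of_nonneg_right (by linarith) (by positivity)
  obtain ⟨g, hg1, hg2⟩ := exists_series_proved S b hl
    (Ideal.span (Set.range fun ν => z ν ^ t)) L hL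
  obtain ⟨n, G, r, q, K, T, hsq, hq, hT⟩ := extract_rel_proved D R S a b j hab hk hl hfib y hy c hc ΨR hRC
    hRX s ρ hρ z hz t L g hg1 hg2
  exact ⟨l, _, hl0, n, G, r, L, c, q, K, t, s, T, hT, hsq, hq, ht, hxs, hLx⟩

end Vale.Agent.P202Z
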