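import Vale.Agent.P202Z.Defs

/-! # P202Z, module ZA1: the unknowns are finite in number -/

namespace Vale.Agent.P202Z

theorem Ix_finite_proved (D n G r L c : ℕ) : Finite (Ix D n G r L c) := by
  have h1 : (Set.range fun p : Fin (n + 1) × Fin (n + 1) × Fin (n + 1) =>
      (Ix.cP p.1 p.2.1 p.2.2 : Ix D n G r L c)).Finite :=
    Set.finite_range _
  have h2 : (Set.range fun p : Fin (n + 1) × Fin (n + 1) × Fin D =>
      (Ix.c0 p.1 p.2.1 p.2.2 : Ix D n G r L c)).Finite :=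
    Set.finite_range _
  have h3 : (Set.range fun p : Fin G × Fin (n + 1) =>
      (Ix.gI p.1 p.2 : Ix D n G r L c)).Finite :=
    Set.finite_range _
  have h4 : (Set.range fun p : Fin G × Fin D =>
      (Ix.gz p.1 p.2 : Ix D n G r L c)).Finite :=
    Set.finite_range _
  have h5 : (Set.range fun p : Fin (r + 1) × Fin (r + 1) × Fin (r + 1) × Fin (n + 1) =>
      (Ix.cS p.1 p.2.1 p.2.2.1 p.2.2.2 : Ix D n G r L c)).Finite :=
    Set.finite_range _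
  have h6 : (Set.range fun p : Fin (r + 1) × Fin (r + 1) × Fin (r + 1) × Fin (r + 1) × Fin G × Fin (n + 1) =>
      (Ix.sa p.1 p.2.1 p.2.2.1 p.2.2.2.1 p.2.2.2.2.1 p.2.2.2.2.2 : Ix D n G r L c)).Finite :=
    Set.finite_range _
  have h7 : (Set.range fun p : (Fin (c + 1) → Fin n) × Fin D × (Fin c → Fin n ⊕ Fin D) × Fin (n + 1) =>
      (Ix.red p.1 p.2.1 p.2.2.1 p.2.2.2 : Ix D n G r L c)).Finite :=
    Set.finite_range _
  have h8 : (Set.range fun p : (Fin (c + 1) → Fin n) × Fin G × Fin (n + 1) =>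
      (Ix.rd p.1 p.2.1 p.2.2 : Ix D n G r L c)).Finite :=
    Set.finite_range _
  have h9 : (Set.range fun p : Fin r × Fin (r + 1) × Fin D =>
      (Ix.nl p.1 p.2.1 p.2.2 : Ix D n G r L c)).Finite :=
    Set.finite_range _
  have h10 : (Set.range fun p : Fin D × Fin (r + 1) × Fin (n + 1) =>
      (Ix.z p.1 p.2.1 p.2.2 : Ix D n G r L c)).Finite :=
    Set.finite_range _
  have h11 : (Set.range fun p : Fin D × Fin D =>
      (Ix.zc p.1 p.2 : Ix D n G r L c)).Finite :=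
    Set.finite_range _
  have h12 : (Set.range fun p : Fin L × Fin (r + 1) × Fin (n + 1) =>
      (Ix.g p.1 p.2.1 p.2.2 : Ix D n G r L c)).Finite :=
    Set.finite_range _
  have h13 : (Set.range fun p : Fin D × Fin L × Fin L =>
      (Ix.ka p.1 p.2.1 p.2.2 : Ix D n G r L c)).Finite :=
    Set.finite_range _
  have h14 : (Set.range fun p : Fin D × Fin L × Fin D × Fin (r + 1) × Fin (n + 1) =>
      (Ix.w p.1 p.2.1 p.2.2.1 p.2.2.2.1 p.2.2.2.2 : Ix D n G r L c)).Finite :=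
    Set.finite_range _
  have h15 : (Set.range fun p : Fin D × Fin L × Fin G × Fin (r + 1) × Fin (n + 1) =>
      (Ix.wI p.1 p.2.1 p.2.2.1 p.2.2.2.1 p.2.2.2.2 : Ix D n G r L c)).Finite :=
    Set.finite_range _
  have h16 : (Set.range fun p : Fin (r + 1) × Fin (n + 1) × Fin L =>
      (Ix.la p.1 p.2.1 p.2.2 : Ix D n G r L c)).Finite :=
    Set.finite_range _
  have h17 : (Set.range fun p : Fin (r + 1) × Fin (n + 1) × Fin D × Fin (r + 1) × Fin (n + 1) =>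
      (Ix.v p.1 p.2.1 p.2.2.1 p.2.2.2.1 p.2.2.2.2 : Ix D n G r L c)).Finite :=
    Set.finite_range _
  have h18 : (Set.range fun p : Fin (r + 1) × Fin (n + 1) × Fin G × Fin (r + 1) × Fin (n + 1) =>
      (Ix.vI p.1 p.2.1 p.2.2.1 p.2.2.2.1 p.2.2.2.2 : Ix D n G r L c)).Finite :=
    Set.finite_range _
  rw [← Set.finite_univ_iff]
  refine (h1.union (h2.union (h3.union (h4.union (h5.union (h6.union (h7.union (h8.union (h9.union (h10.union (h11.union (h12.union (h13.union (h14.union (h15.union (h16.union (h17.union (h18)))))))))))))))))).subset ?_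
  rintro x -
  cases x with
  | cP i j m =>
    exact Or.inl ⟨(i, j, m), rfl⟩
  | c0 i j ν =>
    exact Or.inr (Or.inl ⟨(i, j, ν), rfl⟩)
  | gI s a =>
    exact Or.inr (Or.inr (Or.inl ⟨(s, a), rfl⟩))
  | gz s ν =>
    exact Or.inr (Or.inr (Or.inr (Or.inl ⟨(s, ν), rfl⟩)))
  | cS i j m a =>
    exact Or.inr (Or.inr (Or.inr (Or.inr (Or.inl ⟨(i, j, m, a), rfl⟩))))
  | sa i j k l s a =>
    exact Or.inr (Or.inr (Or.inr (Or.inr (Or.inr (Or.inl ⟨(i, j, k, l, s, a), rfl⟩)))))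
  | red f ν g a =>
    exact Or.inr (Or.inr (Or.inr (Or.inr (Or.inr (Or.inr (Or.inl ⟨(f, ν, g, a), rfl⟩))))))
  | rd f s a =>
    exact Or.inr (Or.inr (Or.inr (Or.inr (Or.inr (Or.inr (Or.inr (Or.inl ⟨(f, s, a), rfl⟩)))))))
  | nl j m ν =>
    exact Or.inr (Or.inr (Or.inr (Or.inr (Or.inr (Or.inr (Or.inr (Or.inr (Or.inl ⟨(j, m, ν), rfl⟩))))))))
  | z ν m a =>
    exact Or.inr (Or.inr (Or.inr (Or.inr (Or.inr (Or.inr (Or.inr (Or.inr (Or.inr (Or.inl ⟨(ν, m, a), rfl⟩)))))))))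
  | zc ν μ =>
    exact Or.inr (Or.inr (Or.inr (Or.inr (Or.inr (Or.inr (Or.inr (Or.inr (Or.inr (Or.inr (Or.inl ⟨(ν, μ), rfl⟩))))))))))
  | g k m a =>
    exact Or.inr (Or.inr (Or.inr (Or.inr (Or.inr (Or.inr (Or.inr (Or.inr (Or.inr (Or.inr (Or.inr (Or.inl ⟨(k, m, a), rfl⟩)))))))))))
  | ka ν k k' =>
    exact Or.inr (Or.inr (Or.inr (Or.inr (Or.inr (Or.inr (Or.inr (Or.inr (Or.inr (Or.inr (Or.inr (Or.inr (Or.inl ⟨(ν, k, k'), rfl⟩))))))))))))
  | w ν k μ m a =>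
    exact Or.inr (Or.inr (Or.inr (Or.inr (Or.inr (Or.inr (Or.inr (Or.inr (Or.inr (Or.inr (Or.inr (Or.inr (Or.inr (Or.inl ⟨(ν, k, μ, m, a), rfl⟩)))))))))))))
  | wI ν k s m a =>
    exact Or.inr (Or.inr (Or.inr (Or.inr (Or.inr (Or.inr (Or.inr (Or.inr (Or.inr (Or.inr (Or.inr (Or.inr (Or.inr (Or.inr (Or.inl ⟨(ν, k, s, m, a), rfl⟩))))))))))))))
  | la a b k =>
    exact Or.inr (Or.inr (Or.inr (Or.inr (Or.inr (Or.inr (Or.inr (Or.inr (Or.inr (Or.inr (Or.inr (Or.inr (Or.inr (Or.inr (Or.inr (Or.inl ⟨(a, b, k), rfl⟩)))))))))))))))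
  | v a b μ m a' =>
    exact Or.inr (Or.inr (Or.inr (Or.inr (Or.inr (Or.inr (Or.inr (Or.inr (Or.inr (Or.inr (Or.inr (Or.inr (Or.inr (Or.inr (Or.inr (Or.inr (Or.inl ⟨(a, b, μ, m, a'), rfl⟩))))))))))))))))
  | vI a b s m a' =>
    exact Or.inr (Or.inr (Or.inr (Or.inr (Or.inr (Or.inr (Or.inr (Or.inr (Or.inr (Or.inr (Or.inr (Or.inr (Or.inr (Or.inr (Or.inr (Or.inr (Or.inr ⟨(a, b, s, m, a'), rfl⟩))))))))))))))))

end Vale.Agent.P202Z
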