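import Vale.Agent.P202Z.Defs

/-! # P202Z, modules ZA2 and ZA3: the relations are a finite polynomial system, and they are
preserved by ring homomorphisms (variant of P202Y/YA23).  The defects of the relations are natural
in the ring. -/

namespace Vale.Agent.P202Z

open Vale.Agent.P202Y

universe u v w

section Nat

variable {B : Type u} [CommRing B] {B' : Type v} [CommRing B'] (f : B →+* B') {e r : ℕ}

private theorem za23_oR (m : Fin (e + 1)) : f (oR B e m) = oR B' e m := by
  unfold oR
  split_ifs <;> simp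

private theorem za23_bR (i m : Fin (e + 1)) : f (bR B e i m) = bR B' e i m := by
  unfold bR
  split_ifs <;> simp

private theorem za23_bS (b : Fin (r + 1)) (a : Fin (e + 1)) (m : Fin (r + 1)) (n : Fin (e + 1)) :
    f (bS B e r b a m n) = bS B' e r b a m n := by
  unfold bS
  split_ifs <;> simp

private theorem za23_mR (c : Fin (e + 1) → Fin (e + 1) → Fin (e + 1) → B)
    (x y : Fin (e + 1) → B) (m : Fin (e + 1)) :
    f (mR c x y m) = mR (fun i j m => f (c i j m)) (fun m => f (x m)) (fun m => f (y m)) m := by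
  unfold mR
  simp only [map_sum, map_mul]

private theorem za23_lR (c : Fin (e + 1) → Fin (e + 1) → Fin (e + 1) → B)
    (l : List (Fin (e + 1) → B)) (m : Fin (e + 1)) :
    f (lR c l m) = lR (fun i j m => f (c i j m)) (l.map fun x m => f (x m)) m := by
  induction l generalizing m with
  | nil => exact za23_oR f m
  | cons a l ih =>
    have h1 : lR c (a :: l) = mR c a (lR c l) := rfl
    have h2 : lR (fun i j m => f (c i j m)) ((a :: l).map fun x m => f (x m)) =
        mR (fun i j m => f (c i j m)) (fun m => f (a m))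
          (lR (fun i j m => f (c i j m)) (l.map fun x m => f (x m))) := rfl
    rw [h1, h2, za23_mR]
    congr 1
    funext m
    exact ih m

private theorem za23_mS (c : Fin (e + 1) → Fin (e + 1) → Fin (e + 1) → B)
    (d : Fin (r + 1) → Fin (r + 1) → Fin (r + 1) → Fin (e + 1) → B)
    (x y : Fin (r + 1) → Fin (e + 1) → B) (m : Fin (r + 1)) (n : Fin (e + 1)) :
    f (mS c d x y m n) = mS (fun i j m => f (c i j m)) (fun i j m n => f (d i j m n))
      (fun m n => f (x m n)) (fun m n => f (y m n)) m n := by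
  unfold mS
  rw [Finset.sum_apply, Finset.sum_apply, map_sum]
  refine Finset.sum_congr rfl fun i _ => ?_
  rw [Finset.sum_apply, Finset.sum_apply, map_sum]
  refine Finset.sum_congr rfl fun j _ => ?_
  rw [za23_mR]
  congr 1
  funext m'
  rw [za23_mR]

private theorem za23_pS (c : Fin (e + 1) → Fin (e + 1) → Fin (e + 1) → B)
    (d : Fin (r + 1) → Fin (r + 1) → Fin (r + 1) → Fin (e + 1) → B)
    (x : Fin (r + 1) → Fin (e + 1) → B) (K : ℕ) (m : Fin (r + 1)) (n : Fin (e + 1)) :
    f (pS c d x K m n) = pS (fun i j m => f (c i j m)) (fun i j m n => f (d i j m n))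
      (fun m n => f (x m n)) K m n := by
  induction K generalizing m n with
  | zero => exact za23_bS f 0 0 m n
  | succ K ih =>
    have h1 : pS c d x (K + 1) = mS c d (pS c d x K) x := rfl
    have h2 : pS (fun i j m => f (c i j m)) (fun i j m n => f (d i j m n))
        (fun m n => f (x m n)) (K + 1) = mS (fun i j m => f (c i j m))
        (fun i j m n => f (d i j m n)) (pS (fun i j m => f (c i j m))
        (fun i j m n => f (d i j m n)) (fun m n => f (x m n)) K) (fun m n => f (x m n)) := rfl
    rw [h1, h2, za23_mS]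
    congr 1
    funext m n
    exact ih m n

private theorem za23_gen {D : ℕ} (y : Fin D → B) (s : Fin e ⊕ Fin D) (n : Fin (e + 1)) :
    f (gen y e s n) = gen (fun i => f (y i)) e s n := by
  unfold gen
  cases s with
  | inl i => exact za23_bR f _ n
  | inr ν =>
    simp only [Sum.elim_inr, map_mul]
    rw [za23_oR]

end Nat

section Df

variable {D n G r L c : ℕ}

/-- indices of the relations -/
private abbrev DJ (D n G r L c q : ℕ) : Type :=
  (Fin (n + 1) × Fin (n + 1)) ⊕ (Fin (n + 1) × Fin (n + 1) × Fin (n + 1)) ⊕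
  (Fin (n + 1) × Fin (n + 1) × Fin (n + 1) × Fin (n + 1)) ⊕
  (Fin (r + 1) × Fin (r + 1) × Fin (n + 1)) ⊕
  (Fin (r + 1) × Fin (r + 1) × Fin (r + 1) × Fin (n + 1)) ⊕
  (Fin (r + 1) × Fin (r + 1) × Fin (r + 1) × Fin (r + 1) × Fin (n + 1)) ⊕
  ((Fin (c + 1) → Fin n) × Fin (n + 1)) ⊕ (Fin r × Fin (r + 1)) ⊕ Fin D ⊕
  (Fin D × Fin L × Fin (r + 1) × Fin (n + 1)) ⊕
  (Fin (r + 1) × Fin (n + 1) × Fin (r + 1) × Fin (n + 1)) ⊕
  (Fin (n + 1) × Fin (n + 1)) ⊕ Fin G ⊕
  ((Fin q → Fin G × Fin (n + 1)) × (Fin q → Fin (n + 1)))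

variable {B : Type u} [CommRing B]

/-- the defects of the relations -/
private def dfct (q K t : ℕ) (y : Fin D → B) (T : Ix D n G r L c → B) : DJ D n G r L c q → B
  | .inl (j, m) => Zc T 0 j m - (if j = m then 1 else 0)
  | .inr (.inl (i, j, m)) => Zc T i j m - Zc T j i m
  | .inr (.inr (.inl (i, j, k, l))) =>
      ∑ m, Zc T i j m * Zc T m k l - ∑ m, Zc T j k m * Zc T i m l
  | .inr (.inr (.inr (.inl (j, m, a)))) => Zd T 0 j m a - (if j = m then oR B n a else 0)
  | .inr (.inr (.inr (.inr (.inl (i, j, m, a))))) => Zd T i j m a - Zd T j i m a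
  | .inr (.inr (.inr (.inr (.inr (.inl (i, j, k, l, a)))))) =>
      ∑ m, mR (Zc T) (Zd T i j m) (Zd T m k l) a - (∑ m, mR (Zc T) (Zd T j k m) (Zd T i m l) a +
      ∑ s, mR (Zc T) (Zi T s) (fun a => T (.sa i j k l s a)) a)
  | .inr (.inr (.inr (.inr (.inr (.inr (.inl (h, a))))))) =>
      lR (Zc T) (List.ofFn fun j => bR B n (h j).succ) a -
        ((∑ ν, ∑ g : Fin c → Fin n ⊕ Fin D, y ν *
        mR (Zc T) (fun a => T (.red h ν g a)) (lR (Zc T) (List.ofFn fun j => gen y n (g j))) a) +
      ∑ s, mR (Zc T) (Zi T s) (fun a => T (.rd h s a)) a)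
  | .inr (.inr (.inr (.inr (.inr (.inr (.inr (.inl (j, m)))))))) =>
      pS (Zc T) (Zd T) (bS B n r j.succ 0) K m 0 - ∑ ν, y ν * T (.nl j m ν)
  | .inr (.inr (.inr (.inr (.inr (.inr (.inr (.inr (.inl ν)))))))) =>
      Zz T ν 0 0 - ∑ μ, y μ * T (.zc ν μ)
  | .inr (.inr (.inr (.inr (.inr (.inr (.inr (.inr (.inr (.inl (ν, k, m, a)))))))))) =>
      y ν * Zg T k m a - ((∑ k' : Fin L, if k' < k then T (.ka ν k k') * Zg T k' m a
    else 0) + (∑ μ, mS (Zc T) (Zd T) (pS (Zc T) (Zd T) (Zz T μ) t) (fun m a => T (.w ν k μ m a)) m a)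
    + ∑ s, mR (Zc T) (Zi T s) (fun a => T (.wI ν k s m a)) a)
  | .inr (.inr (.inr (.inr (.inr (.inr (.inr (.inr (.inr (.inr (.inl (a', b', m, a))))))))))) =>
      bS B n r a' b' m a - ((∑ k : Fin L, T (.la a' b' k) * Zg T k m a) +
    (∑ μ, mS (Zc T) (Zd T) (pS (Zc T) (Zd T) (Zz T μ) t) (fun m a => T (.v a' b' μ m a)) m a)
    + ∑ s, mR (Zc T) (Zi T s) (fun a => T (.vI a' b' s m a)) a)
  | .inr (.inr (.inr (.inr (.inr (.inr (.inr (.inr (.inr (.inr (.inr (.inl (i, j)))))))))))) =>
      if i = 0 ∧ j = 0 then 0 else Zc T i j 0 - ∑ ν, y ν * T (.c0 i j ν)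
  | .inr (.inr (.inr (.inr (.inr (.inr (.inr (.inr (.inr (.inr (.inr (.inr (.inl s)))))))))))) =>
      Zi T s 0 - ∑ ν, y ν * T (.gz s ν)
  | .inr (.inr (.inr (.inr (.inr (.inr (.inr (.inr (.inr (.inr (.inr (.inr (.inr (f, h))))))))))))) =>
      (Matrix.of fun i j => mR (Zc T) (bR B n (f i).2) (Zi T (f i).1) (h j)).det

private theorem za23_rel (q K t : ℕ) (y : Fin D → B) (T : Ix D n G r L c → B) :
    ZRel q K t y T ↔ ∀ i, dfct q K t y T i = 0 := by
  constructor
  · intro h i
    match i with
    | .inl (j, m) => exact sub_eq_zero.2 (h.runit j m)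
    | .inr (.inl (i, j, m)) => exact sub_eq_zero.2 (h.rcomm i j m)
    | .inr (.inr (.inl (i, j, k, l))) => exact sub_eq_zero.2 (h.rassoc i j k l)
    | .inr (.inr (.inr (.inl (j, m, n)))) => exact sub_eq_zero.2 (h.sunit j m n)
    | .inr (.inr (.inr (.inr (.inl (i, j, m, n))))) => exact sub_eq_zero.2 (h.scomm i j m n)
    | .inr (.inr (.inr (.inr (.inr (.inl (i, j, k, l, n)))))) =>
      exact sub_eq_zero.2 (h.sassoc i j k l n)
    | .inr (.inr (.inr (.inr (.inr (.inr (.inl (g, n))))))) =>
      exact sub_eq_zero.2 (h.red g n)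
    | .inr (.inr (.inr (.inr (.inr (.inr (.inr (.inl (j, m)))))))) =>
      exact sub_eq_zero.2 (h.nl j m)
    | .inr (.inr (.inr (.inr (.inr (.inr (.inr (.inr (.inl ν)))))))) =>
      exact sub_eq_zero.2 (h.zc ν)
    | .inr (.inr (.inr (.inr (.inr (.inr (.inr (.inr (.inr (.inl (ν, k, m, n)))))))))) =>
      exact sub_eq_zero.2 (h.ka ν k m n)
    | .inr (.inr (.inr (.inr (.inr (.inr (.inr (.inr (.inr (.inr (.inl (a, b, m, n))))))))))) =>
      exact sub_eq_zero.2 (h.la a b m n)
    | .inr (.inr (.inr (.inr (.inr (.inr (.inr (.inr (.inr (.inr (.inr (.inl (i, j)))))))))))) =>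
      show (if i = 0 ∧ j = 0 then (0 : B) else Zc T i j 0 - ∑ ν, y ν * T (.c0 i j ν)) = 0
      split_ifs with hij
      · rfl
      · exact sub_eq_zero.2 (h.rc0 i j hij)
    | .inr (.inr (.inr (.inr (.inr (.inr (.inr (.inr (.inr (.inr (.inr (.inr (.inl s)))))))))))) =>
      exact sub_eq_zero.2 (h.gz s)
    | .inr (.inr (.inr (.inr (.inr (.inr (.inr (.inr (.inr (.inr (.inr (.inr (.inr (f, g))))))))))))) =>
      exact h.minors f g
  · intro h
    exact
      { runit := fun j m => sub_eq_zero.1 (h (.inl (j, m)))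
        rcomm := fun i j m => sub_eq_zero.1 (h (.inr (.inl (i, j, m))))
        rassoc := fun i j k l => sub_eq_zero.1 (h (.inr (.inr (.inl (i, j, k, l)))))
        rc0 := fun i j hij => by
          have := h (.inr (.inr (.inr (.inr (.inr (.inr (.inr (.inr (.inr (.inr (.inr
            (.inl (i, j)))))))))))))
          change (if i = 0 ∧ j = 0 then (0 : B) else Zc T i j 0 - ∑ ν, y ν * T (.c0 i j ν)) = 0
            at this
          rw [if_neg hij] at this
          exact sub_eq_zero.1 this
        gz := fun s => sub_eq_zero.1 (h (.inr (.inr (.inr (.inr (.inr (.inr (.inr (.inr (.inr (.inr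
          (.inr (.inr (.inl s))))))))))))))
        minors := fun f g => h (.inr (.inr (.inr (.inr (.inr (.inr (.inr (.inr (.inr (.inr
          (.inr (.inr (.inr (f, g))))))))))))))
        sunit := fun j m n => sub_eq_zero.1 (h (.inr (.inr (.inr (.inl (j, m, n))))))
        scomm := fun i j m n => sub_eq_zero.1 (h (.inr (.inr (.inr (.inr (.inl (i, j, m, n)))))))
        sassoc := fun i j k l n =>
          sub_eq_zero.1 (h (.inr (.inr (.inr (.inr (.inr (.inl (i, j, k, l, n))))))))
        red := fun g n =>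
          sub_eq_zero.1 (h (.inr (.inr (.inr (.inr (.inr (.inr (.inl (g, n)))))))))
        nl := fun j m =>
          sub_eq_zero.1 (h (.inr (.inr (.inr (.inr (.inr (.inr (.inr (.inl (j, m))))))))))
        zc := fun ν =>
          sub_eq_zero.1 (h (.inr (.inr (.inr (.inr (.inr (.inr (.inr (.inr (.inl ν))))))))))
        ka := fun ν k m n => sub_eq_zero.1
          (h (.inr (.inr (.inr (.inr (.inr (.inr (.inr (.inr (.inr (.inl (ν, k, m, n))))))))))))
        la := fun a b m n => sub_eq_zero.1
          (h (.inr (.inr (.inr (.inr (.inr (.inr (.inr (.inr (.inr (.inr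
            (.inl (a, b, m, n))))))))))))) }

private theorem za23_nat {B' : Type v} [CommRing B'] (f : B →+* B') (q K t : ℕ) (y : Fin D → B)
    (T : Ix D n G r L c → B) (i : DJ D n G r L c q) :
    f (dfct q K t y T i) = dfct q K t (fun i => f (y i)) (fun i => f (T i)) i := by
  match i with
  | .inl (j, m) =>
    simp only [dfct, map_sub]
    congr 1
    split_ifs <;> simp
  | .inr (.inl (i, j, m)) => simp only [dfct, map_sub]; rfl
  | .inr (.inr (.inl (i, j, k, l))) =>
    simp only [dfct, map_sub, map_sum, map_mul]; rfl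
  | .inr (.inr (.inr (.inl (j, m, a)))) =>
    simp only [dfct, map_sub]
    congr 1
    split_ifs
    · exact za23_oR f a
    · simp
  | .inr (.inr (.inr (.inr (.inl (i, j, m, a))))) => simp only [dfct, map_sub]; rfl
  | .inr (.inr (.inr (.inr (.inr (.inl (i, j, k, l, a)))))) =>
    simp only [dfct, map_sub, map_add, map_sum]
    congr 1
    · exact Finset.sum_congr rfl fun m _ => za23_mR f _ _ _ a
    · congr 1
      · exact Finset.sum_congr rfl fun m _ => za23_mR f _ _ _ a
      · exact Finset.sum_congr rfl fun m _ => za23_mR f _ _ _ a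
  | .inr (.inr (.inr (.inr (.inr (.inr (.inl (g, a))))))) =>
    simp only [dfct, map_sub, map_add, map_sum, map_mul]
    congr 1
    · rw [za23_lR, List.map_ofFn]
      congr 2
      funext j m
      exact za23_bR f _ m
    · congr 1
      · refine Finset.sum_congr rfl fun ν _ => Finset.sum_congr rfl fun g' _ => ?_
        rw [za23_mR]
        congr 2
        funext m
        rw [za23_lR, List.map_ofFn]
        congr 2
        funext j m'
        exact za23_gen f y _ m'
      · exact Finset.sum_congr rfl fun m _ => za23_mR f _ _ _ a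
  | .inr (.inr (.inr (.inr (.inr (.inr (.inr (.inl (j, m)))))))) =>
    simp only [dfct, map_sub, map_sum, map_mul]
    congr 1
    rw [za23_pS]
    congr 1
    funext m' n'
    exact za23_bS f _ _ m' n'
  | .inr (.inr (.inr (.inr (.inr (.inr (.inr (.inr (.inl ν)))))))) =>
    simp only [dfct, map_sub, map_sum, map_mul]; rfl
  | .inr (.inr (.inr (.inr (.inr (.inr (.inr (.inr (.inr (.inl (ν, k, m, a)))))))))) =>
    simp only [dfct, map_sub, map_sum, map_mul, map_add]
    congr 1
    congr 1
    · congr 1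
      · refine Finset.sum_congr rfl fun k' _ => ?_
        split_ifs
        · simp only [map_mul]; rfl
        · simp
      · refine Finset.sum_congr rfl fun μ _ => ?_
        rw [za23_mS]
        congr 1
        funext m' a'
        exact za23_pS f _ _ _ t m' a'
    · exact Finset.sum_congr rfl fun s _ => za23_mR f _ _ _ a
  | .inr (.inr (.inr (.inr (.inr (.inr (.inr (.inr (.inr (.inr (.inl (a', b', m, a))))))))))) =>
    simp only [dfct, map_sub, map_sum, map_mul, map_add]
    congr 1
    · exact za23_bS f _ _ m a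
    · congr 1
      · congr 1
        refine Finset.sum_congr rfl fun μ _ => ?_
        rw [za23_mS]
        congr 1
        funext m' a'
        exact za23_pS f _ _ _ t m' a'
      · exact Finset.sum_congr rfl fun s _ => za23_mR f _ _ _ a
  | .inr (.inr (.inr (.inr (.inr (.inr (.inr (.inr (.inr (.inr (.inr (.inl (i, j)))))))))))) =>
    simp only [dfct]
    split_ifs
    · exact map_zero f
    · simp only [map_sub, map_sum, map_mul]; rfl
  | .inr (.inr (.inr (.inr (.inr (.inr (.inr (.inr (.inr (.inr (.inr (.inr (.inl s)))))))))))) =>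
    simp only [dfct, map_sub, map_sum, map_mul]; rfl
  | .inr (.inr (.inr (.inr (.inr (.inr (.inr (.inr (.inr (.inr (.inr (.inr (.inr (g, h))))))))))))) =>
    simp only [dfct]
    rw [RingHom.map_det]
    congr 1
    ext i j
    show f (mR _ _ _ _) = mR _ _ _ _
    rw [za23_mR]
    congr 1
    funext m
    exact za23_bR f _ m

end Df

/-- ZA2: the relations are polynomial. -/
theorem exists_system_proved (D n G r L c q K t : ℕ) :
    ∃ F : Finset (MvPolynomial (Ix D n G r L c) (MvPolynomial (Fin D) ℤ)),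
      ∀ (B : Type u) [CommRing B] (γ : MvPolynomial (Fin D) ℤ →+* B) (T : Ix D n G r L c → B),
        ZRel q K t (fun i => γ (MvPolynomial.X i)) T ↔
          ∀ f ∈ F, MvPolynomial.eval₂Hom γ T f = 0 := by
  classical
  refine ⟨Finset.univ.image (dfct q K t (fun i => MvPolynomial.C (MvPolynomial.X i))
    (fun i => MvPolynomial.X i)), fun B _ γ T => ?_⟩
  rw [za23_rel]
  have key : ∀ i, MvPolynomial.eval₂Hom γ T (dfct q K t
      (fun i => (MvPolynomial.C (MvPolynomial.X i) :
        MvPolynomial (Ix D n G r L c) (MvPolynomial (Fin D) ℤ)))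
      (fun i => MvPolynomial.X i) i) = dfct q K t (fun i => γ (MvPolynomial.X i)) T i := by
    intro i
    rw [za23_nat]
    congr 1
    · funext j
      simp
    · funext j
      simp
  constructor
  · intro h f hf
    obtain ⟨i, _, rfl⟩ := Finset.mem_image.1 hf
    rw [key]
    exact h i
  · intro h i
    rw [← key]
    exact h _ (Finset.mem_image_of_mem _ (Finset.mem_univ i))

/-- ZA3: relations are preserved by ring homomorphisms. -/
theorem ZRel.map_proved {D n G r L c q K t : ℕ} {B : Type u} [CommRing B] {B' : Type v}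
    [CommRing B'] {y : Fin D → B} {T : Ix D n G r L c → B} (h : ZRel q K t y T) (f : B →+* B') :
    ZRel q K t (fun i => f (y i)) (fun i => f (T i)) := by
  rw [za23_rel] at h ⊢
  intro i
  rw [← za23_nat, h i, map_zero]

end Vale.Agent.P202Z
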