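import Vale.Agent.P202Z.Defs
import Vale.Agent.P202Y.YB3

/-! # P202Z, module ZB1: the ring `R_B` is local -/

namespace Vale.Agent.P202Z

open IsLocalRing Vale.Agent.P202Y

universe u v w

variable {B : Type u} [CommRing B] {D n G r L c q K t : ℕ} {y : Fin D → B}
  {T : Ix D n G r L c → B}

theorem ZB1_vec_prod (h : SCAx (Zc T)) (l : List (PB T h)) :
    SC.vec l.prod = lR (Zc T) (l.map fun x => SC.vec x) := by
  induction l with
  | nil => rfl
  | cons x l ih =>
    rw [List.prod_cons, PB_mul_vec, ih]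
    rfl

theorem ZB1_vec_pow (h : SCAx (Zc T)) (i : Fin (n + 1)) (k : ℕ) :
    SC.vec ((SC.bas (c := Zc T) (h := h) i) ^ k) = lR (Zc T) (List.replicate k (bR B n i)) := by
  have h1 := ZB1_vec_prod h (List.replicate k (SC.bas i))
  rw [List.prod_replicate, List.map_replicate] at h1
  rw [h1]
  congr 2
  funext m
  rw [SC.vec_bas]
  rfl

/-- the `p_(i+1)` are nilpotent modulo `y` and `I_B` -/
theorem ZB1_pow_mem (h : ZRel q K t y T) (i : Fin n) :
    (Ideal.Quotient.mk (IB T h.axP) (SC.bas (c := Zc T) (h := h.axP) i.succ)) ^ (c + 1) ∈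
      (Ideal.span (Set.range y)).map (algebraMap B (RQ T h.axP)) := by
  have hsplit : (SC.bas (c := Zc T) (h := h.axP) i.succ) ^ (c + 1) =
      (SC.vec.symm (fun a => ∑ ν, ∑ g : Fin c → Fin n ⊕ Fin D, y ν *
        mR (Zc T) (fun a => T (.red (fun _ => i) ν g a))
          (lR (Zc T) (List.ofFn fun j => gen y n (g j))) a) : PB T h.axP) +
      ∑ s, SC.vec.symm (Zi T s) * SC.vec.symm (fun a => T (.rd (fun _ => i) s a)) := by
    refine SC.ext' fun a => ?_
    rw [ZB1_vec_pow, ← List.ofFn_const, h.red (fun _ => i) a]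
    simp only [map_add, map_sum, Pi.add_apply, Finset.sum_apply]
    rfl
  rw [← map_pow, hsplit, map_add, map_sum (Ideal.Quotient.mk (IB T h.axP)) _ Finset.univ]
  refine Ideal.add_mem _ ?_ ?_
  · have h1 : (SC.vec.symm (fun a => ∑ ν, ∑ g : Fin c → Fin n ⊕ Fin D, y ν *
        mR (Zc T) (fun a => T (.red (fun _ => i) ν g a))
          (lR (Zc T) (List.ofFn fun j => gen y n (g j))) a) : PB T h.axP) ∈
        (Ideal.span (Set.range y)).map (algebraMap B (PB T h.axP)) := by
      rw [YB3_mem_map]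
      intro m
      change (∑ ν, ∑ g : Fin c → Fin n ⊕ Fin D, y ν *
        mR (Zc T) (fun a => T (.red (fun _ => i) ν g a))
          (lR (Zc T) (List.ofFn fun j => gen y n (g j))) m) ∈ Ideal.span (Set.range y)
      refine Ideal.sum_mem _ fun ν _ => Ideal.sum_mem _ fun g _ => ?_
      exact Ideal.mul_mem_right _ _ (Ideal.subset_span ⟨ν, rfl⟩)
    have h2 := Ideal.mem_map_of_mem (Ideal.Quotient.mk (IB T h.axP)) h1
    rw [Ideal.map_map] at h2
    exact h2
  · refine Ideal.sum_mem _ fun s _ => ?_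
    rw [map_mul, mk_gen, zero_mul]
    exact Ideal.zero_mem _

section loc

variable [IsLocalRing B]

theorem ZB1_c0 (hy : maximalIdeal B = Ideal.span (Set.range y)) (h : ZRel q K t y T)
    (i j : Fin (n + 1)) : residue B (Zc T i j 0) = if i = 0 ∧ j = 0 then 1 else 0 := by
  split
  · rename_i h0
    rw [h0.1, h0.2, h.runit, if_pos rfl, map_one]
  · rename_i h0
    rw [residue_eq_zero_iff, h.rc0 i j h0, hy]
    exact Ideal.sum_mem _ fun ν _ => Ideal.mul_mem_right _ _ (Ideal.subset_span ⟨ν, rfl⟩)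

/-- the residue map of `P_B` -/
noncomputable def ZB1_eps (hy : maximalIdeal B = Ideal.span (Set.range y)) (h : ZRel q K t y T) :
    PB T h.axP →+* ResidueField B where
  toFun x := residue B (SC.vec x 0)
  map_one' := by
    rw [SC.vec_one, if_pos rfl, map_one]
  map_zero' := by
    rw [map_zero, Pi.zero_apply, map_zero]
  map_add' x x' := by
    rw [map_add, Pi.add_apply, map_add]
  map_mul' x x' := by
    rw [SC.vec_mul, map_sum, Finset.sum_eq_single 0]
    · rw [map_sum, Finset.sum_eq_single 0]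
      · rw [map_mul, map_mul, ZB1_c0 hy h, if_pos ⟨rfl, rfl⟩, mul_one]
      · intro j _ hj
        rw [map_mul, ZB1_c0 hy h, if_neg (fun h0 => hj h0.2), mul_zero]
      · intro h0
        exact absurd (Finset.mem_univ _) h0
    · intro i _ hi
      rw [map_sum]
      refine Finset.sum_eq_zero fun j _ => ?_
      rw [map_mul, ZB1_c0 hy h, if_neg (fun h0 => hi h0.1), mul_zero]
    · intro h0
      exact absurd (Finset.mem_univ _) h0

theorem ZB1_eps_apply (hy : maximalIdeal B = Ideal.span (Set.range y)) (h : ZRel q K t y T)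
    (x : PB T h.axP) : ZB1_eps hy h x = residue B (SC.vec x 0) := rfl

theorem ZB1_IB (hy : maximalIdeal B = Ideal.span (Set.range y)) (h : ZRel q K t y T) :
    ∀ x ∈ IB T h.axP, ZB1_eps hy h x = 0 := by
  intro x hx
  have h1 : IB T h.axP ≤ RingHom.ker (ZB1_eps hy h) := by
    unfold IB
    rw [Ideal.span_le]
    rintro _ ⟨s, rfl⟩
    rw [SetLike.mem_coe, RingHom.mem_ker, ZB1_eps_apply, residue_eq_zero_iff, hy]
    have h2 : SC.vec (SC.vec.symm (Zi T s) : PB T h.axP) 0 = Zi T s 0 := rfl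
    rw [h2, h.gz]
    exact Ideal.sum_mem _ fun ν _ => Ideal.mul_mem_right _ _ (Ideal.subset_span ⟨ν, rfl⟩)
  exact (RingHom.mem_ker).mp (h1 hx)

/-- the residue map of `R_B` -/
noncomputable def ZB1_res (hy : maximalIdeal B = Ideal.span (Set.range y)) (h : ZRel q K t y T) :
    RQ T h.axP →+* ResidueField B := Ideal.Quotient.lift (IB T h.axP) (ZB1_eps hy h) (ZB1_IB hy h)

theorem ZB1_res_mk (hy : maximalIdeal B = Ideal.span (Set.range y)) (h : ZRel q K t y T)
    (x : PB T h.axP) : ZB1_res hy h (Ideal.Quotient.mk (IB T h.axP) x)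
      = residue B (SC.vec x 0) := rfl

/-- ZB1 -/
theorem RQ_local_proved [IsNoetherianRing B] (hy : maximalIdeal B = Ideal.span (Set.range y))
    (h : ZRel q K t y T) :
    ∃ _ : IsLocalRing (RQ T h.axP), IsLocalHom (algebraMap B (RQ T h.axP)) ∧
      (maximalIdeal (RQ T h.axP) =
        Ideal.span (Set.range fun i : Fin n => Ideal.Quotient.mk (IB T h.axP) (SC.bas i.succ)) ⊔
        Ideal.span (Set.range fun ν => algebraMap B (RQ T h.axP) (y ν))) ∧
      (∀ x : PB T h.axP, Ideal.Quotient.mk (IB T h.axP) x ∈ maximalIdeal (RQ T h.axP) ↔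
        SC.vec x 0 ∈ maximalIdeal B) ∧
      ∀ x : RQ T h.axP, ∃ b : B, x - algebraMap B (RQ T h.axP) b ∈ maximalIdeal (RQ T h.axP) := by
  have hYeq : Ideal.span (Set.range fun ν => algebraMap B (RQ T h.axP) (y ν)) =
      (maximalIdeal B).map (algebraMap B (RQ T h.axP)) := by
    rw [hy, Ideal.map_span, ← Set.range_comp]
    rfl
  rw [hYeq]
  set Y := (maximalIdeal B).map (algebraMap B (RQ T h.axP)) with hY
  set J := Ideal.span (Set.range fun i : Fin n =>
    Ideal.Quotient.mk (IB T h.axP) (SC.bas (c := Zc T) (h := h.axP) i.succ)) with hJ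
  have hsurj : Function.Surjective (ZB1_res hy h) := by
    intro z
    obtain ⟨b, rfl⟩ := residue_surjective z
    refine ⟨Ideal.Quotient.mk (IB T h.axP) (algebraMap B (PB T h.axP) b), ?_⟩
    rw [ZB1_res_mk, SC.vec_algebraMap, if_pos rfl]
  set P := RingHom.ker (ZB1_res hy h) with hP
  have hPmax : P.IsMaximal := RingHom.ker_isMaximal_of_surjective _ hsurj
  have hmem : ∀ x : PB T h.axP, Ideal.Quotient.mk (IB T h.axP) x ∈ P ↔
      SC.vec x 0 ∈ maximalIdeal B := by
    intro x
    rw [hP, RingHom.mem_ker, ZB1_res_mk, residue_eq_zero_iff]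
  have hPle : P ≤ J ⊔ Y := by
    intro z hz
    obtain ⟨x, rfl⟩ := Ideal.Quotient.mk_surjective z
    have h1 := (hmem x).mp hz
    rw [SC.eq_sum x, Fin.sum_univ_succ, SC.bas_zero, ← Algebra.algebraMap_eq_smul_one, map_add,
      map_sum]
    refine Ideal.add_mem _ (Ideal.mem_sup_right ?_) (Ideal.sum_mem _ fun i _ => ?_)
    · exact Ideal.mem_map_of_mem (algebraMap B (RQ T h.axP)) h1
    · rw [Algebra.smul_def, map_mul]
      exact Ideal.mul_mem_left _ _ (Ideal.mem_sup_left (Ideal.subset_span ⟨i, rfl⟩))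
  have hle : J ⊔ Y ≤ P := by
    refine sup_le ?_ ?_
    · rw [hJ, Ideal.span_le]
      rintro _ ⟨i, rfl⟩
      rw [SetLike.mem_coe, hmem, SC.vec_bas, if_neg (Fin.succ_ne_zero i).symm]
      exact Ideal.zero_mem _
    · rw [hY, Ideal.map_le_iff_le_comap]
      intro b hb
      rw [Ideal.mem_comap]
      have h1 : algebraMap B (RQ T h.axP) b
          = Ideal.Quotient.mk (IB T h.axP) (algebraMap B (PB T h.axP) b) := rfl
      rw [h1, hmem, SC.vec_algebraMap, if_pos rfl]
      exact hb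
  have hPeq : P = J ⊔ Y := le_antisymm hPle hle
  have huniq : ∀ Q : Ideal (RQ T h.axP), Q.IsMaximal → Q = P := by
    intro Q hQ
    have h1 : (Q.comap (algebraMap B (RQ T h.axP))).IsMaximal :=
      Ideal.isMaximal_comap_of_isIntegral_of_isMaximal (R := B) Q
    have h2 : Q.comap (algebraMap B (RQ T h.axP)) = maximalIdeal B := eq_maximalIdeal h1
    have h3 : Y ≤ Q := by
      rw [hY, Ideal.map_le_iff_le_comap, h2]
    have h5 : J ≤ Q := by
      rw [hJ, Ideal.span_le]
      rintro _ ⟨i, rfl⟩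
      refine hQ.isPrime.mem_of_pow_mem (c + 1) (h3 ?_)
      have h6 := ZB1_pow_mem h i
      rw [← hy] at h6
      exact h6
    have h4 : P ≤ Q := by
      rw [hPeq]
      exact sup_le h5 h3
    exact (hPmax.eq_of_le hQ.ne_top h4).symm
  have hloc : IsLocalRing (RQ T h.axP) := IsLocalRing.of_unique_max_ideal ⟨P, hPmax, huniq⟩
  have hmaxP : maximalIdeal (RQ T h.axP) = P := (eq_maximalIdeal hPmax).symm
  have hlh : IsLocalHom (algebraMap B (RQ T h.axP)) := by
    refine ⟨fun b hb => ?_⟩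
    by_contra hnu
    have h1 : b ∈ maximalIdeal B := hnu
    have h2 : algebraMap B (RQ T h.axP) b ∈ maximalIdeal (RQ T h.axP) := by
      rw [hmaxP, hPeq]
      exact Ideal.mem_sup_right (Ideal.mem_map_of_mem _ h1)
    exact h2 hb
  refine ⟨hloc, hlh, hmaxP.trans hPeq, fun x => ?_, fun x => ?_⟩
  · rw [hmaxP]
    exact hmem x
  · obtain ⟨x, rfl⟩ := Ideal.Quotient.mk_surjective x
    refine ⟨SC.vec x 0, ?_⟩
    have h1 : algebraMap B (RQ T h.axP) (SC.vec x 0)
          = Ideal.Quotient.mk (IB T h.axP) (algebraMap B (PB T h.axP) (SC.vec x 0)) := rfl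
    rw [h1, ← map_sub, hmaxP, hmem, map_sub, Pi.sub_apply, SC.vec_algebraMap, if_pos rfl, sub_self]
    exact Ideal.zero_mem _

end loc

end Vale.Agent.P202Z
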