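import Vale.Agent.P202Z.Defs
import Vale.Agent.P202Y.YB2

/-! # P202Z, module ZB2: the reduction equations (helper33, variant of YB2 by helper62) -/

namespace Vale.Agent.P202Z

open IsLocalRing Vale.Agent.P202Y

universe u v w

section

variable {B : Type u} [CommRing B] {D n G r L c q K t : ℕ} {y : Fin D → B}
  {T : Ix D n G r L c → B}

theorem zb2_lR (h : SCAx (Zc T)) (l : List (PB T h)) :
    SC.vec l.prod = lR (Zc T) (l.map fun x => SC.vec x) := by
  induction l with
  | nil =>
    funext m
    rfl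
  | cons a l ih =>
    rw [List.prod_cons, PB_mul_vec, ih]
    rfl

/-- the generators of the maximal ideal, in `P_B` -/
noncomputable def zb2_gen (h : SCAx (Zc T)) (y : Fin D → B) : Fin n ⊕ Fin D → PB T h :=
  Sum.elim (fun i => SC.bas i.succ) (fun ν => algebraMap B (PB T h) (y ν))

theorem zb2_gen_vec (h : SCAx (Zc T)) (y : Fin D → B) (i : Fin n ⊕ Fin D) :
    SC.vec (zb2_gen h y i) = gen y n i := by
  funext a
  cases i with
  | inl i => exact SC.vec_bas _ _
  | inr ν =>
    change SC.vec (algebraMap B (PB T h) (y ν)) a = y ν * oR B n a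
    rw [SC.vec_algebraMap]
    unfold oR
    split <;> simp

theorem zb2_key (h : ZRel q K t y T) (f : Fin (c + 1) → Fin n) :
    (List.ofFn fun j => (SC.bas (f j).succ : PB T h.axP)).prod =
      (∑ ν, ∑ g : Fin c → Fin n ⊕ Fin D, algebraMap B (PB T h.axP) (y ν) *
        ((SC.vec.symm (fun a => T (.red f ν g a)) : PB T h.axP) *
          (List.ofFn fun j => zb2_gen h.axP y (g j)).prod)) +
      ∑ s, SC.vec.symm (Zi T s) * SC.vec.symm (fun a => T (.rd f s a)) := by
  refine SC.ext' fun a => ?_
  rw [zb2_lR, List.map_ofFn]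
  have e1 : ((fun x => SC.vec x) ∘ fun j => (SC.bas (f j).succ : PB T h.axP))
      = fun j => bR B n (f j).succ := by
    funext j m
    exact SC.vec_bas _ _
  rw [e1, h.red f a, map_add, map_sum, map_sum, Pi.add_apply, Finset.sum_apply, Finset.sum_apply]
  congr 1
  refine Finset.sum_congr rfl fun ν _ => ?_
  rw [map_sum, Finset.sum_apply]
  refine Finset.sum_congr rfl fun g _ => ?_
  rw [← Algebra.smul_def, map_smul, Pi.smul_apply, smul_eq_mul, PB_mul_vec,
    LinearEquiv.apply_symm_apply, zb2_lR, List.map_ofFn]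
  have e2 : ((fun x => SC.vec x) ∘ fun j => zb2_gen h.axP y (g j)) = fun j => gen y n (g j) := by
    funext j
    exact zb2_gen_vec _ _ _
  rw [e2]

end

section B

variable {B : Type u} [CommRing B] [IsLocalRing B] [IsNoetherianRing B] {D n G r L c q K t : ℕ}
  {y : Fin D → B} {T : Ix D n G r L c → B}

/-- ZB2: the reduction equations: `m^(c+1) ≤ (y) m^c`, hence `m^(N+c) ≤ (y)^N`. -/
theorem RQ_red_proved (hy : maximalIdeal B = Ideal.span (Set.range y)) (h : ZRel q K t y T)
    [IsLocalRing (RQ T h.axP)]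
    (hm : maximalIdeal (RQ T h.axP) =
        Ideal.span (Set.range fun i : Fin n => Ideal.Quotient.mk (IB T h.axP) (SC.bas i.succ)) ⊔
        Ideal.span (Set.range fun ν => algebraMap B (RQ T h.axP) (y ν))) (N : ℕ) :
    maximalIdeal (RQ T h.axP) ^ (N + c) ≤
      Ideal.span (Set.range fun ν => algebraMap B (RQ T h.axP) (y ν)) ^ N := by
  have hgen : ∀ i, Ideal.Quotient.mk (IB T h.axP) (zb2_gen h.axP y i) ∈
      maximalIdeal (RQ T h.axP) := by
    intro i
    rw [hm]
    cases i with
    | inl i => exact Ideal.mem_sup_left (Ideal.subset_span ⟨i, rfl⟩)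
    | inr ν => exact Ideal.mem_sup_right (Ideal.subset_span ⟨ν, rfl⟩)
  have h1 : maximalIdeal (RQ T h.axP) ^ (c + 1) ≤
      Ideal.span (Set.range fun ν => algebraMap B (RQ T h.axP) (y ν)) *
        maximalIdeal (RQ T h.axP) ^ c := by
    conv_lhs => rw [hm]
    refine le_trans (yb2_sup_pow _ _ _) ?_
    rw [← hm]
    refine sup_le ?_ le_rfl
    refine le_trans (yb2_span_pow _ _) ?_
    rw [Ideal.span_le]
    rintro x ⟨f, rfl⟩
    change (List.ofFn fun j => Ideal.Quotient.mk (IB T h.axP) (SC.bas (f j).succ)).prod ∈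
      Ideal.span (Set.range fun ν => algebraMap B (RQ T h.axP) (y ν)) *
        maximalIdeal (RQ T h.axP) ^ c
    have e3 : (List.ofFn fun j => Ideal.Quotient.mk (IB T h.axP) (SC.bas (f j).succ)).prod =
        Ideal.Quotient.mk (IB T h.axP)
          (List.ofFn fun j => (SC.bas (f j).succ : PB T h.axP)).prod := by
      rw [map_list_prod, List.map_ofFn]
      rfl
    rw [e3, zb2_key h f, map_add, map_sum, map_sum]
    refine Ideal.add_mem _ (Ideal.sum_mem _ fun ν _ => ?_) (Ideal.sum_mem _ fun s _ => ?_)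
    · rw [map_sum]
      refine Ideal.sum_mem _ fun g _ => ?_
      rw [map_mul, map_mul]
      refine Ideal.mul_mem_mul (Ideal.subset_span ⟨ν, rfl⟩) ?_
      refine Ideal.mul_mem_left _ _ ?_
      rw [map_list_prod, List.map_ofFn]
      exact yb2_prod_mem _ _ _ fun j => hgen _
    · rw [map_mul, mk_gen, zero_mul]
      exact Ideal.zero_mem _
  have h2 : maximalIdeal (RQ T h.axP) ^ (N + c) ≤
      Ideal.span (Set.range fun ν => algebraMap B (RQ T h.axP) (y ν)) ^ N *
        maximalIdeal (RQ T h.axP) ^ c := by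
    induction N with
    | zero =>
      rw [zero_add, pow_zero, one_mul]
    | succ N ih =>
      have e1 : N + 1 + c = (c + 1) + N := by ring
      rw [e1, pow_add]
      refine le_trans (Ideal.mul_mono_left h1) ?_
      rw [mul_assoc, ← pow_add, add_comm c N]
      refine le_trans (Ideal.mul_mono_right ih) ?_
      rw [← mul_assoc, pow_succ']
  exact h2.trans Ideal.mul_le_left

end B

end Vale.Agent.P202Z
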