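import Vale.Agent.P202Z.Defs

/-! # P202Z, module ZB3: the vanishing minors give the rank of `R_B` -/

namespace Vale.Agent.P202Z

open Vale.Agent.P202Y

universe u v w

/-- a matrix with linearly independent rows over a field has a nonzero minor -/
private theorem zb3_minor {K : Type u} [Field K] {q m : ℕ} (A : Matrix (Fin q) (Fin m) K)
    (hA : LinearIndependent K A.row) : ∃ h : Fin q → Fin m, (A.submatrix id h).det ≠ 0 := by
  have h1 : A.rank = q := by
    have := hA.rank_matrix
    simpa using this
  obtain ⟨f, hf1, -, hf3⟩ := Submodule.exists_fun_fin_finrank_span_eq K (Set.range A.col)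
  have h2 : Module.finrank K (Submodule.span K (Set.range A.col)) = q := by
    rw [← Matrix.rank_eq_finrank_span_cols, h1]
  set f' : Fin q → (Fin q → K) := fun i => f (Fin.cast h2.symm i) with hf'
  have hf1' : ∀ i, f' i ∈ Set.range A.col := fun i => hf1 _
  have hf3' : LinearIndependent K f' := hf3.comp _ (Fin.cast_injective _)
  choose h hh using hf1'
  refine ⟨h, ?_⟩
  have h3 : (A.submatrix id h).col = f' := by
    funext i
    rw [← hh i]
    rfl
  have h4 : LinearIndependent K (A.submatrix id h).col := by rw [h3]; exact hf3'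
  have h5 := (Matrix.isUnit_iff_isUnit_det _).1 (Matrix.linearIndependent_cols_iff_isUnit.1 h4)
  exact h5.ne_zero

variable {B : Type u} [CommRing B] [IsLocalRing B] [IsNoetherianRing B] {D n G r L c q K t : ℕ}
  {y : Fin D → B} {T : Ix D n G r L c → B}

/-- ZB3: the vanishing minors give the rank of `R_B` (`B` a domain). -/
theorem RQ_rank_proved [IsDomain B] (h : ZRel q K t y T) (s : ℕ) (hs : s + q = n + 2)
    (hq : 1 ≤ q) :
    ∃ f : (Fin s → B) →ₗ[B] RQ T h.axP, Function.Injective f := by
  set F := FractionRing B with hF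
  set φ : PB T h.axP →ₗ[B] (Fin (n + 1) → F) :=
    ((Algebra.linearMap B F).compLeft (Fin (n + 1))).comp (SC.vec (h := h.axP)).toLinearMap with hφ
  have hφa : ∀ (x : PB T h.axP) (i : Fin (n + 1)), φ x i = algebraMap B F (SC.vec x i) :=
    fun x i => rfl
  set w : Fin G × Fin (n + 1) → (Fin (n + 1) → F) :=
    fun a => φ (SC.vec.symm (mR (Zc T) (bR B n a.2) (Zi T a.1))) with hw
  set W : Submodule F (Fin (n + 1) → F) := Submodule.span F (Set.range w) with hW
  -- the rank of the relations
  have hrank : Module.finrank F W < q := by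
    by_contra hcon
    push Not at hcon
    obtain ⟨f, hf1, -, hf3⟩ := Submodule.exists_fun_fin_finrank_span_eq F (Set.range w)
    set f' : Fin q → (Fin (n + 1) → F) := fun i => f (Fin.castLE hcon i) with hf'
    have hf3' : LinearIndependent F f' := hf3.comp _ (Fin.castLE_injective hcon)
    have hf1' : ∀ i, f' i ∈ Set.range w := fun i => hf1 _
    choose g hg using hf1'
    obtain ⟨k, hk⟩ := zb3_minor (Matrix.of fun i j => w (g i) j) (by
      have h3 : (Matrix.of fun i j => w (g i) j).row = f' := by
        funext i
        rw [← hg i]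
        rfl
      rw [h3]
      exact hf3')
    refine hk ?_
    have h4 := congrArg (algebraMap B F) (h.minors g k)
    rw [RingHom.map_det, map_zero] at h4
    exact h4
  -- the quotient
  set π : PB T h.axP →ₗ[B] ((Fin (n + 1) → F) ⧸ W) := (W.mkQ.restrictScalars B).comp φ with hπ
  have hgen : ∀ (a : PB T h.axP) (j : Fin G), π (a * SC.vec.symm (Zi T j)) = 0 := by
    intro a j
    have h1 : a * SC.vec.symm (Zi T j) =
        ∑ i, SC.vec a i • (SC.vec.symm (mR (Zc T) (bR B n i) (Zi T j)) : PB T h.axP) := by
      conv_lhs => rw [SC.eq_sum a]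
      rw [Finset.sum_mul]
      refine Finset.sum_congr rfl fun i _ => ?_
      rw [smul_mul_assoc, PB_symm_mul]
      congr 2
      refine SC.ext' fun m => ?_
      rw [SC.vec_bas]
      rfl
    rw [h1, map_sum]
    refine Finset.sum_eq_zero fun i _ => ?_
    rw [map_smul]
    have h2 : π (SC.vec.symm (mR (Zc T) (bR B n i) (Zi T j)) : PB T h.axP) = 0 := by
      change W.mkQ (w (j, i)) = 0
      rw [Submodule.mkQ_apply, Submodule.Quotient.mk_eq_zero]
      exact Submodule.subset_span ⟨(j, i), rfl⟩
    rw [h2, smul_zero]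
  have hker : ∀ x ∈ IB T h.axP, π x = 0 := by
    intro x hx
    have key : ∀ x ∈ IB T h.axP, ∀ a, π (a * x) = 0 := by
      intro x hx
      refine Submodule.span_induction (p := fun x _ => ∀ a, π (a * x) = 0) ?_ ?_ ?_ ?_ hx
      · rintro _ ⟨j, rfl⟩ a
        exact hgen a j
      · intro a
        rw [mul_zero, map_zero]
      · intro x y _ _ hx hy a
        rw [mul_add, map_add, hx, hy, add_zero]
      · intro b x _ hx a
        rw [smul_eq_mul, ← mul_assoc]
        exact hx _
    have := key x hx 1
    rwa [one_mul] at this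
  -- the images of the basis vectors span the quotient
  have hspan : Submodule.span F (Set.range fun i : Fin (n + 1) => π (SC.bas i)) = ⊤ := by
    rw [eq_top_iff]
    intro z _
    obtain ⟨x, rfl⟩ := W.mkQ_surjective z
    have h1 : x = ∑ i, x i • (Pi.single i (1 : F) : Fin (n + 1) → F) := by
      funext j
      rw [Finset.sum_apply]
      simp [Pi.single_apply]
    rw [h1, map_sum]
    refine Submodule.sum_mem _ fun i _ => ?_
    rw [map_smul]
    refine Submodule.smul_mem _ _ (Submodule.subset_span ⟨i, ?_⟩)
    change W.mkQ (φ (SC.bas i)) = _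
    congr 1
    funext j
    rw [hφa, SC.vec_bas, Pi.single_apply]
    split_ifs <;> simp
  obtain ⟨f, hf1, -, hf3⟩ := Submodule.exists_fun_fin_finrank_span_eq F
    (Set.range fun i : Fin (n + 1) => π (SC.bas i))
  have hfr : s ≤ Module.finrank F
      (Submodule.span F (Set.range fun i : Fin (n + 1) => π (SC.bas i))) := by
    rw [hspan, finrank_top]
    have h1 := Submodule.finrank_quotient_add_finrank W
    rw [Module.finrank_fin_fun] at h1
    omega
  set f' : Fin s → ((Fin (n + 1) → F) ⧸ W) := fun i => f (Fin.castLE hfr i) with hf'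
  have hf3' : LinearIndependent F f' := hf3.comp _ (Fin.castLE_injective hfr)
  have hf1' : ∀ i, f' i ∈ Set.range fun i : Fin (n + 1) => π (SC.bas i) := fun i => hf1 _
  choose g hg using hf1'
  have hf4 : LinearIndependent B f' := by
    refine hf3'.restrict_scalars ?_
    intro a b hab
    simp only [Algebra.smul_def, mul_one] at hab
    exact IsFractionRing.injective B F hab
  refine ⟨(Ideal.Quotient.mkₐ B (IB T h.axP)).toLinearMap.comp
    (Fintype.linearCombination B (fun i => (SC.bas (g i) : PB T h.axP))), ?_⟩
  rw [injective_iff_map_eq_zero]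
  intro x hx
  have h1 : (∑ i, x i • (SC.bas (g i) : PB T h.axP)) ∈ IB T h.axP := by
    rw [← Ideal.Quotient.eq_zero_iff_mem]
    exact hx
  have h2 := hker _ h1
  rw [map_sum] at h2
  have h3 : ∑ i, x i • f' i = 0 := by
    rw [← h2]
    refine Finset.sum_congr rfl fun i _ => ?_
    rw [map_smul, ← hg i]
  funext i
  exact Fintype.linearIndependent_iff.1 hf4 x h3 i

end Vale.Agent.P202Z
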