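import Vale.Agent.P202Z.Defs

/-! # P202Z, module ZB4: `S_B` is local (helper98; variant of YB4 of helper74) -/

namespace Vale.Agent.P202Z

open IsLocalRing Vale.Agent.P202Y

universe u v w

variable {B : Type u} [CommRing B] {D n G r L c q K t : ℕ} {y : Fin D → B}
  {T : Ix D n G r L c → B}

theorem ZB4_vec {h : SCAx (Zc T)} (h' : SCAx (dQ T h)) (x : Fin (r + 1) → Fin (n + 1) → B)
    (m : Fin (r + 1)) :
    SC.vec (mkQ h' x) m = Ideal.Quotient.mk (IB T h) (SC.vec.symm (x m)) := rfl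

theorem ZB4_mul {h : SCAx (Zc T)} (h' : SCAx (dQ T h)) (x x' : Fin (r + 1) → Fin (n + 1) → B) :
    mkQ h' (mS (Zc T) (Zd T) x x') = mkQ h' x * mkQ h' x' := by
  refine SC.ext' fun m => ?_
  rw [ZB4_vec, SC.vec_mul]
  unfold mS
  rw [map_sum, map_sum]
  refine Finset.sum_congr rfl fun i _ => ?_
  rw [map_sum, map_sum]
  refine Finset.sum_congr rfl fun j _ => ?_
  rw [ZB4_vec, ZB4_vec, PB_symm_mul, PB_symm_mul, map_mul, map_mul]
  rfl

theorem ZB4_one {h : SCAx (Zc T)} (h' : SCAx (dQ T h)) :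
    mkQ h' (bS B n r 0 0) = 1 := by
  refine SC.ext' fun m => ?_
  rw [ZB4_vec, SC.vec_one]
  by_cases hm : m = 0
  · rw [if_pos hm]
    have e : (SC.vec.symm (bS B n r 0 0 m) : PB T h) = 1 := by
      refine SC.ext' fun a => ?_
      change bS B n r 0 0 m a = _
      rw [SC.vec_one]
      unfold bS
      simp [hm]
    rw [e, map_one]
  · rw [if_neg hm]
    have e : (SC.vec.symm (bS B n r 0 0 m) : PB T h) = 0 := by
      refine SC.ext' fun a => ?_
      change bS B n r 0 0 m a = _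
      unfold bS
      simp [hm]
    rw [e, map_zero]

theorem ZB4_bas {h : SCAx (Zc T)} (h' : SCAx (dQ T h)) (j : Fin (r + 1)) :
    mkQ h' (bS B n r j 0) = SC.bas j := by
  refine SC.ext' fun m => ?_
  rw [ZB4_vec, SC.vec_bas]
  by_cases hm : m = j
  · rw [if_pos hm]
    have e : (SC.vec.symm (bS B n r j 0 m) : PB T h) = 1 := by
      refine SC.ext' fun a => ?_
      change bS B n r j 0 m a = _
      rw [SC.vec_one]
      unfold bS
      simp [hm]
    rw [e, map_one]
  · rw [if_neg hm]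
    have e : (SC.vec.symm (bS B n r j 0 m) : PB T h) = 0 := by
      refine SC.ext' fun a => ?_
      change bS B n r j 0 m a = _
      unfold bS
      simp [hm]
    rw [e, map_zero]

theorem ZB4_pow {h : SCAx (Zc T)} (h' : SCAx (dQ T h)) (x : Fin (r + 1) → Fin (n + 1) → B)
    (k : ℕ) : mkQ h' (pS (Zc T) (Zd T) x k) = mkQ h' x ^ k := by
  induction k with
  | zero =>
    rw [pow_zero]
    exact ZB4_one h'
  | succ k ih =>
    rw [pow_succ, ← ih, ← ZB4_mul]
    rfl

/-- ZB4: `S_B` is local. -/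
theorem SQ_local_proved [IsLocalRing B] [IsNoetherianRing B]
    (hy : maximalIdeal B = Ideal.span (Set.range y)) (h : ZRel q K t y T)
    [IsLocalRing (RQ T h.axP)]
    (hm : maximalIdeal (RQ T h.axP) =
        Ideal.span (Set.range fun i : Fin n => Ideal.Quotient.mk (IB T h.axP) (SC.bas i.succ)) ⊔
        Ideal.span (Set.range fun ν => algebraMap B (RQ T h.axP) (y ν)))
    (h0 : ∀ x : PB T h.axP, Ideal.Quotient.mk (IB T h.axP) x ∈ maximalIdeal (RQ T h.axP) ↔
        SC.vec x 0 ∈ maximalIdeal B) :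
    ∃ _ : IsLocalRing (SQ T h.axP h.axS), IsLocalHom (algebraMap (RQ T h.axP) (SQ T h.axP h.axS)) ∧
      (∀ x : Fin (r + 1) → Fin (n + 1) → B, x 0 0 ∈ maximalIdeal B →
        mkQ h.axS x ∈ maximalIdeal (SQ T h.axP h.axS)) ∧
      ∀ x : B, x ∈ maximalIdeal B → algebraMap (RQ T h.axP) (SQ T h.axP h.axS)
        (algebraMap B (RQ T h.axP) x) ∈ maximalIdeal (SQ T h.axP h.axS) := by
  have _ := hm
  have : Algebra.IsIntegral (RQ T h.axP) (SQ T h.axP h.axS) := Algebra.IsIntegral.of_finite _ _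
  -- every maximal ideal of `S_B` contains `m_R S_B` and the `e_j`
  have hmax : ∀ M : Ideal (SQ T h.axP h.axS), M.IsMaximal → ∀ x : SQ T h.axP h.axS,
      x ∈ M ↔ SC.vec x 0 ∈ maximalIdeal (RQ T h.axP) := by
    intro M hM x
    have hcomap : M.comap (algebraMap (RQ T h.axP) (SQ T h.axP h.axS)) =
        maximalIdeal (RQ T h.axP) := by
      have := Ideal.isMaximal_comap_of_isIntegral_of_isMaximal (R := RQ T h.axP) M
      exact IsLocalRing.eq_maximalIdeal this
    have hin : ∀ a : RQ T h.axP, a ∈ maximalIdeal (RQ T h.axP) →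
        algebraMap (RQ T h.axP) (SQ T h.axP h.axS) a ∈ M := by
      intro a ha
      rw [← hcomap] at ha
      exact ha
    have hbas : ∀ j : Fin r, (SC.bas j.succ : SQ T h.axP h.axS) ∈ M := by
      intro j
      apply hM.isPrime.mem_of_pow_mem K
      rw [SC.eq_sum ((SC.bas j.succ : SQ T h.axP h.axS) ^ K)]
      refine Ideal.sum_mem _ fun m _ => ?_
      rw [Algebra.smul_def]
      refine Ideal.mul_mem_right _ _ (hin _ ?_)
      rw [← ZB4_bas h.axS, ← ZB4_pow, ZB4_vec, h0]
      change pS (Zc T) (Zd T) (bS B n r j.succ 0) K m 0 ∈ _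
      rw [h.nl j m, hy]
      exact Ideal.sum_mem _ fun ν _ => Ideal.mul_mem_right _ _ (Ideal.subset_span ⟨ν, rfl⟩)
    have hdec : x = algebraMap (RQ T h.axP) (SQ T h.axP h.axS) (SC.vec x 0) +
        ∑ j : Fin r, SC.vec x j.succ • (SC.bas j.succ : SQ T h.axP h.axS) := by
      conv_lhs => rw [SC.eq_sum x]
      rw [Fin.sum_univ_succ, SC.bas_zero, Algebra.algebraMap_eq_smul_one]
    have hsum : ∑ j : Fin r, SC.vec x j.succ • (SC.bas j.succ : SQ T h.axP h.axS) ∈ M := by
      refine Ideal.sum_mem _ fun i _ => ?_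
      rw [Algebra.smul_def]
      exact Ideal.mul_mem_left _ _ (hbas i)
    have hiff : x ∈ M ↔ algebraMap (RQ T h.axP) (SQ T h.axP h.axS) (SC.vec x 0) ∈ M := by
      constructor
      · intro hx
        have : algebraMap (RQ T h.axP) (SQ T h.axP h.axS) (SC.vec x 0) =
            x - ∑ j : Fin r, SC.vec x j.succ • (SC.bas j.succ : SQ T h.axP h.axS) :=
          eq_sub_of_add_eq hdec.symm
        rw [this]
        exact Ideal.sub_mem _ hx hsum
      · intro hx
        rw [hdec]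
        exact Ideal.add_mem _ hx hsum
    rw [hiff, ← hcomap]
    rfl
  have hnt : Nontrivial (SQ T h.axP h.axS) := inferInstance
  obtain ⟨M₀, hM₀⟩ := Ideal.exists_maximal (SQ T h.axP h.axS)
  have hloc : IsLocalRing (SQ T h.axP h.axS) := by
    refine IsLocalRing.of_unique_max_ideal ⟨M₀, hM₀, fun M hM => ?_⟩
    ext x
    rw [hmax M hM, hmax M₀ hM₀]
  have hmem : ∀ x : SQ T h.axP h.axS, x ∈ maximalIdeal (SQ T h.axP h.axS) ↔
      SC.vec x 0 ∈ maximalIdeal (RQ T h.axP) := fun x => hmax _ (maximalIdeal.isMaximal _) x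
  have halg : ∀ b : B, b ∈ maximalIdeal B →
      algebraMap B (RQ T h.axP) b ∈ maximalIdeal (RQ T h.axP) := by
    intro b hb
    have h1 : algebraMap B (RQ T h.axP) b =
        Ideal.Quotient.mk (IB T h.axP) (algebraMap B (PB T h.axP) b) := rfl
    rw [h1, h0, SC.vec_algebraMap, if_pos rfl]
    exact hb
  refine ⟨hloc, ⟨fun a ha => ?_⟩, fun x hx => ?_, fun x hx => ?_⟩
  · by_contra hna
    have h1 : a ∈ maximalIdeal (RQ T h.axP) := (mem_maximalIdeal _).mpr hna
    have h2 : algebraMap (RQ T h.axP) (SQ T h.axP h.axS) a ∈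
        maximalIdeal (SQ T h.axP h.axS) := by
      rw [hmem, SC.vec_algebraMap, if_pos rfl]
      exact h1
    exact (mem_maximalIdeal _).mp h2 ha
  · rw [hmem, ZB4_vec, h0]
    exact hx
  · rw [hmem, SC.vec_algebraMap, if_pos rfl]
    exact halg x hx

end Vale.Agent.P202Z
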