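import Vale.Agent.P202Z.Defs
import Vale.Agent.P202Y.YB5

/-! # P202Z, module ZB5: `length(S_B / (z^t)) ≤ L` (helper3) -/

namespace Vale.Agent.P202Z

open IsLocalRing Vale.Agent.P202Y

universe u v w

variable {B : Type u} [CommRing B] {D n G r L c q K t : ℕ} {y : Fin D → B}
  {T : Ix D n G r L c → B}

theorem ZB5_vec {h : SCAx (Zc T)} (h' : SCAx (dQ T h)) (x : Fin (r + 1) → Fin (n + 1) → B)
    (m : Fin (r + 1)) :
    SC.vec (mkQ h' x) m = Ideal.Quotient.mk (IB T h) (SC.vec.symm (x m)) := rfl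

/-- `mkQ` as an additive map -/
def ZB5_hom {h : SCAx (Zc T)} (h' : SCAx (dQ T h)) :
    (Fin (r + 1) → Fin (n + 1) → B) →+ SQ T h h' where
  toFun := mkQ h'
  map_zero' := by
    refine SC.ext' fun m => ?_
    rw [ZB5_vec, map_zero]
    have e : (0 : Fin (r + 1) → Fin (n + 1) → B) m = 0 := rfl
    rw [e, map_zero, map_zero]
    rfl
  map_add' x x' := by
    refine SC.ext' fun m => ?_
    rw [map_add, Pi.add_apply, ZB5_vec, ZB5_vec, ZB5_vec, ← map_add, ← map_add]
    rfl

theorem ZB5_hom_apply {h : SCAx (Zc T)} (h' : SCAx (dQ T h))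
    (x : Fin (r + 1) → Fin (n + 1) → B) : ZB5_hom h' x = mkQ h' x := rfl

theorem ZB5_mul {h : SCAx (Zc T)} (h' : SCAx (dQ T h)) (x x' : Fin (r + 1) → Fin (n + 1) → B) :
    mkQ h' (mS (Zc T) (Zd T) x x') = mkQ h' x * mkQ h' x' := by
  refine SC.ext' fun m => ?_
  rw [ZB5_vec, SC.vec_mul]
  have e : (SC.vec.symm (mS (Zc T) (Zd T) x x' m) : PB T h) =
      ∑ i, ∑ j, SC.vec.symm (x i) * SC.vec.symm (x' j) * SC.vec.symm (Zd T i j m) := by
    have e1 : mS (Zc T) (Zd T) x x' m = ∑ i, ∑ j, mR (Zc T) (mR (Zc T) (x i) (x' j)) (Zd T i j m) :=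
      rfl
    rw [e1, map_sum]
    refine Finset.sum_congr rfl fun i _ => ?_
    rw [map_sum]
    exact Finset.sum_congr rfl fun j _ => rfl
  rw [e, map_sum]
  refine Finset.sum_congr rfl fun i _ => ?_
  rw [map_sum]
  refine Finset.sum_congr rfl fun j _ => ?_
  rw [map_mul, map_mul]
  rfl

theorem ZB5_one {h : SCAx (Zc T)} (h' : SCAx (dQ T h)) :
    mkQ h' (bS B n r 0 0) = 1 := by
  refine SC.ext' fun m => ?_
  rw [ZB5_vec, SC.vec_one]
  by_cases hm : m = 0
  · rw [if_pos hm]
    have e : (SC.vec.symm (bS B n r 0 0 m) : PB T h) = 1 := by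
      refine SC.ext' fun a => ?_
      rw [SC.vec_one]
      show bS B n r 0 0 m a = _
      unfold bS
      by_cases ha : a = 0 <;> simp [hm, ha]
    rw [e, map_one]
  · rw [if_neg hm]
    have e : (SC.vec.symm (bS B n r 0 0 m) : PB T h) = 0 := by
      refine SC.ext' fun a => ?_
      rw [map_zero]
      show bS B n r 0 0 m a = 0
      unfold bS
      simp [hm]
    rw [e, map_zero]

theorem ZB5_pow {h : SCAx (Zc T)} (h' : SCAx (dQ T h)) (x : Fin (r + 1) → Fin (n + 1) → B)
    (k : ℕ) : mkQ h' (pS (Zc T) (Zd T) x k) = mkQ h' x ^ k := by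
  induction k with
  | zero => rw [pow_zero, ← ZB5_one h']; rfl
  | succ k ih => rw [pow_succ, ← ih, ← ZB5_mul]; rfl

/-- the structure map from `B` -/
noncomputable def ZB5_psi (h : SCAx (Zc T)) (h' : SCAx (dQ T h)) : B →+* SQ T h h' :=
  (algebraMap (RQ T h) (SQ T h h')).comp (algebraMap B (RQ T h))

theorem ZB5_smul {h : SCAx (Zc T)} (h' : SCAx (dQ T h)) (b : B)
    (x : Fin (r + 1) → Fin (n + 1) → B) :
    ZB5_psi h h' b * mkQ h' x = mkQ h' (fun m a => b * x m a) := by
  refine SC.ext' fun m => ?_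
  unfold ZB5_psi
  rw [RingHom.comp_apply, ← Algebra.smul_def, map_smul, Pi.smul_apply, smul_eq_mul,
    ← Algebra.smul_def, ZB5_vec, ZB5_vec]
  have e : (SC.vec.symm (fun a => b * x m a) : PB T h) = b • SC.vec.symm (x m) := rfl
  rw [e]
  rfl

theorem ZB5_ideal {h : SCAx (Zc T)} (h' : SCAx (dQ T h))
    (w : Fin G → Fin (r + 1) → Fin (n + 1) → B) :
    mkQ h' (fun m a => ∑ s, mR (Zc T) (Zi T s) (w s m) a) = 0 := by
  refine SC.ext' fun m => ?_
  rw [ZB5_vec, map_zero, Pi.zero_apply, Ideal.Quotient.eq_zero_iff_mem]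
  have e : (SC.vec.symm (fun a => ∑ s, mR (Zc T) (Zi T s) (w s m) a) : PB T h) =
      ∑ s, SC.vec.symm (Zi T s) * SC.vec.symm (w s m) := by
    refine SC.ext' fun a => ?_
    rw [map_sum, Finset.sum_apply]
    rfl
  rw [e]
  exact Ideal.sum_mem _ fun s _ => Ideal.mul_mem_right _ _ (Ideal.subset_span ⟨s, rfl⟩)

theorem ZB5_surj {h : SCAx (Zc T)} (h' : SCAx (dQ T h)) (x : SQ T h h') :
    ∃ v : Fin (r + 1) → Fin (n + 1) → B, x = mkQ h' v := by
  have h1 : ∀ m, ∃ v : PB T h, Ideal.Quotient.mk (IB T h) v = SC.vec x m := fun m =>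
    Ideal.Quotient.mk_surjective _
  choose v hv using h1
  refine ⟨fun m => SC.vec (v m), SC.ext' fun m => ?_⟩
  rw [ZB5_vec, ← hv m]
  rfl

theorem ZB5_sum {h : SCAx (Zc T)} (h' : SCAx (dQ T h)) (v : Fin (r + 1) → Fin (n + 1) → B) :
    mkQ h' v = ∑ a, ∑ b, ZB5_psi h h' (v a b) * mkQ h' (bS B n r a b) := by
  have e : ∀ a b, ZB5_psi h h' (v a b) * mkQ h' (bS B n r a b) =
      ZB5_hom h' (fun m a' => v a b * bS B n r a b m a') := fun a b => ZB5_smul h' _ _
  simp only [e]
  rw [Finset.sum_congr rfl fun a _ => (map_sum (ZB5_hom h') _ Finset.univ).symm,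
    ← map_sum (ZB5_hom h') _ Finset.univ]
  refine congrArg (ZB5_hom h') (?_ : v = _)
  funext m a
  simp only [Finset.sum_apply, bS, mul_ite, mul_one, mul_zero]
  rw [Finset.sum_eq_single m, Finset.sum_eq_single a]
  · simp
  · intro b _ hb
    rw [if_neg]
    rintro ⟨-, h2⟩
    exact hb h2.symm
  · intro h0; exact absurd (Finset.mem_univ _) h0
  · intro a' _ ha
    refine Finset.sum_eq_zero fun b _ => ?_
    rw [if_neg]
    rintro ⟨h1, -⟩
    exact ha h1.symm
  · intro h0; exact absurd (Finset.mem_univ _) h0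

/-- ZB5: `length(S_B / (z^t)) ≤ L`. -/
theorem SQ_length_proved [IsLocalRing B] [IsNoetherianRing B]
    (hy : maximalIdeal B = Ideal.span (Set.range y)) (h : ZRel q K t y T)
    [IsLocalRing (SQ T h.axP h.axS)]
    (hloc : ∀ x : B, x ∈ maximalIdeal B → algebraMap (RQ T h.axP) (SQ T h.axP h.axS)
        (algebraMap B (RQ T h.axP) x) ∈ maximalIdeal (SQ T h.axP h.axS))
    (hz : ∀ x : Fin (r + 1) → Fin (n + 1) → B, x 0 0 ∈ maximalIdeal B →
        mkQ h.axS x ∈ maximalIdeal (SQ T h.axP h.axS)) :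
    (∀ ν, mkQ h.axS (Zz T ν) ∈ maximalIdeal (SQ T h.axP h.axS)) ∧
    Module.length (SQ T h.axP h.axS) (SQ T h.axP h.axS ⧸
      Ideal.span (Set.range fun ν => mkQ h.axS (Zz T ν) ^ t)) ≤ L := by
  constructor
  · intro ν
    apply hz
    rw [h.zc ν, hy]
    exact Ideal.sum_mem _ fun μ _ => Ideal.mul_mem_right _ _ (Ideal.subset_span ⟨μ, rfl⟩)
  · set Z : Ideal (SQ T h.axP h.axS) :=
      Ideal.span (Set.range fun ν => mkQ h.axS (Zz T ν) ^ t) with hZ
    let _ : Algebra B (SQ T h.axP h.axS) := (ZB5_psi h.axP h.axS).toAlgebra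
    have hsmul : ∀ (b : B) (x : SQ T h.axP h.axS), b • x = ZB5_psi h.axP h.axS b * x :=
      fun b x => rfl
    have hzmem : ∀ (μ : Fin D) (w : Fin (r + 1) → Fin (n + 1) → B),
        mkQ h.axS (mS (Zc T) (Zd T) (pS (Zc T) (Zd T) (Zz T μ) t) w) ∈ Z := by
      intro μ w
      rw [ZB5_mul, ZB5_pow]
      exact Ideal.mul_mem_right _ _ (Ideal.subset_span ⟨μ, rfl⟩)
    have hfun : ∀ (ι : Type) [Fintype ι] (f : ι → Fin (r + 1) → Fin (n + 1) → B),
        mkQ h.axS (fun m a => ∑ i, f i m a) = ∑ i, mkQ h.axS (f i) := by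
      intro ι _ f
      have e : (fun m a => ∑ i, f i m a) = ∑ i, f i := by
        funext m a
        rw [Finset.sum_apply, Finset.sum_apply]
      rw [e]
      exact map_sum (ZB5_hom h.axS) f Finset.univ
    have hadd : ∀ f g : Fin (r + 1) → Fin (n + 1) → B,
        mkQ h.axS (fun m a => f m a + g m a) = mkQ h.axS f + mkQ h.axS g := fun f g =>
      map_add (ZB5_hom h.axS) f g
    -- length over `B`
    have hB : Module.length B (SQ T h.axP h.axS ⧸ Z) ≤ L := by
      refine YB5_chain y hy L (SQ T h.axP h.axS ⧸ Z)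
        (fun k => Ideal.Quotient.mk Z (mkQ h.axS (Zg T k))) ?_ ?_
      · intro ν k
        have hrel : y ν • mkQ h.axS (Zg T k) =
            (∑ k' : Fin L, (if k' < k then T (.ka ν k k') else 0) • mkQ h.axS (Zg T k')) +
            ∑ μ, mkQ h.axS (mS (Zc T) (Zd T) (pS (Zc T) (Zd T) (Zz T μ) t)
              (fun m a => T (.w ν k μ m a))) := by
          rw [hsmul, ZB5_smul]
          have e1 : (fun m a => y ν * Zg T k m a) = fun m a =>
              ((∑ k' : Fin L, (if k' < k then T (.ka ν k k') else 0) * Zg T k' m a) +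
              ∑ μ, mS (Zc T) (Zd T) (pS (Zc T) (Zd T) (Zz T μ) t)
                (fun m a => T (.w ν k μ m a)) m a) +
              ∑ s, mR (Zc T) (Zi T s) (fun a => T (.wI ν k s m a)) a := by
            funext m a
            rw [h.ka ν k m a]
            congr 2
            refine Finset.sum_congr rfl fun k' _ => ?_
            split_ifs <;> simp
          rw [e1, hadd, hadd, hfun, hfun, ZB5_ideal h.axS (fun s m a => T (.wI ν k s m a)),
            add_zero]
          congr 1
          refine Finset.sum_congr rfl fun k' _ => ?_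
          rw [hsmul, ZB5_smul]
        have h1 : y ν • (Ideal.Quotient.mk Z (mkQ h.axS (Zg T k))) =
            ∑ k' : Fin L, (if k' < k then T (.ka ν k k') else 0) •
              Ideal.Quotient.mk Z (mkQ h.axS (Zg T k')) := by
          have h2 : Ideal.Quotient.mk Z (y ν • mkQ h.axS (Zg T k)) =
              y ν • (Ideal.Quotient.mk Z (mkQ h.axS (Zg T k))) := rfl
          rw [← h2, hrel, map_add, map_sum, map_sum]
          have h3 : ∑ μ, Ideal.Quotient.mk Z (mkQ h.axS (mS (Zc T) (Zd T)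
              (pS (Zc T) (Zd T) (Zz T μ) t) (fun m a => T (.w ν k μ m a)))) = 0 :=
            Finset.sum_eq_zero fun μ _ => Ideal.Quotient.eq_zero_iff_mem.mpr (hzmem μ _)
          rw [h3, add_zero]
          rfl
        rw [h1]
        refine Submodule.sum_mem _ fun k' _ => ?_
        by_cases hk : k' < k
        · rw [if_pos hk]
          exact Submodule.smul_mem _ _ (Submodule.subset_span ⟨k', hk, rfl⟩)
        · rw [if_neg hk, zero_smul]
          exact Submodule.zero_mem _
      · rw [eq_top_iff]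
        intro q' _
        obtain ⟨x, rfl⟩ := Ideal.Quotient.mk_surjective q'
        obtain ⟨v, rfl⟩ := ZB5_surj h.axS x
        have hb : ∀ a b, Ideal.Quotient.mk Z (mkQ h.axS (bS B n r a b)) ∈
            Submodule.span B (Set.range fun k : Fin L =>
              Ideal.Quotient.mk Z (mkQ h.axS (Zg T k))) := by
          intro a b
          have hrel : mkQ h.axS (bS B n r a b) =
              (∑ k : Fin L, T (.la a b k) • mkQ h.axS (Zg T k)) +
              ∑ μ, mkQ h.axS (mS (Zc T) (Zd T) (pS (Zc T) (Zd T) (Zz T μ) t)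
                (fun m a' => T (.v a b μ m a'))) := by
            have e1 : bS B n r a b = fun m a' =>
                ((∑ k : Fin L, T (.la a b k) * Zg T k m a') +
                ∑ μ, mS (Zc T) (Zd T) (pS (Zc T) (Zd T) (Zz T μ) t)
                  (fun m a' => T (.v a b μ m a')) m a') +
                ∑ s, mR (Zc T) (Zi T s) (fun a' => T (.vI a b s m a')) a' := by
              funext m a'
              exact h.la a b m a'
            rw [e1, hadd, hadd, hfun, hfun, ZB5_ideal h.axS (fun s m a' => T (.vI a b s m a')),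
              add_zero]
            congr 1
            refine Finset.sum_congr rfl fun k' _ => ?_
            rw [hsmul, ZB5_smul]
          rw [hrel, map_add, map_sum, map_sum]
          have h3 : ∑ μ, Ideal.Quotient.mk Z (mkQ h.axS (mS (Zc T) (Zd T)
              (pS (Zc T) (Zd T) (Zz T μ) t) (fun m a' => T (.v a b μ m a')))) = 0 :=
            Finset.sum_eq_zero fun μ _ => Ideal.Quotient.eq_zero_iff_mem.mpr (hzmem μ _)
          rw [h3, add_zero]
          refine Submodule.sum_mem _ fun k _ => ?_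
          have h4 : Ideal.Quotient.mk Z (T (.la a b k) • mkQ h.axS (Zg T k)) =
              T (.la a b k) • Ideal.Quotient.mk Z (mkQ h.axS (Zg T k)) := rfl
          rw [h4]
          exact Submodule.smul_mem _ _ (Submodule.subset_span ⟨k, rfl⟩)
        rw [ZB5_sum, map_sum]
        refine Submodule.sum_mem _ fun a _ => ?_
        rw [map_sum]
        refine Submodule.sum_mem _ fun b _ => ?_
        have h4 : Ideal.Quotient.mk Z (ZB5_psi h.axP h.axS (v a b) * mkQ h.axS (bS B n r a b)) =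
            v a b • Ideal.Quotient.mk Z (mkQ h.axS (bS B n r a b)) := rfl
        rw [h4]
        exact Submodule.smul_mem _ _ (hb a b)
    have h5 := Submodule.length_le_length_restrictScalars (R := SQ T h.axP h.axS) B
      (⊤ : Submodule (SQ T h.axP h.axS) (SQ T h.axP h.axS ⧸ Z))
    rw [Module.length_top] at h5
    refine h5.trans (le_trans (le_of_eq ?_) hB)
    exact (Module.length_top (R := B) (M := SQ T h.axP h.axS ⧸ Z))

end Vale.Agent.P202Z
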