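import Vale.Agent.P202Y.YB6

/-! # P202Z, module ZB6 (helper88) -/

namespace Vale.Agent.P202Z

open IsLocalRing Vale.Agent.P202 Vale.Agent.P202Y Filter

universe u

theorem mult_le_length_pow_proved (S : Type u) [CommRing S] [IsLocalRing S] [IsNoetherianRing S]
    (D : ℕ) (hD : ringKrullDim S = D) (z : Fin D → S) (hz : ∀ ν, z ν ∈ maximalIdeal S) (t L : ℕ)
    (ht : 1 ≤ t) (hL : Module.length S (S ⧸ Ideal.span (Set.range fun ν => z ν ^ t)) ≤ L) (x : ℝ)
    (hx : HasMult S x) : x * (t : ℝ) ^ D ≤ L := by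
  rcases Nat.eq_zero_or_pos D with h0 | hpos
  · subst h0
    rw [pow_zero, mul_one]
    exact mult_le_length_proved S 0 hD (fun ν => z ν ^ t)
      (fun ν => Ideal.pow_mem_of_mem _ (hz ν) t (by omega)) L hL x hx
  obtain ⟨d, hd, hlim⟩ := hx
  have hdD : d = D := by
    have : ((d : ℕ) : WithBot ℕ∞) = D := hd.symm.trans hD
    exact_mod_cast this
  subst hdD
  have hIle : Ideal.span (Set.range fun ν => z ν ^ t) ≤ maximalIdeal S ^ t := by
    rw [Ideal.span_le]
    rintro _ ⟨ν, rfl⟩
    exact Ideal.pow_mem_pow (hz ν) t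
  have hof : Ideal.ofList (List.ofFn fun ν => z ν ^ t) = Ideal.span (Set.range fun ν => z ν ^ t) := by
    unfold Ideal.ofList
    congr 1
    ext a
    simp [List.mem_ofFn]
  have key : ∀ n : ℕ, Module.length S (S ⧸ maximalIdeal S ^ (t * (n + 1))) ≤
      (((n + d).choose d * L : ℕ) : ℕ∞) := by
    intro n
    have h1 := YB6_key (List.ofFn fun ν => z ν ^ t) ⊥ n
    rw [hof, sup_bot_eq, sup_bot_eq, List.length_ofFn] at h1
    have h2 : Module.length S (S ⧸ maximalIdeal S ^ (t * (n + 1))) ≤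
        cl (Ideal.span (Set.range fun ν => z ν ^ t) ^ (n + 1)) := by
      refine cl_anti ?_
      rw [pow_mul]
      exact Ideal.pow_right_mono hIle _
    refine h2.trans (h1.trans ?_)
    rw [Nat.cast_mul]
    exact mul_le_mul' le_rfl hL
  have key2 : ∀ n : ℕ, (Module.length S (S ⧸ maximalIdeal S ^ (t * (n + 1)))).toNat ≤
      (n + d).choose d * L := fun n => ENat.toNat_le_of_le_natCast (key n)
  obtain ⟨s, rfl⟩ := Nat.exists_eq_succ_of_ne_zero hpos.ne'
  have htpos : (0 : ℝ) < t := by exact_mod_cast ht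
  have hsub : Tendsto (fun m : ℕ => t * m) atTop atTop :=
    tendsto_id.const_mul_atTop' (by omega)
  have hlim2 := (hlim.comp hsub).mul_const ((t : ℝ) ^ (s + 1))
  refine limit_le (fun m => (Module.length S (S ⧸ maximalIdeal S ^ (t * m))).toNat)
    (x * (t : ℝ) ^ (s + 1)) L 0 s (hlim2.congr fun m => ?_) ?_
  · simp only [Function.comp_apply, Nat.succ_eq_add_one, Nat.cast_mul, mul_pow]
    rcases Nat.eq_zero_or_pos m with h0 | hm
    · subst h0
      simp
    · have hm' : (0 : ℝ) < m := by exact_mod_cast hm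
      field_simp
  · intro N
    rcases Nat.eq_zero_or_pos N with h0 | hN
    · subst h0
      have h0 : cl (maximalIdeal S ^ (t * 0)) = 0 := by
        rw [mul_zero, pow_zero, Ideal.one_eq_top]
        exact cl_top
      change (cl (maximalIdeal S ^ (t * 0))).toNat ≤ _
      rw [h0, ENat.toNat_zero]
      exact Nat.zero_le _
    · obtain ⟨n, rfl⟩ := Nat.exists_eq_succ_of_ne_zero hN.ne'
      refine (key2 n).trans ?_
      rw [zero_mul, add_zero, mul_comm]
      rw [show n + s.succ = n.succ + s by rw [Nat.succ_eq_add_one, Nat.succ_eq_add_one]; ring]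

end Vale.Agent.P202Z
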