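import Vale.Agent.P190.PSeries

/-! # P202Z, ZC1: dimension of a finite algebra over `k[[y]]` (helper48) -/

namespace Vale.Agent.P202Z

open IsLocalRing

universe u v

theorem ZC1_dim (A : Type u) [CommRing A] (R : Type v) [CommRing R] [Algebra A R]
    [Algebra.IsIntegral A R] (hinj : Function.Injective (algebraMap A R)) :
    ringKrullDim R = ringKrullDim A := by
  apply le_antisymm
  · refine Order.krullDim_le_of_strictMono (PrimeSpectrum.comap (algebraMap A R)) ?_
    intro P Q h
    exact Ideal.IsIntegral.comap_lt_comap (R := A) (I := P.asIdeal) (J := Q.asIdeal) h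
  · refine iSup_le fun l => ?_
    obtain ⟨Q, _, hQ, hQl⟩ := Ideal.exists_ideal_over_prime_of_isIntegral (S := R)
      (RelSeries.head l).asIdeal ⊥ (by
        intro x hx
        rw [Ideal.mem_comap, Ideal.mem_bot] at hx
        have : x = 0 := hinj (by rw [hx, map_zero])
        rw [this]; exact Ideal.zero_mem _)
    have : Q.LiesOver (RelSeries.head l).asIdeal := ⟨hQl.symm⟩
    obtain ⟨L, hL, _⟩ := Ideal.exists_ltSeries_of_hasGoingUp l Q
    rw [← hL]
    exact Order.LTSeries.length_le_krullDim L

theorem dim_of_injective_proved (D : ℕ) {κ : Type u} [Field κ] (R : Type v) [CommRing R]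
    [IsLocalRing R] [IsNoetherianRing R] [Algebra (MvPowerSeries (Fin D) κ) R]
    [Module.Finite (MvPowerSeries (Fin D) κ) R]
    [IsLocalHom (algebraMap (MvPowerSeries (Fin D) κ) R)] (s : ℕ) (hs : 1 ≤ s)
    (f : (Fin s → MvPowerSeries (Fin D) κ) →ₗ[MvPowerSeries (Fin D) κ] R)
    (hf : Function.Injective f) : ringKrullDim R = D := by
  rw [ZC1_dim (MvPowerSeries (Fin D) κ) R, P190.ringKrullDim_mvPowerSeries]
  rw [injective_iff_map_eq_zero]
  intro a ha
  have h1 : f (a • fun _ => 1) = 0 := by
    rw [map_smul, Algebra.smul_def, ha, zero_mul]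
  rw [← map_zero f] at h1
  have h2 := congrFun (hf h1) ⟨0, hs⟩
  simpa using h2

end Vale.Agent.P202Z
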