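import Vale.Agent.P202Z.Defs
import Vale.Agent.P202T.Defs
import Vale.Agent.P202.Def
import Vale.Agent.P202Z.LG
import Vale.Agent.P202Z.ZB1
import Vale.Agent.P202Z.ZB2
import Vale.Agent.P202Z.ZB3
import Vale.Agent.P202Z.ZB4
import Vale.Agent.P202Z.ZB5
import Vale.Agent.P202Z.ZB6
import Vale.Agent.P202Z.ZC1
import Vale.Agent.P202Z.ZC2
import Vale.Agent.P202Y.YC1
import Vale.Agent.P202Y.YC2
import Vale.Agent.P202Y.YC3
import Vale.Agent.P202.Full

/-! # P202Z ZE1: in characteristic `p` the relations over `k_p[[y]]` imply `s t^D ≤ L` -/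

namespace Vale.Agent.P202Z

open IsLocalRing Vale.Agent.P202 Vale.Agent.P202T Vale.Agent.P202Y

theorem ineq_p_proved (D : ℕ) (hP : LechG D) (p : ℕ) [Fact p.Prime] (n G r L c q K t s : ℕ)
    (T : Ix D n G r L c → MvPowerSeries (Fin D) (AlgebraicClosure (ZMod p)))
    (h : ZRel q K t (fun i => MvPowerSeries.X i) T) (hs : s + q = n + 2) (hq : 1 ≤ q)
    (hs1 : 1 ≤ s) (ht : 1 ≤ t) : s * t ^ D ≤ L := by
  have hch : CharP (MvPowerSeries (Fin D) (AlgebraicClosure (ZMod p))) p :=
    charP_of_injective_algebraMap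
      (FaithfulSMul.algebraMap_injective (AlgebraicClosure (ZMod p)) _) p
  have hinf : Infinite (ResidueField (MvPowerSeries (Fin D) (AlgebraicClosure (ZMod p)))) := by
    exact Infinite.of_injective ((residue _).comp (algebraMap (AlgebraicClosure (ZMod p))
      (MvPowerSeries (Fin D) (AlgebraicClosure (ZMod p))))) (RingHom.injective _)
  have hy := mvps_maximal_proved D (AlgebraicClosure (ZMod p))
  obtain ⟨hloc, hlh, hm, h0, hres⟩ := RQ_local_proved hy h
  have : IsDomain (MvPowerSeries (Fin D) (AlgebraicClosure (ZMod p))) :=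
    NoZeroDivisors.to_isDomain _
  obtain ⟨f, hf⟩ := RQ_rank_proved h s hs hq
  obtain ⟨hlocS, hlhS, hS1, hS0⟩ := SQ_local_proved hy h hm h0
  have : IsNoetherianRing (RQ T h.axP) :=
    IsNoetherianRing.of_finite (MvPowerSeries (Fin D) (AlgebraicClosure (ZMod p))) _
  have : IsNoetherianRing (SQ T h.axP h.axS) := IsNoetherianRing.of_finite (RQ T h.axP) _
  have hdim : ringKrullDim (RQ T h.axP) = D := dim_of_injective_proved D (RQ T h.axP) s hs1 f hf
  have hinj : Function.Injective
      (algebraMap (MvPowerSeries (Fin D) (AlgebraicClosure (ZMod p))) (RQ T h.axP)) := by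
    rw [injective_iff_map_eq_zero]
    intro b hb
    have h1 : f (b • Pi.single ⟨0, hs1⟩ 1) = f 0 := by
      rw [map_smul, Algebra.smul_def, hb, zero_mul, map_zero]
    have h2 := congrFun (hf h1) ⟨0, hs1⟩
    simpa using h2
  have : CharP (RQ T h.axP) p := charP_of_injective_algebraMap hinj p
  have : Infinite (ResidueField (RQ T h.axP)) :=
    Infinite.of_injective (ResidueField.map
      (algebraMap (MvPowerSeries (Fin D) (AlgebraicClosure (ZMod p))) (RQ T h.axP)))
      (RingHom.injective _)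
  obtain ⟨eR, heR, -⟩ := hasMult_UX (A := RQ T h.axP) D hdim
  have hsR : (s : ℝ) ≤ eR := rank_le_mult_proved D (RQ T h.axP) hres hdim s f hf c
    (RQ_red_proved hy h hm) eR heR
  have hart : IsArtinianRing (SQ T h.axP h.axS ⧸
      (maximalIdeal (RQ T h.axP)).map (algebraMap (RQ T h.axP) (SQ T h.axP h.axS))) := by
    have : Module.Finite (RQ T h.axP ⧸ maximalIdeal (RQ T h.axP)) (SQ T h.axP h.axS ⧸
      (maximalIdeal (RQ T h.axP)).map (algebraMap (RQ T h.axP) (SQ T h.axP h.axS))) :=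
        Module.Finite.of_restrictScalars_finite (RQ T h.axP) _ _
    have : IsArtinianRing (RQ T h.axP ⧸ maximalIdeal (RQ T h.axP)) := by
      let := Ideal.Quotient.field (maximalIdeal (RQ T h.axP))
      infer_instance
    exact IsArtinianRing.of_finite (RQ T h.axP ⧸ maximalIdeal (RQ T h.axP)) _
  have hdimS : ringKrullDim (SQ T h.axP h.axS) = D := by
    rw [dim_eq (R := RQ T h.axP) (S := SQ T h.axP h.axS) hart, hdim]
  obtain ⟨x, hx, -⟩ := hasMult_UX (A := SQ T h.axP h.axS) D hdimS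
  obtain ⟨hzm, hlz⟩ := SQ_length_proved hy h hS0 hS1
  have hle := mult_le_length_pow_proved (SQ T h.axP h.axS) D hdimS (fun ν => mkQ h.axS (Zz T ν)) hzm t L
    ht hlz x hx
  have hch2 := hP p (RQ T h.axP) (SQ T h.axP h.axS)
    (frob_finite_proved D p (AlgebraicClosure (ZMod p)) (RQ T h.axP)) hdim _ _ heR hx
  have h1 : ((s * t ^ D : ℕ) : ℝ) ≤ L := by
    push_cast
    have h2 : (0 : ℝ) ≤ (t : ℝ) ^ D := by positivity
    exact (mul_le_mul_of_nonneg_right (hsR.trans hch2) h2).trans hle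
  exact_mod_cast h1

end Vale.Agent.P202Z
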