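import Vale.Agent.P202Z.Defs
import Vale.Agent.P202T.Defs
import Vale.Agent.P202.Def
import Vale.Agent.P202Z.LG
import Vale.Agent.P202.Full
import Vale.Agent.P202Z.ZD8
import Vale.Agent.P202Z.ZD9
import Vale.Agent.P202Z.ZE2

/-! # P202Z, ZE3: Lech's inequality for all rings containing the rationals (assembly).
When ZD8, ZD9, ZE2 are proved: replace the import and the three names. -/

namespace Vale.Agent.P202Z

open IsLocalRing Vale.Agent.P202 Vale.Agent.P202Y

universe u v w

theorem lech_zero_proved (D : ℕ) (hP : LechG D) (R : Type u) (S : Type v) [CommRing R]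
    [IsLocalRing R] [IsNoetherianRing R] [CommRing S] [IsLocalRing S] [IsNoetherianRing S]
    [Algebra R S] [Module.Flat R S] [IsLocalHom (algebraMap R S)] [Algebra ℚ R]
    (hD : ringKrullDim R = D) (eR eS : ℝ) (hR : HasMult R eR) (hS : HasMult S eS) : eR ≤ eS := by
  obtain ⟨R', S', _, _, _, _, _, _, _, _, _, _, _, _, hD', hDS', hfib, h1, h2⟩ :=
    reduce_complete_proved D R S hD
  obtain ⟨xS, hxS, -⟩ := hasMult_UX (A := S') D hDS'
  have h3 := h2 eS xS hS hxS
  refine le_trans (le_of_forall_pos_le_add fun ε hε => ?_) h3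
  obtain ⟨l, _, _, n, G, r, L, c, q, K, t, s, T, hrel, hs, hq, ht, m1, m2⟩ :=
    extract_proved D R' S' hD' hDS' hfib eR xS (h1 eR hR) hxS ε hε
  rcases Nat.eq_zero_or_pos s with h0 | h0
  · subst h0
    have : (0 : ℝ) ≤ xS := Nat.cast_nonneg _
    have m1' : eR ≤ 0 := by simpa using m1
    linarith
  · have h4 := ineq_zero_proved D hP n G r L c q K t s T hrel hs hq h0 ht
    have h5 : (s : ℝ) * (t : ℝ) ^ D ≤ L := by exact_mod_cast h4
    have h6 : (0 : ℝ) < (t : ℝ) ^ D := by
      have : (0 : ℝ) < t := by exact_mod_cast ht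
      positivity
    have h7 : (s : ℝ) ≤ xS + ε := le_of_mul_le_mul_right (h5.trans m2) h6
    exact m1.trans h7

end Vale.Agent.P202Z
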