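import Vale.Agent.P202Y.Rings

/-! # P202Z: equal characteristic zero from characteristic p, GENERAL case (no Cohen-Macaulay
hypothesis): the finite system (owner helper7).

`P_B` = structure-constant algebra, free of rank `n+1` over `B`; `R_B = P_B / (g_s)`;
`S_B` = structure-constant algebra of rank `r+1` over `R_B`. -/

namespace Vale.Agent.P202Z

open Vale.Agent.P202Y

universe u v w

/-- indices of the unknowns -/
inductive Ix (D n G r L c : ℕ) : Type
  /-- structure constants of `P` -/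
  | cP (i j m : Fin (n + 1))
  | c0 (i j : Fin (n + 1)) (ν : Fin D)
  /-- generators of the ideal `I` of `P` -/
  | gI (s : Fin G) (a : Fin (n + 1))
  | gz (s : Fin G) (ν : Fin D)
  /-- structure constants of `S` over `R` (lifted to `P`) -/
  | cS (i j m : Fin (r + 1)) (a : Fin (n + 1))
  | sa (i j k l : Fin (r + 1)) (s : Fin G) (a : Fin (n + 1))
  /-- reduction of the maximal ideal of `R` -/
  | red (f : Fin (c + 1) → Fin n) (ν : Fin D) (g : Fin c → Fin n ⊕ Fin D) (a : Fin (n + 1))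
  | rd (f : Fin (c + 1) → Fin n) (s : Fin G) (a : Fin (n + 1))
  /-- nilpotency of `σ_j`, `j ≥ 1`, modulo `m S` -/
  | nl (j : Fin r) (m : Fin (r + 1)) (ν : Fin D)
  /-- parameters `z` of `S` -/
  | z (ν : Fin D) (m : Fin (r + 1)) (a : Fin (n + 1))
  | zc (ν μ : Fin D)
  /-- composition series of `S / (z^t)` -/
  | g (k : Fin L) (m : Fin (r + 1)) (a : Fin (n + 1))
  | ka (ν : Fin D) (k k' : Fin L)
  | w (ν : Fin D) (k : Fin L) (μ : Fin D) (m : Fin (r + 1)) (a : Fin (n + 1))
  | wI (ν : Fin D) (k : Fin L) (s : Fin G) (m : Fin (r + 1)) (a : Fin (n + 1))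
  | la (a : Fin (r + 1)) (b : Fin (n + 1)) (k : Fin L)
  | v (a : Fin (r + 1)) (b : Fin (n + 1)) (μ : Fin D) (m : Fin (r + 1)) (a' : Fin (n + 1))
  | vI (a : Fin (r + 1)) (b : Fin (n + 1)) (s : Fin G) (m : Fin (r + 1)) (a' : Fin (n + 1))

variable {D n G r L c : ℕ}

section Rel

variable {B : Type u} [CommRing B]

/-- structure constants of `P` -/
def Zc (T : Ix D n G r L c → B) : Fin (n + 1) → Fin (n + 1) → Fin (n + 1) → B :=
  fun i j m => T (.cP i j m)

/-- generators of `I` -/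
def Zi (T : Ix D n G r L c → B) (s : Fin G) : Fin (n + 1) → B := fun a => T (.gI s a)

/-- structure constants of `S` -/
def Zd (T : Ix D n G r L c → B) : Fin (r + 1) → Fin (r + 1) → Fin (r + 1) → Fin (n + 1) → B :=
  fun i j m a => T (.cS i j m a)

def Zz (T : Ix D n G r L c → B) (ν : Fin D) : Fin (r + 1) → Fin (n + 1) → B :=
  fun m a => T (.z ν m a)

def Zg (T : Ix D n G r L c → B) (k : Fin L) : Fin (r + 1) → Fin (n + 1) → B :=
  fun m a => T (.g k m a)

/-- The relations. `q` is the size of the vanishing minors, `K` the nilpotency exponent, `t` the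
power of the parameters. -/
structure ZRel (q K t : ℕ) (y : Fin D → B) (T : Ix D n G r L c → B) : Prop where
  /-- `P_B` is a commutative associative algebra -/
  runit : ∀ j m, Zc T 0 j m = if j = m then 1 else 0
  rcomm : ∀ i j m, Zc T i j m = Zc T j i m
  rassoc : ∀ i j k l, ∑ m, Zc T i j m * Zc T m k l = ∑ m, Zc T j k m * Zc T i m l
  rc0 : ∀ i j, ¬ (i = 0 ∧ j = 0) → Zc T i j 0 = ∑ ν, y ν * T (.c0 i j ν)
  /-- the generators of `I` -/
  gz : ∀ s, Zi T s 0 = ∑ ν, y ν * T (.gz s ν)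
  /-- the minors of size `q` of the matrix with rows `p_i g_s` vanish -/
  minors : ∀ (f : Fin q → Fin G × Fin (n + 1)) (h : Fin q → Fin (n + 1)),
    (Matrix.of fun i j => mR (Zc T) (bR B n (f i).2) (Zi T (f i).1) (h j)).det = 0
  /-- `S_B` is a commutative associative `R_B`-algebra -/
  sunit : ∀ j m a, Zd T 0 j m a = if j = m then oR B n a else 0
  scomm : ∀ i j m a, Zd T i j m a = Zd T j i m a
  sassoc : ∀ i j k l a, ∑ m, mR (Zc T) (Zd T i j m) (Zd T m k l) a =
    ∑ m, mR (Zc T) (Zd T j k m) (Zd T i m l) a +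
      ∑ s, mR (Zc T) (Zi T s) (fun a => T (.sa i j k l s a)) a
  /-- `m^(c+1) ≤ (y) m^c` -/
  red : ∀ (f : Fin (c + 1) → Fin n) a,
    lR (Zc T) (List.ofFn fun j => bR B n (f j).succ) a =
      (∑ ν, ∑ g : Fin c → Fin n ⊕ Fin D, y ν *
        mR (Zc T) (fun a => T (.red f ν g a)) (lR (Zc T) (List.ofFn fun j => gen y n (g j))) a) +
      ∑ s, mR (Zc T) (Zi T s) (fun a => T (.rd f s a)) a
  /-- `σ_j` is nilpotent modulo `m S` -/
  nl : ∀ (j : Fin r) m, pS (Zc T) (Zd T) (bS B n r j.succ 0) K m 0 = ∑ ν, y ν * T (.nl j m ν)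
  /-- `z_ν` is in the maximal ideal -/
  zc : ∀ ν, Zz T ν 0 0 = ∑ μ, y μ * T (.zc ν μ)
  /-- composition series -/
  ka : ∀ ν k m a, y ν * Zg T k m a = (∑ k' : Fin L, if k' < k then T (.ka ν k k') * Zg T k' m a
    else 0) + (∑ μ, mS (Zc T) (Zd T) (pS (Zc T) (Zd T) (Zz T μ) t) (fun m a => T (.w ν k μ m a)) m a)
    + ∑ s, mR (Zc T) (Zi T s) (fun a => T (.wI ν k s m a)) a
  la : ∀ a' b' m a, bS B n r a' b' m a = (∑ k : Fin L, T (.la a' b' k) * Zg T k m a) +
    (∑ μ, mS (Zc T) (Zd T) (pS (Zc T) (Zd T) (Zz T μ) t) (fun m a => T (.v a' b' μ m a)) m a)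
    + ∑ s, mR (Zc T) (Zi T s) (fun a => T (.vI a' b' s m a)) a

end Rel

/-! ### The rings -/

variable {B : Type u} [CommRing B] {q K t : ℕ} {y : Fin D → B} {T : Ix D n G r L c → B}

theorem ZRel.axP (h : ZRel q K t y T) : SCAx (Zc T) := ⟨h.runit, h.rcomm, h.rassoc⟩

/-- the ring `P_B` -/
abbrev PB (T : Ix D n G r L c → B) (h : SCAx (Zc T)) : Type u := SC (Zc T) h

/-- the ideal `I_B` -/
def IB (T : Ix D n G r L c → B) (h : SCAx (Zc T)) : Ideal (PB T h) :=
  Ideal.span (Set.range fun s => SC.vec.symm (Zi T s))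

/-- the ring `R_B` -/
abbrev RQ (T : Ix D n G r L c → B) (h : SCAx (Zc T)) : Type u := PB T h ⧸ IB T h

/-- structure constants of `S_B` over `R_B` -/
def dQ (T : Ix D n G r L c → B) (h : SCAx (Zc T)) :
    Fin (r + 1) → Fin (r + 1) → Fin (r + 1) → RQ T h :=
  fun i j m => Ideal.Quotient.mk (IB T h) (SC.vec.symm (Zd T i j m))

theorem PB_mul_vec (h : SCAx (Zc T)) (x y : PB T h) :
    SC.vec (x * y) = mR (Zc T) (SC.vec x) (SC.vec y) := rfl

theorem PB_symm_mul (h : SCAx (Zc T)) (x y : Fin (n + 1) → B) :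
    (SC.vec.symm (mR (Zc T) x y) : PB T h) = SC.vec.symm x * SC.vec.symm y := rfl

theorem mk_gen (h : SCAx (Zc T)) (s : Fin G) :
    Ideal.Quotient.mk (IB T h) (SC.vec.symm (Zi T s)) = 0 :=
  Ideal.Quotient.eq_zero_iff_mem.mpr (Ideal.subset_span ⟨s, rfl⟩)

theorem ZRel.axS (h : ZRel q K t y T) : SCAx (dQ T h.axP) where
  unit j m := by
    unfold dQ
    have e : (SC.vec.symm (Zd T 0 j m) : PB T h.axP) = if j = m then 1 else 0 := by
      refine SC.ext' fun a => ?_
      have := h.sunit j m a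
      change Zd T 0 j m a = _
      rw [this]
      split
      · rfl
      · rfl
    rw [e]
    split
    · rw [map_one]
    · rw [map_zero]
  comm i j m := by
    unfold dQ
    congr 1
    exact SC.ext' fun a => h.scomm i j m a
  assoc i j k l := by
    unfold dQ
    simp only [← map_mul, ← map_sum]
    have e : (∑ m, (SC.vec.symm (Zd T i j m) * SC.vec.symm (Zd T m k l) : PB T h.axP)) =
        ∑ m, (SC.vec.symm (Zd T j k m) * SC.vec.symm (Zd T i m l) : PB T h.axP) +
        ∑ s, SC.vec.symm (Zi T s) * SC.vec.symm (fun a => T (.sa i j k l s a)) := by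
      refine SC.ext' fun a => ?_
      have := h.sassoc i j k l a
      simp only [map_add, map_sum, Pi.add_apply, Finset.sum_apply]
      exact this
    rw [e, map_add, map_sum (Ideal.Quotient.mk (IB T h.axP)) _ Finset.univ (ι := Fin G)]
    simp only [map_mul, mk_gen, zero_mul, Finset.sum_const_zero, add_zero]

/-- the ring `S_B` -/
abbrev SQ (T : Ix D n G r L c → B) (h : SCAx (Zc T)) (h' : SCAx (dQ T h)) : Type u := SC (dQ T h) h'

/-- the map `P_B^(r+1) → S_B` -/
def mkQ {h : SCAx (Zc T)} (h' : SCAx (dQ T h)) (x : Fin (r + 1) → Fin (n + 1) → B) : SQ T h h' :=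
  SC.vec.symm fun m => Ideal.Quotient.mk (IB T h) (SC.vec.symm (x m))

end Vale.Agent.P202Z
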