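import Vale.Agent.P202Z.ZE3
import Vale.Agent.P202C.UltFin

/-! # P202Z: Lech's inequality for all local rings containing `ℚ` (helper7, with helper90's
characteristic `p` theorem) -/

namespace Vale.Agent.P202Z

open IsLocalRing Vale.Agent.P202

universe u v

/-- the characteristic `p` theorem -/
theorem lechG (D : ℕ) : LechG D := by
  intro p _ R S _ _ _ _ _ _ _ _ _ _ _ hF _ eR eS hR hS
  have hN : IsNoetherianRing S := IsNoetherianRing.of_finite R S
  exact Vale.Agent.P202C.lech_ffinite p R S hF eR eS hR hS

/-- Lech's inequality in equal characteristic zero -/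
theorem lech_charZero (R : Type u) (S : Type v) [CommRing R] [IsLocalRing R]
    [IsNoetherianRing R] [CommRing S] [IsLocalRing S] [IsNoetherianRing S] [Algebra R S]
    [Module.Flat R S] [IsLocalHom (algebraMap R S)] [Algebra ℚ R]
    (eR eS : ℝ) (hR : HasMult R eR) (hS : HasMult S eS) : eR ≤ eS := by
  obtain ⟨d, hd⟩ := exists_dim_nat (R := R)
  exact lech_zero_proved d (lechG d) R S hd eR eS hR hS

end Vale.Agent.P202Z
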