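import Vale.Agent.P202Z.Defs
import Vale.Agent.P202T.Defs
import Vale.Agent.P202.Def

/-! # P202Z: equal characteristic zero from characteristic p, general case: stubs (owner helper7)

Each module proves its statement in its own file `Vale/Agent/P202Z/<module>.lean` with the suffix
`_proved`, helper lemmas prefixed by the module name.  Most modules are variants of P202Y modules
(look at the corresponding proof there and adapt it). -/

namespace Vale.Agent.P202Z

open IsLocalRing Vale.Agent.P202 Vale.Agent.P202Y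

universe u v w

/-! ## A. The finite system (variants of P202Y YA1, YA23) -/

/-- ZA1 -/
instance Ix_finite (D n G r L c : ℕ) : Finite (Ix D n G r L c) := by
  sorry

/-- ZA2: the relations are polynomial. -/
theorem exists_system (D n G r L c q K t : ℕ) :
    ∃ F : Finset (MvPolynomial (Ix D n G r L c) (MvPolynomial (Fin D) ℤ)),
      ∀ (B : Type u) [CommRing B] (γ : MvPolynomial (Fin D) ℤ →+* B) (T : Ix D n G r L c → B),
        ZRel q K t (fun i => γ (MvPolynomial.X i)) T ↔
          ∀ f ∈ F, MvPolynomial.eval₂Hom γ T f = 0 := by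
  sorry

/-- ZA3: relations are preserved by ring homomorphisms. -/
theorem ZRel.map {D n G r L c q K t : ℕ} {B : Type u} [CommRing B] {B' : Type v} [CommRing B']
    {y : Fin D → B} {T : Ix D n G r L c → B} (h : ZRel q K t y T) (f : B →+* B') :
    ZRel q K t (fun i => f (y i)) (fun i => f (T i)) := by
  sorry

/-! ## B. The rings `R_B = RQ`, `S_B = SQ` over a local ring `B` -/

section B

variable {B : Type u} [CommRing B] [IsLocalRing B] [IsNoetherianRing B] {D n G r L c q K t : ℕ}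
  {y : Fin D → B} {T : Ix D n G r L c → B}

/-- ZB1: `R_B` is local; an element of `P_B` maps into the maximal ideal iff its coordinate `0` is in
`m_B` (use rc0, gz: these elements form an ideal containing `I_B`; red: the `p_i` are nilpotent
modulo `(y)`). -/
theorem RQ_local (hy : maximalIdeal B = Ideal.span (Set.range y)) (h : ZRel q K t y T) :
    ∃ _ : IsLocalRing (RQ T h.axP), IsLocalHom (algebraMap B (RQ T h.axP)) ∧
      (maximalIdeal (RQ T h.axP) =
        Ideal.span (Set.range fun i : Fin n => Ideal.Quotient.mk (IB T h.axP) (SC.bas i.succ)) ⊔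
        Ideal.span (Set.range fun ν => algebraMap B (RQ T h.axP) (y ν))) ∧
      (∀ x : PB T h.axP, Ideal.Quotient.mk (IB T h.axP) x ∈ maximalIdeal (RQ T h.axP) ↔
        SC.vec x 0 ∈ maximalIdeal B) ∧
      ∀ x : RQ T h.axP, ∃ b : B, x - algebraMap B (RQ T h.axP) b ∈ maximalIdeal (RQ T h.axP) := by
  sorry

/-- ZB2: the reduction equations (variant of YB2). -/
theorem RQ_red (hy : maximalIdeal B = Ideal.span (Set.range y)) (h : ZRel q K t y T)
    [IsLocalRing (RQ T h.axP)]
    (hm : maximalIdeal (RQ T h.axP) =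
        Ideal.span (Set.range fun i : Fin n => Ideal.Quotient.mk (IB T h.axP) (SC.bas i.succ)) ⊔
        Ideal.span (Set.range fun ν => algebraMap B (RQ T h.axP) (y ν))) (N : ℕ) :
    maximalIdeal (RQ T h.axP) ^ (N + c) ≤
      Ideal.span (Set.range fun ν => algebraMap B (RQ T h.axP) (y ν)) ^ N := by
  sorry

/-- ZB3: the vanishing minors give the rank of `R_B` (`B` a domain). -/
theorem RQ_rank [IsDomain B] (h : ZRel q K t y T) (s : ℕ) (hs : s + q = n + 2) (hq : 1 ≤ q) :
    ∃ f : (Fin s → B) →ₗ[B] RQ T h.axP, Function.Injective f := by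
  sorry

/-- ZB4: `S_B` is local (variant of YB4). -/
theorem SQ_local (hy : maximalIdeal B = Ideal.span (Set.range y)) (h : ZRel q K t y T)
    [IsLocalRing (RQ T h.axP)]
    (hm : maximalIdeal (RQ T h.axP) =
        Ideal.span (Set.range fun i : Fin n => Ideal.Quotient.mk (IB T h.axP) (SC.bas i.succ)) ⊔
        Ideal.span (Set.range fun ν => algebraMap B (RQ T h.axP) (y ν)))
    (h0 : ∀ x : PB T h.axP, Ideal.Quotient.mk (IB T h.axP) x ∈ maximalIdeal (RQ T h.axP) ↔
        SC.vec x 0 ∈ maximalIdeal B) :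
    ∃ _ : IsLocalRing (SQ T h.axP h.axS), IsLocalHom (algebraMap (RQ T h.axP) (SQ T h.axP h.axS)) ∧
      (∀ x : Fin (r + 1) → Fin (n + 1) → B, x 0 0 ∈ maximalIdeal B →
        mkQ h.axS x ∈ maximalIdeal (SQ T h.axP h.axS)) ∧
      ∀ x : B, x ∈ maximalIdeal B → algebraMap (RQ T h.axP) (SQ T h.axP h.axS)
        (algebraMap B (RQ T h.axP) x) ∈ maximalIdeal (SQ T h.axP h.axS) := by
  sorry

/-- ZB5: `length(S_B / (z^t)) ≤ L` (variant of YB5). -/
theorem SQ_length (hy : maximalIdeal B = Ideal.span (Set.range y)) (h : ZRel q K t y T)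
    [IsLocalRing (SQ T h.axP h.axS)]
    (hloc : ∀ x : B, x ∈ maximalIdeal B → algebraMap (RQ T h.axP) (SQ T h.axP h.axS)
        (algebraMap B (RQ T h.axP) x) ∈ maximalIdeal (SQ T h.axP h.axS))
    (hz : ∀ x : Fin (r + 1) → Fin (n + 1) → B, x 0 0 ∈ maximalIdeal B →
        mkQ h.axS x ∈ maximalIdeal (SQ T h.axP h.axS)) :
    (∀ ν, mkQ h.axS (Zz T ν) ∈ maximalIdeal (SQ T h.axP h.axS)) ∧
    Module.length (SQ T h.axP h.axS) (SQ T h.axP h.axS ⧸
      Ideal.span (Set.range fun ν => mkQ h.axS (Zz T ν) ^ t)) ≤ L := by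
  sorry

end B

/-- ZB6: `t^D e(S) ≤ length(S/(z^t))` (variant of YB6). -/
theorem mult_le_length_pow (S : Type u) [CommRing S] [IsLocalRing S] [IsNoetherianRing S] (D : ℕ)
    (hD : ringKrullDim S = D) (z : Fin D → S) (hz : ∀ ν, z ν ∈ maximalIdeal S) (t L : ℕ)
    (ht : 1 ≤ t) (hL : Module.length S (S ⧸ Ideal.span (Set.range fun ν => z ν ^ t)) ≤ L) (x : ℝ)
    (hx : HasMult S x) : x * (t : ℝ) ^ D ≤ L := by
  sorry

/-! ## C. Finite algebras over power series rings: rank and multiplicity -/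

section C

variable (D : ℕ) {κ : Type u} [Field κ] (R : Type v) [CommRing R] [IsLocalRing R]
  [IsNoetherianRing R] [Algebra (MvPowerSeries (Fin D) κ) R]
  [Module.Finite (MvPowerSeries (Fin D) κ) R] [IsLocalHom (algebraMap (MvPowerSeries (Fin D) κ) R)]

/-- ZC1: dimension -/
theorem dim_of_injective (s : ℕ) (hs : 1 ≤ s)
    (f : (Fin s → MvPowerSeries (Fin D) κ) →ₗ[MvPowerSeries (Fin D) κ] R)
    (hf : Function.Injective f) : ringKrullDim R = D := by
  sorry

/-- ZC2: rank `≤` multiplicity, if the maximal ideal is integral over `(y)` (Artin-Rees: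
`length(R/y^N) ≥ s * binom(N - c' + D - 1, D)`). -/
theorem rank_le_mult (hres : ∀ x : R, ∃ b, x - algebraMap (MvPowerSeries (Fin D) κ) R b ∈
      maximalIdeal R) (hD : ringKrullDim R = D) (s : ℕ)
    (f : (Fin s → MvPowerSeries (Fin D) κ) →ₗ[MvPowerSeries (Fin D) κ] R)
    (hf : Function.Injective f) (c : ℕ)
    (hc : ∀ N, maximalIdeal R ^ (N + c) ≤ Ideal.span
      (Set.range fun ν => algebraMap (MvPowerSeries (Fin D) κ) R (MvPowerSeries.X ν)) ^ N)
    (x : ℝ) (hx : HasMult R x) : (s : ℝ) ≤ x := by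
  sorry

/-- ZC3: multiplicity `≤` rank (torsion cokernel has length `O(N^(D-1))`). -/
theorem mult_le_rank (hres : ∀ x : R, ∃ b, x - algebraMap (MvPowerSeries (Fin D) κ) R b ∈
      maximalIdeal R) (hD : ringKrullDim R = D) (s : ℕ)
    (f : (Fin s → MvPowerSeries (Fin D) κ) →ₗ[MvPowerSeries (Fin D) κ] R)
    (a : MvPowerSeries (Fin D) κ) (ha : a ≠ 0) (hf : ∀ x : R, ∃ v, f v = a • x)
    (x : ℝ) (hx : HasMult R x) : x ≤ s := by
  sorry

/-- ZC4: Lech's limit formula (upper bound): `length(R/(y^t)) ≤ (s + ε) t^D` for some large `t`. -/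
theorem lech_limit (hres : ∀ x : R, ∃ b, x - algebraMap (MvPowerSeries (Fin D) κ) R b ∈
      maximalIdeal R) (s : ℕ)
    (f : (Fin s → MvPowerSeries (Fin D) κ) →ₗ[MvPowerSeries (Fin D) κ] R)
    (a : MvPowerSeries (Fin D) κ) (ha : a ≠ 0) (hf : ∀ x : R, ∃ v, f v = a • x)
    (ε : ℝ) (hε : 0 < ε) :
    ∃ t L : ℕ, 1 ≤ t ∧ Module.length R (R ⧸ Ideal.span
      (Set.range fun ν => algebraMap (MvPowerSeries (Fin D) κ) R (MvPowerSeries.X ν) ^ t)) = L ∧
      (L : ℝ) ≤ (s + ε) * (t : ℝ) ^ D := by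
  sorry

end C

/-- ZC5: generic freeness over a domain (see P202C/W4.lean). -/
theorem exists_rank (A : Type u) [CommRing A] [IsDomain A] (R : Type v) [AddCommGroup R]
    [Module A R] [Module.Finite A R] :
    ∃ (s : ℕ) (f : (Fin s → A) →ₗ[A] R) (a : A), Function.Injective f ∧ a ≠ 0 ∧
      ∀ x : R, ∃ v, f v = a • x := by
  sorry

/-! ## D. From characteristic zero to the relations -/

/-- ZD1: a finite free local algebra mapping onto `R`. (`P = A[X_1..X_m]/(f_i(X_i))`, iterated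
`AdjoinRoot`, `f_i` monic with `f_i(r_i) = 0` and `f_i = X^N` modulo `m_A`.) -/
theorem exists_P (A : Type u) [CommRing A] [IsLocalRing A] [IsNoetherianRing A]
    [IsAdicComplete (maximalIdeal A) A] (R : Type v) [CommRing R] [IsLocalRing R] [Algebra A R]
    [Module.Finite A R] [IsLocalHom (algebraMap A R)]
    (hres : ∀ x : R, ∃ b, x - algebraMap A R b ∈ maximalIdeal R) :
    ∃ (n : ℕ) (c : Fin (n + 1) → Fin (n + 1) → Fin (n + 1) → A) (h : SCAx c)
      (π : SC c h →ₐ[A] R), Function.Surjective π ∧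
      (∀ i j, ¬ (i = 0 ∧ j = 0) → c i j 0 ∈ maximalIdeal A) ∧
      ∀ i : Fin n, π (SC.bas i.succ) ∈ maximalIdeal R := by
  sorry

/-- ZD2: minors of a submodule of a free module with quotient of rank `≥ s` vanish. -/
theorem minors_vanish (A : Type u) [CommRing A] [IsDomain A] (N : ℕ) (R : Type v) [AddCommGroup R]
    [Module A R] (π : (Fin N → A) →ₗ[A] R) (hπ : Function.Surjective π) (s q : ℕ)
    (hs : s + q = N + 1) (f : (Fin s → A) →ₗ[A] R) (hf : Function.Injective f)
    (w : Fin q → Fin N → A) (hw : ∀ i, π (w i) = 0) (h : Fin q → Fin N) :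
    (Matrix.of fun i j => w i (h j)).det = 0 := by
  sorry

/-- ZD3: module finiteness over the power series ring. -/
theorem finite_psHom (D : ℕ) {l : Type u} [Field l] {S : Type v} [CommRing S] [IsLocalRing S]
    [IsNoetherianRing S] [IsAdicComplete (maximalIdeal S) S]
    (Ψ : MvPowerSeries (Fin D) l →+* S)
    (hm : ∀ i, Ψ (MvPowerSeries.X i) ∈ maximalIdeal S)
    (hl : ∀ x, ∃ t, x - Ψ (MvPowerSeries.C t) ∈ maximalIdeal S)
    (hfin : ∃ N, maximalIdeal S ^ N ≤ Ideal.span (Set.range fun i => Ψ (MvPowerSeries.X i))) :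
    Ψ.Finite ∧ IsLocalHom Ψ := by
  sorry

/-- ZD4: reductions of the maximal ideal exist (infinite residue field; variant of P202C/Red.lean
without regular sequences, superficial elements of P202/Superf.lean). -/
theorem exists_reduction_gen (R : Type u) [CommRing R] [IsLocalRing R] [IsNoetherianRing R]
    [Infinite (ResidueField R)] (D : ℕ) (hD : ringKrullDim R = D) :
    ∃ y : Fin D → R, (∀ l, y l ∈ maximalIdeal R) ∧
      ∃ c : ℕ, maximalIdeal R ^ (c + 1) ≤ Ideal.span (Set.range y) * maximalIdeal R ^ c := by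
  sorry

/-- ZD5: `S` is free over `R' = P' / I'` (flatness of `S` over `R`, lengths, Krull intersection):
surjectivity and kernel of `P'^(r+1) → S`. -/
theorem kernel_P (D : ℕ) (R : Type u) (S : Type v) [CommRing R] [IsLocalRing R]
    [IsNoetherianRing R] [IsAdicComplete (maximalIdeal R) R] [CommRing S] [IsLocalRing S]
    [IsNoetherianRing S] [IsAdicComplete (maximalIdeal S) S] [Algebra R S] [Module.Flat R S]
    [IsLocalHom (algebraMap R S)]
    {k : Type u} [Field k] {l : Type v} [Field l] (a : k →+* R) (b : l →+* S) (j : k →+* l)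
    (hab : b.comp j = (algebraMap R S).comp a)
    (hk : ∀ x, ∃ t, x - a t ∈ maximalIdeal R) (hl : ∀ x, ∃ t, x - b t ∈ maximalIdeal S)
    (hfib : ∃ N, maximalIdeal S ^ N ≤ (maximalIdeal R).map (algebraMap R S))
    (y : Fin D → R) (hy : ∀ i, y i ∈ maximalIdeal R)
    (hyfin : ∃ N, maximalIdeal R ^ N ≤ Ideal.span (Set.range y))
    (ΨR : MvPowerSeries (Fin D) k →+* R) (hRC : ∀ t, ΨR (MvPowerSeries.C t) = a t)
    (hRX : ∀ i, ΨR (MvPowerSeries.X i) = y i)
    (Ψ : MvPowerSeries (Fin D) l →+* S) (hSC : ∀ t, Ψ (MvPowerSeries.C t) = b t)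
    (hSX : ∀ i, Ψ (MvPowerSeries.X i) = algebraMap R S (y i))
    {n G : ℕ} (c : Fin (n + 1) → Fin (n + 1) → Fin (n + 1) → MvPowerSeries (Fin D) k)
    (h : SCAx c) (π : SC c h →+* R) (hπ : Function.Surjective π)
    (hπA : ∀ f, π (algebraMap _ _ f) = ΨR f)
    (g : Fin G → SC c h) (hg : RingHom.ker π = Ideal.span (Set.range g))
    (h' : SCAx fun i i' m => MvPowerSeries.map j (c i i' m))
    (φ' : SC (fun i i' m => MvPowerSeries.map j (c i i' m)) h' →+* S)
    (hφA : ∀ f, φ' (algebraMap _ _ f) = Ψ f)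
    (hφb : ∀ i, φ' (SC.bas i) = algebraMap R S (π (SC.bas i)))
    {r : ℕ} (σ : Fin (r + 1) → S)
    (hσ1 : ∀ x : S, ∃ t : Fin (r + 1) → l,
      x - ∑ m, b (t m) * σ m ∈ (maximalIdeal R).map (algebraMap R S))
    (hσ2 : ∀ t : Fin (r + 1) → l, ∑ m, b (t m) * σ m ∈ (maximalIdeal R).map (algebraMap R S) →
      t = 0) :
    (∀ x : S, ∃ v : Fin (r + 1) → SC (fun i i' m => MvPowerSeries.map j (c i i' m)) h',
      x = ∑ m, φ' (v m) * σ m) ∧
    ∀ v : Fin (r + 1) → SC (fun i i' m => MvPowerSeries.map j (c i i' m)) h',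
      ∑ m, φ' (v m) * σ m = 0 → ∀ m, v m ∈ Ideal.span (Set.range fun s : Fin G =>
        (SC.vec.symm fun a => MvPowerSeries.map j (SC.vec (g s) a) :
          SC (fun i i' m => MvPowerSeries.map j (c i i' m)) h')) := by
  sorry

/-- ZD6: a basis of the closed fibre. -/
theorem exists_sigma (R : Type u) (S : Type v) [CommRing R] [IsLocalRing R]
    [CommRing S] [IsLocalRing S] [IsNoetherianRing S] [Algebra R S]
    [IsLocalHom (algebraMap R S)] {l : Type v} [Field l] (b : l →+* S)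
    (hl : ∀ x, ∃ t, x - b t ∈ maximalIdeal S)
    (hfib : ∃ N, maximalIdeal S ^ N ≤ (maximalIdeal R).map (algebraMap R S)) :
    ∃ (r : ℕ) (σ : Fin (r + 1) → S), σ 0 = 1 ∧ (∀ i : Fin r, σ i.succ ∈ maximalIdeal S) ∧
      (∀ x : S, ∃ t : Fin (r + 1) → l,
        x - ∑ m, b (t m) * σ m ∈ (maximalIdeal R).map (algebraMap R S)) ∧
      (∀ t : Fin (r + 1) → l, ∑ m, b (t m) * σ m ∈ (maximalIdeal R).map (algebraMap R S) →
        t = 0) := by
  sorry

/-- ZD7: extraction of the relations from the rings (helper7). -/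
theorem extract_rel (D : ℕ) (R : Type u) (S : Type v) [CommRing R] [IsLocalRing R]
    [IsNoetherianRing R] [IsAdicComplete (maximalIdeal R) R] [CommRing S] [IsLocalRing S]
    [IsNoetherianRing S] [IsAdicComplete (maximalIdeal S) S] [Algebra R S] [Module.Flat R S]
    [IsLocalHom (algebraMap R S)]
    {k : Type u} [Field k] {l : Type v} [Field l] (a : k →+* R) (b : l →+* S) (j : k →+* l)
    (hab : b.comp j = (algebraMap R S).comp a)
    (hk : ∀ x, ∃ t, x - a t ∈ maximalIdeal R) (hl : ∀ x, ∃ t, x - b t ∈ maximalIdeal S)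
    (hfib : ∃ N, maximalIdeal S ^ N ≤ (maximalIdeal R).map (algebraMap R S))
    (y : Fin D → R) (hy : ∀ i, y i ∈ maximalIdeal R)
    (c : ℕ) (hc : maximalIdeal R ^ (c + 1) ≤ Ideal.span (Set.range y) * maximalIdeal R ^ c)
    (ΨR : MvPowerSeries (Fin D) k →+* R) (hRC : ∀ t, ΨR (MvPowerSeries.C t) = a t)
    (hRX : ∀ i, ΨR (MvPowerSeries.X i) = y i)
    (s : ℕ) (ρ : Fin s → R) (hρ : ∀ f : Fin s → MvPowerSeries (Fin D) k,
      ∑ i, ΨR (f i) * ρ i = 0 → f = 0)
    (z : Fin D → S) (hz : ∀ i, z i ∈ maximalIdeal S) (t L : ℕ) (g : Fin L → S)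
    (hg1 : ∀ x ∈ maximalIdeal S, ∀ k, ∃ κ : Fin L → l, (∀ k', ¬ k' < k → κ k' = 0) ∧
        x * g k - ∑ k', b (κ k') * g k' ∈ Ideal.span (Set.range fun ν => z ν ^ t))
    (hg2 : ∀ x, ∃ κ : Fin L → l, x - ∑ k', b (κ k') * g k' ∈
      Ideal.span (Set.range fun ν => z ν ^ t)) :
    ∃ (n G r q K : ℕ) (T : Ix D n G r L c → MvPowerSeries (Fin D) l),
      s + q = n + 2 ∧ 1 ≤ q ∧ ZRel q K t (fun i => MvPowerSeries.X i) T := by
  sorry

/-- ZD8: extraction, with the multiplicities. -/
theorem extract (D : ℕ) (R : Type u) (S : Type v) [CommRing R] [IsLocalRing R]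
    [IsNoetherianRing R] [IsAdicComplete (maximalIdeal R) R] [CommRing S] [IsLocalRing S]
    [IsNoetherianRing S] [IsAdicComplete (maximalIdeal S) S] [Algebra R S] [Module.Flat R S]
    [IsLocalHom (algebraMap R S)] [Algebra ℚ R] (hD : ringKrullDim R = D)
    (hDS : ringKrullDim S = D)
    (hfib : ∃ N, maximalIdeal S ^ N ≤ (maximalIdeal R).map (algebraMap R S))
    (xR xS : ℝ) (hxR : HasMult R xR) (hxS : HasMult S xS) (ε : ℝ) (hε : 0 < ε) :
    ∃ (l : Type v) (_ : Field l) (_ : CharZero l) (n G r L c q K t s : ℕ)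
      (T : Ix D n G r L c → MvPowerSeries (Fin D) l),
      ZRel q K t (fun i => MvPowerSeries.X i) T ∧ s + q = n + 2 ∧ 1 ≤ q ∧ 1 ≤ t ∧
        xR ≤ s ∧ (L : ℝ) ≤ (xS + ε) * (t : ℝ) ^ D := by
  sorry

/-- ZD9: reduction to complete rings with artinian closed fibre (P202Y YD9 without the
Cohen-Macaulay part). -/
theorem reduce_complete (D : ℕ) (R : Type u) (S : Type v) [CommRing R] [IsLocalRing R]
    [IsNoetherianRing R] [CommRing S] [IsLocalRing S] [IsNoetherianRing S] [Algebra R S]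
    [Module.Flat R S] [IsLocalHom (algebraMap R S)] [Algebra ℚ R] (hD : ringKrullDim R = D) :
    ∃ (R' : Type u) (S' : Type v) (_ : CommRing R') (_ : IsLocalRing R')
      (_ : IsNoetherianRing R') (_ : IsAdicComplete (maximalIdeal R') R') (_ : CommRing S')
      (_ : IsLocalRing S') (_ : IsNoetherianRing S') (_ : IsAdicComplete (maximalIdeal S') S')
      (_ : Algebra R' S') (_ : Module.Flat R' S') (_ : IsLocalHom (algebraMap R' S'))
      (_ : Algebra ℚ R'), ringKrullDim R' = D ∧ ringKrullDim S' = D ∧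
      (∃ N, maximalIdeal S' ^ N ≤ (maximalIdeal R').map (algebraMap R' S')) ∧
      (∀ x, HasMult R x → HasMult R' x) ∧
      (∀ x x', HasMult S x → HasMult S' x' → x' ≤ x) := by
  sorry

/-! ## E. Assembly -/

/-- The characteristic `p` theorem for finite free local extensions. -/
def LechG (D : ℕ) : Prop :=
  ∀ (p : ℕ) [Fact p.Prime] (R S : Type) [CommRing R] [IsLocalRing R] [IsNoetherianRing R]
    [CharP R p] [Infinite (ResidueField R)] [CommRing S] [IsLocalRing S] [Algebra R S]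
    [Module.Finite R S] [Module.Free R S] [IsLocalHom (algebraMap R S)],
    (frobenius R p).Finite → ringKrullDim R = D →
    ∀ eR eS, HasMult R eR → HasMult S eS → eR ≤ eS

/-- ZE1: in characteristic `p` the relations over `k_p[[y]]` imply `s t^D ≤ L`. -/
theorem ineq_p (D : ℕ) (hP : LechG D) (p : ℕ) [Fact p.Prime] (n G r L c q K t s : ℕ)
    (T : Ix D n G r L c → MvPowerSeries (Fin D) (AlgebraicClosure (ZMod p)))
    (h : ZRel q K t (fun i => MvPowerSeries.X i) T) (hs : s + q = n + 2) (hq : 1 ≤ q)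
    (hs1 : 1 ≤ s) (ht : 1 ≤ t) : s * t ^ D ≤ L := by
  sorry

/-- ZE2: transfer to characteristic zero (variant of P202Y YE2). -/
theorem ineq_zero (D : ℕ) (hP : LechG D) {l : Type v} [Field l] [CharZero l]
    (n G r L c q K t s : ℕ) (T : Ix D n G r L c → MvPowerSeries (Fin D) l)
    (h : ZRel q K t (fun i => MvPowerSeries.X i) T) (hs : s + q = n + 2) (hq : 1 ≤ q)
    (hs1 : 1 ≤ s) (ht : 1 ≤ t) : s * t ^ D ≤ L := by
  sorry

/-- ZE3: Lech's inequality for all rings containing `ℚ`. -/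
theorem lech_zero (D : ℕ) (hP : LechG D) (R : Type u) (S : Type v) [CommRing R] [IsLocalRing R]
    [IsNoetherianRing R] [CommRing S] [IsLocalRing S] [IsNoetherianRing S] [Algebra R S]
    [Module.Flat R S] [IsLocalHom (algebraMap R S)] [Algebra ℚ R] (hD : ringKrullDim R = D)
    (eR eS : ℝ) (hR : HasMult R eR) (hS : HasMult S eS) : eR ≤ eS := by
  sorry

end Vale.Agent.P202Z
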